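import Vale.Agent.P195.Obs

/-! Additive closures, resolved modules, traces and the Casimir element. -/

open TensorProduct

namespace Vale.Agent.P195

noncomputable section

variable {k : Type} [Field k] {R : Type} [Ring R]

section addOf

variable {X Y Z W : Type} [AddCommGroup X] [Module R X] [AddCommGroup Y] [Module R Y]
  [AddCommGroup Z] [Module R Z] [AddCommGroup W] [Module R W]

/-- the second module is a summand of a finite sum of copies of the first. -/
def AddOf (R X Y : Type) [Ring R] [AddCommGroup X] [Module R X] [AddCommGroup Y] [Module R Y] :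
    Prop :=
  ∃ (I : Type) (_ : Fintype I) (c : I → Y →ₗ[R] X) (b : I → X →ₗ[R] Y), ∀ y, ∑ i, b i (c i y) = y

namespace AddOf

theorem retract (h : AddOf R X Y) : ∃ (m : ℕ) (a : Y →ₗ[R] (Fin m → X)) (b : (Fin m → X) →ₗ[R] Y),
    ∀ y, b (a y) = y := by
  obtain ⟨I, _, c, b, h⟩ := h
  let E := Fintype.equivFin I
  refine ⟨_, LinearMap.pi fun j => c (E.symm j), ∑ j, b (E.symm j) ∘ₗ LinearMap.proj j, fun y => ?_⟩
  simp only [LinearMap.coe_sum, Finset.sum_apply, LinearMap.comp_apply, LinearMap.proj_apply,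
    LinearMap.pi_apply]
  rw [E.symm.sum_comp (fun i => b i (c i y)), h]

theorem left (h : AddOf R X Y) {n : ℕ} (hX : EZ R X W n) : EZ R Y W n := by
  obtain ⟨m, a, b, h⟩ := h.retract
  exact EZ.left_retract a b h (EZ.left_pi hX m)

theorem right (h : AddOf R X Y) {n : ℕ} (hX : EZ R W X n) : EZ R W Y n := by
  obtain ⟨m, a, b, h⟩ := h.retract
  exact EZ.right_retract a b h (EZ.right_pi hX m)

theorem proj (h : AddOf R X Y) [Module.Projective R X] : Module.Projective R Y := by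
  obtain ⟨I, _, c, b, h⟩ := h
  exact proj_of_sum c b h

theorem inj (h : AddOf R X Y) [Module.Injective R X] : Module.Injective R Y := by
  obtain ⟨m, a, b, h⟩ := h.retract
  exact inj_of_retract a b h

theorem of_retract (a : Y →ₗ[R] X) (b : X →ₗ[R] Y) (h : ∀ y, b (a y) = y) : AddOf R X Y :=
  ⟨Unit, inferInstance, fun _ => a, fun _ => b, fun y => by simp [h]⟩

theorem of_equiv (e : Y ≃ₗ[R] X) : AddOf R X Y :=
  of_retract e.toLinearMap e.symm.toLinearMap (by simp)

theorem refl : AddOf R X X := of_equiv (LinearEquiv.refl R X)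

theorem trans (h : AddOf R X Y) (h' : AddOf R Y Z) : AddOf R X Z := by
  obtain ⟨I, _, c, b, h⟩ := h
  obtain ⟨I', _, c', b', h'⟩ := h'
  refine ⟨I' × I, inferInstance, fun p => c p.2 ∘ₗ c' p.1, fun p => b' p.1 ∘ₗ b p.2, fun z => ?_⟩
  simp only [Fintype.sum_prod_type, LinearMap.comp_apply, ← map_sum, h, h']

theorem prod (h : AddOf R X Y) (h' : AddOf R X Z) : AddOf R X (Y × Z) := by
  obtain ⟨I, _, c, b, h⟩ := h
  obtain ⟨I', _, c', b', h'⟩ := h'
  refine ⟨I ⊕ I', inferInstance, Sum.elim (fun i => c i ∘ₗ LinearMap.fst R Y Z)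
    (fun i => c' i ∘ₗ LinearMap.snd R Y Z), Sum.elim (fun i => LinearMap.inl R Y Z ∘ₗ b i)
    (fun i => LinearMap.inr R Y Z ∘ₗ b' i), fun z => ?_⟩
  simp only [Fintype.sum_sum_type, Sum.elim_inl, Sum.elim_inr, LinearMap.comp_apply, ← map_sum, h,
    h']
  simp

variable [Algebra k R]

theorem of_proj (k : Type) [Field k] [Algebra k R] (P : Type) [AddCommGroup P] [Module k P]
    [Module R P] [IsScalarTower k R P] [FiniteDimensional k P] [Module.Projective R P] :
    AddOf R R P := by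
  obtain ⟨r, e, c, h⟩ := exists_dualBasis k R P
  exact ⟨Fin r, inferInstance, c, fun i => LinearMap.toSpanSingleton R P (e i), h⟩

theorem of_inj (k : Type) [Field k] [Algebra k R] (P : Type) [AddCommGroup P] [Module k P]
    [Module R P] [IsScalarTower k R P] [FiniteDimensional k P] [hP : Module.Injective R P] :
    AddOf R (CoInd k R k) P := by
  classical
  let β := Module.finBasis k P
  let c : Fin (Module.finrank k P) → P →ₗ[R] CoInd k R k := fun i =>
    HomR.post _ (β.coord i) ∘ₗ toCoInd k R P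
  have hc : Function.Injective (LinearMap.pi c) := by
    rw [injective_iff_map_eq_zero]
    intro x hx
    refine β.ext_elem fun i => ?_
    have := congrArg (fun w : Fin (Module.finrank k P) → CoInd k R k => w i 1) hx
    simpa [c] using this
  obtain ⟨ρ, hρ⟩ := hP.out _ hc LinearMap.id
  refine ⟨_, inferInstance, c, fun i => ρ ∘ₗ LinearMap.single R (fun _ => CoInd k R k) i, fun y => ?_⟩
  simp only [LinearMap.comp_apply, ← map_sum]
  refine Eq.trans ?_ (hρ y)
  congr 1
  ext1 j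
  simp [Finset.sum_apply, Pi.single_apply]

end AddOf

theorem EZ.two {A U1 W1 U2 D : Type} [AddCommGroup A] [Module R A] [AddCommGroup U1] [Module R U1]
    [AddCommGroup W1] [Module R W1] [AddCommGroup U2] [Module R U2] [AddCommGroup D] [Module R D]
    {i1 : A →ₗ[R] U1} {p1 : U1 →ₗ[R] W1} {i2 : W1 →ₗ[R] U2} {p2 : U2 →ₗ[R] D} (h1 : SES i1 p1)
    (h2 : SES i2 p2) {n : ℕ} (hA : EZ R A X n) (hU1 : EZ R U1 X (n + 1))
    (hU2 : EZ R U2 X (n + 2)) : EZ R D X (n + 2) :=
  EZ.left_quot h2 (EZ.left_quot h1 hA hU1) hU2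

end addOf

variable [Algebra k R]

section res

/-- all Ext groups vanish. -/
def NN (R X s : Type) [Ring R] [AddCommGroup X] [Module R X] [AddCommGroup s] [Module R s] :
    Prop := ∀ n, EZ R X s n

theorem NN.coind {s : Type} [AddCommGroup s] [Module R s] (A : KMod k R → Prop)
    (h : ∀ Y, A Y → ∃ (Y' P : KMod k R) (i : Y' →ₗ[R] P) (p : P →ₗ[R] Y), SES i p ∧ NN R P s ∧ A Y')
    (X : KMod k R) (hX : A X) : NN R X s := by
  intro n
  induction n generalizing X with
  | zero =>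
    obtain ⟨Y', P, i, p, h1, h2, -⟩ := h X hX
    exact EZ.left_quot0 h1.surj (h2 0)
  | succ n ih =>
    obtain ⟨Y', P, i, p, h1, h2, h3⟩ := h X hX
    exact EZ.left_quot h1 (ih Y' h3) (h2 _)

theorem NN.of_proj {s P : Type} [AddCommGroup s] [Module R s] [AddCommGroup P] [Module R P]
    [Module.Projective R P] (h : EZ R P s 0) : NN R P s := fun n => by
  cases n with
  | zero => exact h
  | succ n => exact EZ.of_proj n

/-- modules resolved by projectives without maps to a given module. -/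
def Res (s X : KMod k R) : Prop :=
  ∃ A : KMod k R → Prop, A X ∧ ∀ Y, A Y → ∃ (Y' P : KMod k R) (i : Y' →ₗ[R] P) (p : P →ₗ[R] Y),
    SES i p ∧ Module.Projective R P ∧ EZ R P s 0 ∧ A Y'

theorem Res.nn {s X : KMod k R} (h : Res s X) : NN R X s := by
  obtain ⟨A, hX, h⟩ := h
  refine NN.coind A (fun Y hY => ?_) X hX
  obtain ⟨Y', P, i, p, h1, h2, h3, h4⟩ := h Y hY
  exact ⟨Y', P, i, p, h1, NN.of_proj h3, h4⟩

theorem Res.step {s X Y P : KMod k R} {i : Y →ₗ[R] P} {p : P →ₗ[R] X} (h : SES i p)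
    (hP : Module.Projective R P) (h0 : EZ R P s 0) (hY : Res s Y) : Res s X := by
  obtain ⟨A, hA, h'⟩ := hY
  refine ⟨fun Z => Z = X ∨ A Z, Or.inl rfl, ?_⟩
  rintro Z (rfl | hZ)
  · exact ⟨Y, P, i, p, h, hP, h0, Or.inr hA⟩
  · obtain ⟨Y', P, i, p, h1, h2, h3, h4⟩ := h' Z hZ
    exact ⟨Y', P, i, p, h1, h2, h3, Or.inr h4⟩

theorem Res.seq {s P : KMod k R} (hP : Module.Projective R P) (h0 : EZ R P s 0) (W : ℕ → KMod k R)
    (h : ∀ n, ∃ (i : W (n + 1) →ₗ[R] P) (p : P →ₗ[R] W n), SES i p) : Res s (W 0) := by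
  refine ⟨fun Z => ∃ n, Z = W n, ⟨0, rfl⟩, ?_⟩
  rintro Z ⟨n, rfl⟩
  obtain ⟨i, p, h⟩ := h n
  exact ⟨_, P, i, p, h, hP, h0, n + 1, rfl⟩

end res

section trace

variable {X Y : Type} [AddCommGroup X] [Module k X] [Module R X] [IsScalarTower k R X]
  [AddCommGroup Y] [Module k Y] [Module R Y] [IsScalarTower k R Y]

/-- all twisted traces vanish. -/
def TZ (k : Type) [Field k] [Algebra k R] (f : R) (X : Type) [AddCommGroup X] [Module k X]
    [Module R X] [IsScalarTower k R X] : Prop :=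
  ∀ g : X →ₗ[R] X, LinearMap.trace k X ((f • g.restrictScalars k : X →ₗ[k] X)) = 0

variable [FiniteDimensional k X] [FiniteDimensional k Y]

theorem trace_eq_sum {V : Type} [AddCommGroup V] [Module k V] [FiniteDimensional k V] {I : Type}
    [Fintype I] (φ : I → V →ₗ[k] k) (v : I → V) (h : ∀ y, ∑ i, φ i y • v i = y) (T : V →ₗ[k] V) :
    LinearMap.trace k V T = ∑ i, φ i (T (v i)) := by
  have : T = ∑ i, (φ i).smulRight (T (v i)) := by
    ext y
    conv_lhs => rw [← h y]
    simp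
  conv_lhs => rw [this]
  simp [LinearMap.trace_smulRight]

theorem TZ.add {f : R} (hX : TZ k f X) (h : AddOf R X Y) : TZ k f Y := by
  obtain ⟨I, _, c, b, h⟩ := h
  intro g
  have : (f • g.restrictScalars k : Y →ₗ[k] Y) =
      ∑ i, (f • (g ∘ₗ b i).restrictScalars k) ∘ₗ (c i).restrictScalars k := by
    ext y
    simp [← Finset.smul_sum, ← map_sum, h]
  rw [this, map_sum]
  refine Finset.sum_eq_zero fun i _ => ?_
  rw [LinearMap.trace_comp_comm', ← hX (c i ∘ₗ g ∘ₗ b i)]
  congr 1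
  ext x
  simp

theorem TZ.prod {f : R} (hX : TZ k f X) (hY : TZ k f Y) : TZ k f (X × Y) := by
  intro g
  have : (f • g.restrictScalars k : X × Y →ₗ[k] X × Y) =
      (f • (g ∘ₗ LinearMap.inl R X Y).restrictScalars k) ∘ₗ LinearMap.fst k X Y +
      (f • (g ∘ₗ LinearMap.inr R X Y).restrictScalars k) ∘ₗ LinearMap.snd k X Y := by
    refine LinearMap.ext fun y => ?_
    simp [← smul_add, ← map_add]
  rw [this, map_add, LinearMap.trace_comp_comm', LinearMap.trace_comp_comm' (LinearMap.snd k X Y)]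
  have h1 := hX (LinearMap.fst R X Y ∘ₗ g ∘ₗ LinearMap.inl R X Y)
  have h2 := hY (LinearMap.snd R X Y ∘ₗ g ∘ₗ LinearMap.inr R X Y)
  refine Eq.trans ?_ ((congrArg₂ (· + ·) h1 h2).trans (add_zero 0))
  rfl

variable [FiniteDimensional k R]

theorem TZ.reg {f : R}
    (h : ∀ c, LinearMap.trace k R (LinearMap.mulLeft k f ∘ₗ LinearMap.mulRight k c) = 0) :
    TZ k f R := by
  intro g
  rw [← h (g 1)]
  congr 1
  refine LinearMap.ext fun x => ?_
  change f * g x = f * (x * g 1)
  rw [← smul_eq_mul x, ← map_smul, smul_eq_mul, mul_one]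

theorem TZ.dual {f : R}
    (h : ∀ c, LinearMap.trace k R (LinearMap.mulLeft k c ∘ₗ LinearMap.mulRight k f) = 0) :
    TZ k f (CoInd k R k) := by
  intro g
  let l : Module.Dual k (Module.Dual k R) :=
    LinearMap.applyₗ (1 : R) ∘ₗ (HomR.lin _).toLinearMap ∘ₗ g.restrictScalars k ∘ₗ
      (HomR.lin _).symm.toLinearMap
  obtain ⟨c, hc⟩ := (Module.evalEquiv k R).surjective l
  have hc' : ∀ φ : CoInd k R k, g φ 1 = φ c := fun φ =>
    (congrArg (fun w : Module.Dual k (Module.Dual k R) => w (HomR.lin _ φ)) hc).symm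
  rw [← h c, ← LinearMap.trace_transpose' (LinearMap.mulLeft k c ∘ₗ _),
    ← LinearMap.trace_conj' _ (HomR.lin (RAct.rmul k R))]
  congr 1
  refine LinearMap.ext fun φ => LinearMap.ext fun a => ?_
  have := hc' ((a * f) • (HomR.lin _).symm φ)
  rw [map_smul] at this
  simp only [HomR.smul_apply, RAct.rmul_apply, one_mul] at this
  exact this

end trace

section casimir

variable {S : Type} [Ring S] [Algebra k S] [FiniteDimensional k S] [FiniteDimensional k R]

theorem exists_casimir (τ : SymForm k S) (χ : S →ₐ[k] k) (ι : R →ₐ[k] S) (f : R)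
    (hf : χ (ι f) = 1) (htr : TZ k f (K0 ι)) : ∃ ξ : S ⊗[k] K ι 0,
      (∀ x, ((rK ι 0).lT S).toLin x ξ = x • ξ) ∧ (∃ z, dL ι 0 z = ξ) ∧
      ext1 S ((toChr χ).toLinearMap ∘ₗ τ.t ∘ₗ (toK ι).symm.toLinearMap) ξ ≠ 0 := by
  let β := Module.finBasis k S
  let γ : Fin (Module.finrank k S) → S := fun i => τ.dualEquiv.symm (HomR.mk _ (β.coord i))
  have hγ : ∀ i y, τ.t (y * γ i) = β.repr y i := fun i y => by
    rw [← τ.dualEquiv_apply]
    simp [γ]
  have h1 : ∀ y, ∑ i, τ.t (y * γ i) • β i = y := fun y => by simp [hγ]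
  have h2 : ∀ y, ∑ i, τ.t (β i * y) • γ i = y := fun y => by
    rw [← sub_eq_zero]
    refine τ.nondeg _ fun b => ?_
    rw [mul_sub, map_sub, Finset.mul_sum, map_sum, sub_eq_zero]
    conv_rhs => rw [← h1 b, Finset.sum_mul, map_sum]
    simp [mul_comm]
  refine ⟨∑ i, (β i * ι f) ⊗ₜ toK ι (γ i), fun x => ?_, ?_, ?_⟩
  · simp only [map_sum, RAct.lT_tmul, rK_zero, Finset.smul_sum, smul_tmul', smul_eq_mul]
    have e1 : ∀ i, (β i * ι f) ⊗ₜ[k] toK ι (γ i * x) =
        ∑ j, τ.t (x * β j * γ i) • (β i * ι f) ⊗ₜ[k] toK ι (γ j) := fun i => by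
      conv_lhs => rw [← h2 (γ i * x), map_sum, tmul_sum]
      refine Finset.sum_congr rfl fun j _ => ?_
      rw [map_smul, tmul_smul, ← mul_assoc, τ.symm, ← mul_assoc]
    have e2 : ∀ j, (x * (β j * ι f)) ⊗ₜ[k] toK ι (γ j) =
        ∑ i, τ.t (x * β j * γ i) • (β i * ι f) ⊗ₜ[k] toK ι (γ j) := fun j => by
      conv_lhs => rw [← mul_assoc, ← h1 (x * β j), Finset.sum_mul, sum_tmul]
      simp only [smul_mul_assoc, smul_tmul']
    simp only [e1, e2]
    exact Finset.sum_comm
  · by_contra hn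
    have hn' : ∑ i, (β i * ι f) ⊗ₜ toK ι (γ i) ∉
      LinearMap.range ((dL ι 0).restrictScalars k) := hn
    obtain ⟨l, hl, hl'⟩ := Submodule.exists_le_ker_of_notMem hn'
    let g0 : K ι 0 →ₗ[k] S := (τ.dualEquiv.symm.toLinearMap.restrictScalars k) ∘ₗ
      (HomR.lin _).symm.toLinearMap ∘ₗ (TensorProduct.curry l).flip
    have hg0 : ∀ y a, τ.t (a * g0 y) = l (a ⊗ₜ y) := fun y a => by
      rw [← τ.dualEquiv_apply]
      simp [g0]
    have hg1 : ∀ b y, g0 (b • y) = ι b * g0 y := fun b y => by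
      rw [← sub_eq_zero]
      refine τ.nondeg _ fun a => ?_
      have := hl' ⟨a ⊗ₜ (K0 ι).rt 0 (b ⊗ₜ y), rfl⟩
      simp only [LinearMap.restrictScalars_apply, dL_rt, LinearMap.mem_ker, map_sub] at this
      rw [mul_sub, map_sub, ← mul_assoc, hg0, hg0, ← neg_sub, this, neg_zero]
    let g : K0 ι →ₗ[R] K0 ι :=
      { toFun := fun y => toK0 ι (g0 y)
        map_add' := fun a b => (congrArg (toK0 ι) (g0.map_add a b)).trans (map_add _ _ _)
        map_smul' := fun b y => congrArg (toK0 ι) (hg1 b y) }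
    apply hl
    have h3 := htr g
    rw [← LinearMap.trace_conj' _ (toK0 ι).symm,
      trace_eq_sum (fun i => τ.t ∘ₗ LinearMap.mulLeft k (β i)) γ h2] at h3
    rw [map_sum, ← h3]
    refine Finset.sum_congr rfl fun i _ => ?_
    rw [← hg0, mul_assoc]
    rfl
  · simp only [map_sum, ext1_tmul, LinearMap.comp_apply, LinearEquiv.coe_coe,
      LinearEquiv.symm_apply_apply, chr_smul, map_mul, hf, mul_one, ← map_smul]
    rw [← map_sum, LinearEquiv.map_ne_zero_iff]
    have := congrArg χ (h1 1)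
    simp only [map_sum, map_smul, one_mul, map_one, smul_eq_mul] at this
    simp only [map_smul, smul_eq_mul]
    rw [Finset.sum_congr rfl fun i _ => mul_comm (χ (β i)) (τ.t (γ i)), this]
    exact one_ne_zero

end casimir

end

end Vale.Agent.P195
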