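import Vale.Agent.P195.TE

/-! From a good algebra to the main data. -/

open TensorProduct

namespace Vale.Agent.P195

noncomputable section

variable {k : Type} [Field k]

section general

variable {R S : Type} [Ring R] [Algebra k R] [Ring S] [Algebra k S]

/-- restriction of a character. -/
def chrRes (χ : S →ₐ[k] k) (ι : R →ₐ[k] S) (χ' : R →ₐ[k] k) (h : ∀ r, χ (ι r) = χ' r) :
    (chr χ).res ι ≃ₗ[R] chr χ' :=
  { ((chr χ).toRes ι).symm.trans ((toChr χ).symm.trans (toChr χ')) with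
    map_smul' := fun r x => by
      change toChr χ' ((toChr χ).symm (((chr χ).toRes ι).symm (r • x))) = r • toChr χ' _
      rw [KMod.toRes_symm_smul, chr_smul, chr_smul, h, map_smul, map_smul]
      rfl }

theorem SES.of_equiv_prod {X Y Z : Type} [AddCommGroup X] [Module R X] [AddCommGroup Y]
    [Module R Y] [AddCommGroup Z] [Module R Z] (e : Y ≃ₗ[R] X × Z) :
    SES (e.symm.toLinearMap ∘ₗ LinearMap.inl R X Z) (LinearMap.snd R X Z ∘ₗ e.toLinearMap) := by
  refine SES.mk' (e.symm.injective.comp LinearMap.inl_injective)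
    ((LinearMap.snd_surjective (R := R)).comp e.surjective) (fun x => by simp) (fun y hy => ⟨(e y).1, ?_⟩)
  apply e.injective
  simp only [LinearMap.comp_apply, LinearEquiv.coe_coe, LinearEquiv.apply_symm_apply]
  exact Prod.ext rfl hy.symm

theorem span_mul_mem {I : Type} {e : I → S} {a : S}
    (ha : a ∈ Submodule.span k (Set.range fun p : S × I × S => p.1 * e p.2.1 * p.2.2)) (y : S) :
    a * y ∈ Submodule.span k (Set.range fun p : S × I × S => p.1 * e p.2.1 * p.2.2) := by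
  induction ha using Submodule.span_induction with
  | mem x hx =>
    obtain ⟨⟨a, i, b⟩, rfl⟩ := hx
    exact Submodule.subset_span ⟨(a, i, b * y), by simp [mul_assoc]⟩
  | zero => simp
  | add x y _ _ hx hy => rw [add_mul]; exact add_mem hx hy
  | smul c x _ hx => rw [smul_mul_assoc]; exact Submodule.smul_mem _ _ hx

theorem span_map_mem {I : Type} {e : I → S} {e0 : R} (φ : R →ₐ[k] S) (i : I) (h : φ e0 = e i)
    {c : R} (hc : c ∈ Submodule.span k (Set.range fun p : R × Unit × R => p.1 * e0 * p.2.2)) :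
    φ c ∈ Submodule.span k (Set.range fun p : S × I × S => p.1 * e p.2.1 * p.2.2) := by
  have := Submodule.mem_map_of_mem (f := φ.toLinearMap) hc
  rw [Submodule.map_span] at this
  refine Submodule.span_mono ?_ this
  rintro _ ⟨_, ⟨⟨x, u, y⟩, rfl⟩, rfl⟩
  exact ⟨(φ x, i, φ y), by simp [h]⟩

section two

variable {A U1 W1 U2 D X : Type} [AddCommGroup A] [Module R A] [AddCommGroup U1] [Module R U1]
  [AddCommGroup W1] [Module R W1] [AddCommGroup U2] [Module R U2] [AddCommGroup D] [Module R D]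
  [AddCommGroup X] [Module R X]
  {i1 : A →ₗ[R] U1} {p1 : U1 →ₗ[R] W1} {i2 : W1 →ₗ[R] U2} {p2 : U2 →ₗ[R] D}

theorem EZ.two0 (h2 : SES i2 p2) (hU2 : NN R U2 X) : EZ R D X 0 := EZ.left_quot0 h2.surj (hU2 0)

theorem EZ.two1 (h1 : SES i1 p1) (h2 : SES i2 p2) (hU1 : NN R U1 X) (hU2 : NN R U2 X) :
    EZ R D X 1 := EZ.left_quot h2 (EZ.left_quot0 h1.surj (hU1 0)) (hU2 1)

theorem EZ.two_back (h1 : SES i1 p1) (h2 : SES i2 p2) (hU1 : NN R U1 X) (hU2 : NN R U2 X) {n : ℕ}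
    (h : EZ R D X (n + 2)) : EZ R A X n := EZ.left_sub h1 (hU1 n) (EZ.left_sub h2 (hU2 _) h)

theorem E1.two (h1 : SES i1 p1) (h2 : SES i2 p2) (hU1 : NN R U1 X) (hU2 : NN R U2 X) {n : ℕ}
    (h : E1 k R A X n) : E1 k R D X (n + 2) := E1.left_quot h2 (E1.left_quot h1 h (hU1 _)) (hU2 _)

end two

theorem E1.reg_chr (χ : R →ₐ[k] k) : E1 k R R (chr χ) 0 := by
  rw [E1.zero_iff]
  refine ⟨LinearMap.toSpanSingleton R _ (toChr χ 1), fun g => ⟨(toChr χ).symm (g 1), ?_⟩⟩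
  ext
  simpa using chr_eq χ (g 1)

theorem not_EZ_reg_chr (χ : R →ₐ[k] k) : ¬ EZ R R (chr χ) 0 := by
  rw [EZ.zero_iff]
  intro h
  have := congrArg (fun g : R →ₗ[R] chr χ => g 1) (h (LinearMap.toSpanSingleton R _ (toChr χ 1)))
  simp at this

variable [FiniteDimensional k R]

theorem TE.factor (b : R) {P Q : KMod k R} (a1 : R →ₗ[R] P) (b1 : P →ₗ[R] R)
    (h1 : ∀ x, b1 (a1 x) = x * b) (a2 : CoInd k R k →ₗ[R] Q) (b2 : Q →ₗ[R] CoInd k R k)
    (h2 : ∀ φ, b2 (a2 φ) = rD k b φ) :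
    ∃ (α : K0 (TE.ι k R) →ₗ[R] KMod.of k R (P × Q)) (β : KMod.of k R (P × Q) →ₗ[R] K0 (TE.ι k R)),
      ∀ x, β (α x) = (r0 _).toLin (TE.ι k R b) x := by
  refine ⟨a1.prodMap a2 ∘ₗ (TE.equiv k R).toLinearMap,
    (TE.equiv k R).symm.toLinearMap ∘ₗ b1.prodMap b2, fun x => (TE.equiv k R).injective ?_⟩
  rw [TE.equiv_r]
  simp [h1, h2]

theorem proj_syzN {X : KMod k R} (n : ℕ)
    (h : ∀ (W : Type) [AddCommGroup W] [Module R W], EZ R X W (0 + 1 + n)) :
    Module.Projective R (X.syzN n) :=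
  proj_of_EZ fun W _ _ => (EZ.syzN n).1 (h W)

end general

section et

variable {A A' : Type} [Ring A] [Algebra k A] [Ring A'] [Algebra k A']
  [FiniteDimensional k A] [FiniteDimensional k A']

theorem ETreg_fac {P : KMod k A} {P' : KMod k A'} (c : A) (c' : A') (a : KMod.reg k A →ₗ[A] P)
    (b : P →ₗ[A] KMod.reg k A) (h : ∀ x, b (a (KMod.toReg k A x)) = KMod.toReg k A (x * c))
    (a' : KMod.reg k A' →ₗ[A'] P') (b' : P' →ₗ[A'] KMod.reg k A')
    (h' : ∀ x, b' (a' (KMod.toReg k A' x)) = KMod.toReg k A' (x * c')) (z : A ⊗[k] A') :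
    (ETreg.toLinearMap ∘ₗ ETmap b b') ((ETmap a a' ∘ₗ ETreg.symm.toLinearMap) z) =
      z * c ⊗ₜ c' := by
  induction z using TensorProduct.induction_on with
  | zero => simp
  | tmul x y =>
    conv_lhs => rw [← ETreg_tmul]
    simp only [LinearMap.comp_apply, LinearEquiv.coe_coe]
    rw [LinearEquiv.symm_apply_apply, ETmap_tmul, ETmap_tmul, h, h', ETreg_tmul,
      Algebra.TensorProduct.tmul_mul_tmul]
  | add x y hx hy => simp only [map_add, hx, hy, add_mul]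

theorem ETdual_fac {P : KMod k A} {P' : KMod k A'} (c : A) (c' : A') (a : DualM k A →ₗ[A] P)
    (b : P →ₗ[A] DualM k A) (h : ∀ x, b (a x) = rD k c x)
    (a' : DualM k A' →ₗ[A'] P') (b' : P' →ₗ[A'] DualM k A')
    (h' : ∀ x, b' (a' x) = rD k c' x) (z : CoInd k (A ⊗[k] A') k) :
    (ETdual.toLinearMap ∘ₗ ETmap b b') ((ETmap a a' ∘ₗ ETdual.symm.toLinearMap) z) =
      rD k (c ⊗ₜ c') z := by
  obtain ⟨z, rfl⟩ := ETdual.surjective z
  induction z using ET.ind with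
  | h0 => simp
  | h1 x y =>
    refine HomR.ext_lin (TensorProduct.ext' fun u v => ?_)
    simp only [LinearMap.comp_apply, LinearEquiv.coe_coe, LinearEquiv.symm_apply_apply]
    rw [ETmap_tmul, ETmap_tmul, h, h', ETdual_tmul, rD_apply, rD_apply, rD_apply,
      Algebra.TensorProduct.tmul_mul_tmul, ETdual_tmul]
  | h2 x y hx hy => simp only [map_add, hx, hy]

end et

/-- The properties needed from the small algebra. -/
structure Good (k C : Type) [Field k] [Ring C] [Algebra k C] [FiniteDimensional k C] where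
  χ : C →ₐ[k] k
  e : C
  f : C
  e_idem : e * e = e
  χe : χ e = 0
  χf : χ f = 1
  span : ∀ c, χ c = 0 → c ∈ Submodule.span k (Set.range fun p : C × Unit × C => p.1 * e * p.2.2)
  U : KMod k C
  W : KMod k C
  projU : Module.Projective C U
  injU : Module.Injective C U
  homU : EZ C U (chr χ) 0
  i1 : KMod.reg k C →ₗ[C] U
  p1 : U →ₗ[C] W
  s1 : SES i1 p1
  i2 : W →ₗ[C] U
  p2 : U →ₗ[C] DualM k C
  s2 : SES i2 p2
  a1 : KMod.reg k C →ₗ[C] U
  b1 : U →ₗ[C] KMod.reg k C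
  ab1 : ∀ c, b1 (a1 (KMod.toReg k C c)) = KMod.toReg k C (c * e)
  a2 : DualM k C →ₗ[C] U
  b2 : U →ₗ[C] DualM k C
  ab2 : ∀ φ, b2 (a2 φ) = rD k e φ
  N : KMod k C
  iN : N →ₗ[C] KMod.reg k C
  pN : KMod.reg k C →ₗ[C] chr χ
  sN : SES iN pN
  resN : Res (chr χ) N
  extD : EZ C (CoInd k C k) C 1
  trL : ∀ c, LinearMap.trace k C (LinearMap.mulLeft k f ∘ₗ LinearMap.mulRight k c) = 0
  trR : ∀ c, LinearMap.trace k C (LinearMap.mulLeft k c ∘ₗ LinearMap.mulRight k f) = 0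

namespace Good

variable {C : Type} [Ring C] [Algebra k C] [FiniteDimensional k C] (G : Good k C)

instance : Module.Projective C G.U := G.projU
instance : Module.Injective C G.U := G.injU

/-- the character of the tensor square. -/
def χB : C ⊗[k] C →ₐ[k] k := χT G.χ G.χ

/-- the character of the trivial extension. -/
def χS : TE k (C ⊗[k] C) →ₐ[k] k := G.χB.comp (TE.π k _)

/-- the idempotents. -/
def eS : Bool → TE k (C ⊗[k] C)
  | true => TE.ι k _ (G.e ⊗ₜ 1)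
  | false => TE.ι k _ (1 ⊗ₜ G.e)

theorem nL (Y : KMod k C) : NN (C ⊗[k] C) (ET G.U Y) (chr G.χB) := NN.etL G.homU Y

theorem nR (X : KMod k C) : NN (C ⊗[k] C) (ET X G.U) (chr G.χB) := NN.etR G.homU X

theorem ezD (i : ℕ) (hi : i < 4) : EZ (C ⊗[k] C) (ET (DualM k C) (DualM k C)) (chr G.χB) i := by
  interval_cases i
  · exact EZ.two0 (G.s2.etL _) (G.nL _)
  · exact EZ.two1 (G.s1.etL _) (G.s2.etL _) (G.nL _) (G.nL _)
  · exact EZ.two (G.s1.etL _) (G.s2.etL _) (EZ.two0 (G.s2.etR _) (G.nR _)) (G.nL _ _) (G.nL _ _)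
  · exact EZ.two (G.s1.etL _) (G.s2.etL _) (EZ.two1 (G.s1.etR _) (G.s2.etR _) (G.nR _) (G.nR _))
      (G.nL _ _) (G.nL _ _)

theorem e4D : E1 k (C ⊗[k] C) (ET (DualM k C) (DualM k C)) (chr G.χB) 4 :=
  E1.two (G.s1.etL _) (G.s2.etL _) (G.nL _) (G.nL _) (E1.two (G.s1.etR _) (G.s2.etR _) (G.nR _)
    (G.nR _) (E1.left_equiv ETreg (E1.reg_chr _)))

theorem ne4D : ¬ EZ (C ⊗[k] C) (ET (DualM k C) (DualM k C)) (chr G.χB) 4 := fun h =>
  not_EZ_reg_chr _ (EZ.left_equiv ETreg.symm (EZ.two_back (G.s1.etR _) (G.s2.etR _) (G.nR _)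
    (G.nR _) (EZ.two_back (G.s1.etL _) (G.s2.etL _) (G.nL _) (G.nL _) h)))

include G in
theorem pdD (M : Type) [AddCommGroup M] [Module (C ⊗[k] C) M] :
    EZ (C ⊗[k] C) (ET (DualM k C) (DualM k C)) M 5 := by
  have : ∀ (X : KMod k C) [Module.Projective C X] (n : ℕ),
      EZ (C ⊗[k] C) (ET X (DualM k C)) M (n + 1 + 2) := fun X _ n =>
    EZ.two (G.s1.etR X) (G.s2.etR X) (EZ.of_proj _) (EZ.of_proj _) (EZ.of_proj _)
  exact EZ.two (G.s1.etL _) (G.s2.etL _) (this _ 0) (this _ 1) (this _ 2)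

include G in
theorem finB : FinInj (ET (KMod.reg k C) (KMod.reg k C)) := by
  have : ∀ (X : KMod k C) [Module.Injective C X], FinInj (ET X (KMod.reg k C)) := fun X _ =>
    FinInj.sub (G.s1.etR X) (FinInj.inj _) (FinInj.sub (G.s2.etR X) (FinInj.inj _) (FinInj.inj _))
  exact FinInj.sub (G.s1.etL _) (this _) (FinInj.sub (G.s2.etL _) (this _) (this _))

theorem ezs (i : ℕ) : EZ (C ⊗[k] C) (chr G.χB) (chr G.χB) (i + 1) :=
  EZ.left_equiv (ETchr G.χ G.χ).symm (EZ.left_quot (G.sN.etL _) (G.resN.etL _ i)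
    (EZ.left_quot (G.sN.etR _) (G.resN.etR _ i) (EZ.of_proj _)))

/-- the restriction of the trivial extension. -/
def Φ (k C : Type) [Field k] [Ring C] [Algebra k C] [FiniteDimensional k C] :
    K0 (TE.ι k (C ⊗[k] C)) ≃ₗ[C ⊗[k] C]
      ET (KMod.reg k C) (KMod.reg k C) × ET (DualM k C) (DualM k C) :=
  (TE.equiv k _).trans (ETreg.symm.prodCongr ETdual.symm)

/-- the restriction of the simple module. -/
def sB : (chr G.χS).res (TE.ι k (C ⊗[k] C)) ≃ₗ[C ⊗[k] C] chr G.χB := chrRes _ _ _ fun _ => rfl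

theorem hom0 (u : TE k (C ⊗[k] C) →ₗ[k] k) (hu : ∀ b x, u (TE.ι k _ b * x) = G.χB b * u x)
    (a : TE k (C ⊗[k] C)) : u a = G.χS a * u 1 :=
  TE.hom0 G.χB (EZ.left_equiv ETdual.symm (G.ezD 0 (by omega))) u hu a

theorem spanS (a : TE k (C ⊗[k] C)) (ha : G.χS a = 0) : a ∈ Submodule.span k
    (Set.range fun p : TE k (C ⊗[k] C) × Bool × TE k (C ⊗[k] C) => p.1 * G.eS p.2.1 * p.2.2) := by
  by_contra hn
  obtain ⟨l, hl, hl'⟩ := Submodule.exists_le_ker_of_notMem hn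
  apply hl
  rw [G.hom0 l _ a, ha, zero_mul]
  have key : ∀ (φ : C →ₐ[k] TE k (C ⊗[k] C)) (i : Bool), φ G.e = G.eS i → ∀ c x,
      l (φ c * x) = G.χ c * l x := fun φ i h c x => by
    have := hl' (span_mul_mem (span_map_mem φ i h
      (G.span (c - algebraMap k C (G.χ c)) (by simp))) x)
    rw [LinearMap.mem_ker, map_sub, AlgHom.commutes, sub_mul, ← Algebra.smul_def, map_sub,
      map_smul, sub_eq_zero] at this
    exact this
  intro b x
  induction b using TensorProduct.induction_on with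
  | zero => simp
  | tmul c c' =>
    have h1 := key ((TE.ι k _).comp (ι1 k C C)) true rfl c (TE.ι k _ (1 ⊗ₜ c') * x)
    have h2 := key ((TE.ι k _).comp (ι2 k C C)) false rfl c' x
    rw [← mul_assoc, AlgHom.comp_apply, ← map_mul] at h1
    simp only [AlgHom.comp_apply, Algebra.TensorProduct.includeLeft_apply,
      Algebra.TensorProduct.includeRight_apply, Algebra.TensorProduct.tmul_mul_tmul, mul_one,
      one_mul] at h1 h2
    rw [h1, h2, ← mul_assoc]
    rfl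
  | add a b ha hb => simp only [map_add, add_mul, ha, hb]

theorem facL : ∃ (α : K0 (TE.ι k (C ⊗[k] C)) →ₗ[C ⊗[k] C]
      KMod.of k (C ⊗[k] C) (ET G.U (KMod.reg k C) × ET G.U (DualM k C)))
    (β : KMod.of k (C ⊗[k] C) (ET G.U (KMod.reg k C) × ET G.U (DualM k C)) →ₗ[C ⊗[k] C]
      K0 (TE.ι k (C ⊗[k] C))),
      ∀ x, β (α x) = (r0 _).toLin (G.eS true) x :=
  TE.factor _ _ _ (ETreg_fac G.e 1 G.a1 G.b1 G.ab1 LinearMap.id LinearMap.id (by simp)) _ _
    (ETdual_fac G.e 1 G.a2 G.b2 G.ab2 LinearMap.id LinearMap.id (fun x => by ext; simp))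

theorem facR : ∃ (α : K0 (TE.ι k (C ⊗[k] C)) →ₗ[C ⊗[k] C]
      KMod.of k (C ⊗[k] C) (ET (KMod.reg k C) G.U × ET (DualM k C) G.U))
    (β : KMod.of k (C ⊗[k] C) (ET (KMod.reg k C) G.U × ET (DualM k C) G.U) →ₗ[C ⊗[k] C]
      K0 (TE.ι k (C ⊗[k] C))),
      ∀ x, β (α x) = (r0 _).toLin (G.eS false) x :=
  TE.factor _ _ _ (ETreg_fac 1 G.e LinearMap.id LinearMap.id (by simp) G.a1 G.b1 G.ab1) _ _
    (ETdual_fac 1 G.e LinearMap.id LinearMap.id (fun x => by ext; simp) G.a2 G.b2 G.ab2)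

/-- the inclusion of the first factor. -/
abbrev ιC (k C : Type) [Field k] [Ring C] [Algebra k C] : C →ₐ[k] TE k (C ⊗[k] C) :=
  (TE.ι k (C ⊗[k] C)).comp (ι1 k C C)

theorem addK (k C : Type) [Field k] [Ring C] [Algebra k C] [FiniteDimensional k C] :
    AddOf C (C × CoInd k C k) (K0 (ιC k C)) := by
  let E : K0 (ιC k C) ≃ₗ[C] (ET (KMod.reg k C) (KMod.reg k C)).res (ι1 k C C) ×
      (ET (DualM k C) (DualM k C)).res (ι1 k C C) :=
    { (Φ k C).toAddEquiv with map_smul' := fun c x => (Φ k C).map_smul (ι1 k C C c) x }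
  refine AddOf.trans (AddOf.prod ?_ ?_) (AddOf.of_equiv E)
  · exact (AddOf.of_retract (LinearMap.inl C C _) (LinearMap.fst C C _) fun _ => rfl).trans
      (AddOf.resL (KMod.reg k C) _)
  · exact (AddOf.of_retract (LinearMap.inr C C _) (LinearMap.snd C C _) fun _ => rfl).trans
      (AddOf.resL (DualM k C) _)

theorem χS_ιC (c : C) : G.χS (ιC k C c) = G.χ c := by
  change G.χ c * G.χ 1 = _
  simp

theorem ladder : ∃ L : Ladder (TE.ι k (C ⊗[k] C)), ext1 (TE k (C ⊗[k] C))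
    ((toChr G.χS).toLinearMap ∘ₗ (TE.form k _).t ∘ₗ (toK _).symm.toLinearMap) L.ξ ≠ 0 := by
  have hK := addK k C
  obtain ⟨ξ, h1, h2, h3⟩ := exists_casimir (TE.form k _) G.χS (ιC k C) G.f
    ((G.χS_ιC _).trans G.χf) (((TZ.reg G.trL).prod (TZ.dual G.trR)).add hK)
  have : Module.Projective C (K (ιC k C) 2) := proj_syzN 2 fun M _ _ =>
    hK.left (EZ.left_prod (EZ.of_proj _)
      (EZ.two G.s1 G.s2 (EZ.of_proj _) (EZ.of_proj _) (EZ.of_proj _)))
  obtain ⟨α, β, hαβ⟩ := G.facL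
  let P := (KMod.of k (C ⊗[k] C) (ET G.U (KMod.reg k C) × ET G.U (DualM k C))).res (ι1 k C C)
  have : Module.Projective C P := by
    have h1 := (AddOf.resL G.U (KMod.reg k C)).proj
    have h2 := (AddOf.resL G.U (DualM k C)).proj
    exact inferInstanceAs (Module.Projective C ((ET G.U (KMod.reg k C)).res (ι1 k C C) ×
      (ET G.U (DualM k C)).res (ι1 k C C)))
  let E := chrRes G.χS (ιC k C) G.χ G.χS_ιC
  have hs : ∀ n, EZ C (chr G.χ) (chr G.χ) (n + 1) := fun n =>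
    EZ.left_quot G.sN (G.resN.nn n) (EZ.of_proj _)
  have hD : AddOf C (C × CoInd k C k) ((DualM k (TE k (C ⊗[k] C))).res (ιC k C)) :=
    hK.trans (AddOf.of_retract
      (KMod.resMap (ιC k C) (X := DualM k _) (Y := KMod.reg k _)
        (TE.form k _).dualEquiv.symm.toLinearMap)
      (KMod.resMap (ιC k C) (X := KMod.reg k _) (Y := DualM k _) (TE.form k _).dualEquiv.toLinearMap)
      fun y => (TE.form k _).dualEquiv.apply_symm_apply y)
  obtain ⟨L, hL⟩ := exists_ladder (TE.form k _) G.χS G.e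
    (fun c hc => G.span c ((G.χS_ιC c).symm.trans hc)) (U := G.U) G.a1 G.b1 G.ab1 (P := P)
    (KMod.resMap (ι1 k C C) α) (KMod.resMap (ι1 k C C) β) hαβ
    (EZ.right_equiv E (hK.left (EZ.left_prod (EZ.of_proj _)
      (EZ.two1 G.s1 G.s2 (NN.of_proj G.homU) (NN.of_proj G.homU)))))
    (EZ.right_equiv E (EZ.left_equiv (X := chr (G.χS.comp (ιC k C))) E (hs 1)))
    (hK.left (hD.right (EZ.left_prod (EZ.of_proj _) (EZ.right_prod G.extD (EZ.of_inj _)))))
    ξ h1 h2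
  refine ⟨L.push _ _, ?_⟩
  change ext1 _ _ (LinearMap.lTensor _ _ L.ξ) ≠ 0
  rw [ext1_lT, hL]
  exact h3

include G in
theorem counter (H : k) (H0 : H ≠ 0) (hH : Function.Injective fun n : ℕ => H ^ n) :
    ARCounter k := by
  obtain ⟨L, hL⟩ := G.ladder
  have hΦ := SES.of_equiv_prod (Φ k C)
  refine MainData.counter (B := C ⊗[k] C) (S := TE k (C ⊗[k] C))
    { τ := TE.form k _
      G := TE.grading k _
      χ := G.χS
      χh := fun l a => congrArg G.χB (TE.h_fst l a)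
      H := H
      H0 := H0
      hH := hH
      e := G.eS
      e_idem := ?_
      χe := ?_
      span := G.spanS
      pK := proj_syzN 4 fun M _ _ => EZ.left_mid hΦ (EZ.of_proj _) (G.pdD M)
      fin := FinInj.mid hΦ G.finB (FinInj.inj _)
      hom0 := ?_
      ez := fun i hi => EZ.right_equiv G.sB (EZ.left_mid hΦ (EZ.of_proj _) (G.ezD _ (by omega)))
      e4 := E1.right_equiv G.sB (E1.left_mid' hΦ (EZ.of_proj _) G.e4D)
      ne4 := fun h => G.ne4D (EZ.left_retract ((Φ k C).symm.toLinearMap ∘ₗ LinearMap.inr _ _ _)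
        (LinearMap.snd _ _ _ ∘ₗ (Φ k C).toLinearMap) (by simp) (EZ.right_equiv G.sB.symm h))
      kill := ?_
      ezs := fun i => EZ.right_equiv G.sB (EZ.left_equiv G.sB (G.ezs i))
      L := L
      hξ := hL }
  · rintro (_ | _) <;> simp only [eS, ← map_mul, Algebra.TensorProduct.tmul_mul_tmul, G.e_idem,
      mul_one]
  · rintro (_ | _)
    · change G.χ 1 * G.χ G.e = 0
      rw [G.χe, mul_zero]
    · change G.χ G.e * G.χ 1 = 0
      rw [G.χe, zero_mul]
  · intro u a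
    exact G.hom0 ((toChr G.χS).symm.toLinearMap ∘ₗ HomR.lin _ u.1 ∘ₗ (toK _).toLinearMap)
      (fun b x => D.semi u b (toK _ x)) a
  · rintro (_ | _)
    · obtain ⟨α, β, h⟩ := G.facR
      exact ⟨_, α, β, h, EZ.right_equiv G.sB (EZ.left_prod (G.nR _ _) (G.nR _ _))⟩
    · obtain ⟨α, β, h⟩ := G.facL
      exact ⟨_, α, β, h, EZ.right_equiv G.sB (EZ.left_prod (G.nL _ _) (G.nL _ _))⟩

end Good

end

end Vale.Agent.P195
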