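import Vale.Agent.P195.BB

/-! The explicit ten dimensional algebra. -/

namespace Vale.Agent.P195

noncomputable section

/-- The ten dimensional algebra. -/
@[ext] structure CC (k : Type) (Q : k) where
  e : k
  x : k
  y : k
  p : k
  u : k
  r : k
  v : k
  s : k
  f : k
  z : k

namespace CC

variable {k : Type} [Field k] {Q : k}

instance : Zero (CC k Q) := ⟨⟨0, 0, 0, 0, 0, 0, 0, 0, 0, 0⟩⟩
instance : One (CC k Q) := ⟨⟨1, 0, 0, 0, 0, 0, 0, 0, 1, 0⟩⟩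
instance : Add (CC k Q) := ⟨fun a b =>
  ⟨a.e + b.e, a.x + b.x, a.y + b.y, a.p + b.p, a.u + b.u, a.r + b.r,
    a.v + b.v, a.s + b.s, a.f + b.f, a.z + b.z⟩⟩
instance : Neg (CC k Q) := ⟨fun a => ⟨-a.e, -a.x, -a.y, -a.p, -a.u, -a.r, -a.v, -a.s, -a.f, -a.z⟩⟩
instance : SMul k (CC k Q) := ⟨fun c a =>
  ⟨c * a.e, c * a.x, c * a.y, c * a.p, c * a.u, c * a.r, c * a.v, c * a.s, c * a.f, c * a.z⟩⟩
instance : Mul (CC k Q) := ⟨fun a b =>
  ⟨a.e * b.e,
    a.e * b.x + a.x * b.e + a.u * b.v,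
    a.e * b.y + a.y * b.e - Q * a.u * b.v,
    a.e * b.p + a.p * b.e - Q * a.x * b.y + a.y * b.x - Q * a.u * b.s + a.r * b.v,
    a.e * b.u + a.u * b.f,
    a.e * b.r + a.r * b.f + Q ^ 2 * a.x * b.u + a.y * b.u - Q * a.u * b.z,
    a.f * b.v + a.v * b.e,
    a.f * b.s + a.s * b.e + a.v * b.x + a.v * b.y + a.z * b.v,
    a.f * b.f,
    a.f * b.z + a.z * b.f + (1 - Q) * a.v * b.u⟩⟩

@[simp] theorem zero_e : (0 : CC k Q).e = 0 := rfl
@[simp] theorem one_e : (1 : CC k Q).e = 1 := rfl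
@[simp] theorem add_e (a b : CC k Q) : (a + b).e = a.e + b.e := rfl
@[simp] theorem neg_e (a : CC k Q) : (-a).e = -a.e := rfl
@[simp] theorem smul_e (c : k) (a : CC k Q) : (c • a).e = c * a.e := rfl
@[simp] theorem mul_e (a b : CC k Q) : (a * b).e =
    a.e * b.e := rfl
@[simp] theorem zero_x : (0 : CC k Q).x = 0 := rfl
@[simp] theorem one_x : (1 : CC k Q).x = 0 := rfl
@[simp] theorem add_x (a b : CC k Q) : (a + b).x = a.x + b.x := rfl
@[simp] theorem neg_x (a : CC k Q) : (-a).x = -a.x := rfl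
@[simp] theorem smul_x (c : k) (a : CC k Q) : (c • a).x = c * a.x := rfl
@[simp] theorem mul_x (a b : CC k Q) : (a * b).x =
    a.e * b.x + a.x * b.e + a.u * b.v := rfl
@[simp] theorem zero_y : (0 : CC k Q).y = 0 := rfl
@[simp] theorem one_y : (1 : CC k Q).y = 0 := rfl
@[simp] theorem add_y (a b : CC k Q) : (a + b).y = a.y + b.y := rfl
@[simp] theorem neg_y (a : CC k Q) : (-a).y = -a.y := rfl
@[simp] theorem smul_y (c : k) (a : CC k Q) : (c • a).y = c * a.y := rfl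
@[simp] theorem mul_y (a b : CC k Q) : (a * b).y =
    a.e * b.y + a.y * b.e - Q * a.u * b.v := rfl
@[simp] theorem zero_p : (0 : CC k Q).p = 0 := rfl
@[simp] theorem one_p : (1 : CC k Q).p = 0 := rfl
@[simp] theorem add_p (a b : CC k Q) : (a + b).p = a.p + b.p := rfl
@[simp] theorem neg_p (a : CC k Q) : (-a).p = -a.p := rfl
@[simp] theorem smul_p (c : k) (a : CC k Q) : (c • a).p = c * a.p := rfl
@[simp] theorem mul_p (a b : CC k Q) : (a * b).p =
    a.e * b.p + a.p * b.e - Q * a.x * b.y + a.y * b.x - Q * a.u * b.s + a.r * b.v := rfl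
@[simp] theorem zero_u : (0 : CC k Q).u = 0 := rfl
@[simp] theorem one_u : (1 : CC k Q).u = 0 := rfl
@[simp] theorem add_u (a b : CC k Q) : (a + b).u = a.u + b.u := rfl
@[simp] theorem neg_u (a : CC k Q) : (-a).u = -a.u := rfl
@[simp] theorem smul_u (c : k) (a : CC k Q) : (c • a).u = c * a.u := rfl
@[simp] theorem mul_u (a b : CC k Q) : (a * b).u =
    a.e * b.u + a.u * b.f := rfl
@[simp] theorem zero_r : (0 : CC k Q).r = 0 := rfl
@[simp] theorem one_r : (1 : CC k Q).r = 0 := rfl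
@[simp] theorem add_r (a b : CC k Q) : (a + b).r = a.r + b.r := rfl
@[simp] theorem neg_r (a : CC k Q) : (-a).r = -a.r := rfl
@[simp] theorem smul_r (c : k) (a : CC k Q) : (c • a).r = c * a.r := rfl
@[simp] theorem mul_r (a b : CC k Q) : (a * b).r =
    a.e * b.r + a.r * b.f + Q ^ 2 * a.x * b.u + a.y * b.u - Q * a.u * b.z := rfl
@[simp] theorem zero_v : (0 : CC k Q).v = 0 := rfl
@[simp] theorem one_v : (1 : CC k Q).v = 0 := rfl
@[simp] theorem add_v (a b : CC k Q) : (a + b).v = a.v + b.v := rfl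
@[simp] theorem neg_v (a : CC k Q) : (-a).v = -a.v := rfl
@[simp] theorem smul_v (c : k) (a : CC k Q) : (c • a).v = c * a.v := rfl
@[simp] theorem mul_v (a b : CC k Q) : (a * b).v =
    a.f * b.v + a.v * b.e := rfl
@[simp] theorem zero_s : (0 : CC k Q).s = 0 := rfl
@[simp] theorem one_s : (1 : CC k Q).s = 0 := rfl
@[simp] theorem add_s (a b : CC k Q) : (a + b).s = a.s + b.s := rfl
@[simp] theorem neg_s (a : CC k Q) : (-a).s = -a.s := rfl
@[simp] theorem smul_s (c : k) (a : CC k Q) : (c • a).s = c * a.s := rfl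
@[simp] theorem mul_s (a b : CC k Q) : (a * b).s =
    a.f * b.s + a.s * b.e + a.v * b.x + a.v * b.y + a.z * b.v := rfl
@[simp] theorem zero_f : (0 : CC k Q).f = 0 := rfl
@[simp] theorem one_f : (1 : CC k Q).f = 1 := rfl
@[simp] theorem add_f (a b : CC k Q) : (a + b).f = a.f + b.f := rfl
@[simp] theorem neg_f (a : CC k Q) : (-a).f = -a.f := rfl
@[simp] theorem smul_f (c : k) (a : CC k Q) : (c • a).f = c * a.f := rfl
@[simp] theorem mul_f (a b : CC k Q) : (a * b).f =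
    a.f * b.f := rfl
@[simp] theorem zero_z : (0 : CC k Q).z = 0 := rfl
@[simp] theorem one_z : (1 : CC k Q).z = 0 := rfl
@[simp] theorem add_z (a b : CC k Q) : (a + b).z = a.z + b.z := rfl
@[simp] theorem neg_z (a : CC k Q) : (-a).z = -a.z := rfl
@[simp] theorem smul_z (c : k) (a : CC k Q) : (c • a).z = c * a.z := rfl
@[simp] theorem mul_z (a b : CC k Q) : (a * b).z =
    a.f * b.z + a.z * b.f + (1 - Q) * a.v * b.u := rfl

instance : Ring (CC k Q) := Ring.ofMinimalAxioms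
  (fun a b c => by ext <;> simp [add_assoc])
  (fun a => by ext <;> simp)
  (fun a => by ext <;> simp)
  (fun a b c => by ext <;> simp <;> ring)
  (fun a => by ext <;> simp)
  (fun a => by ext <;> simp)
  (fun a b c => by ext <;> simp <;> ring)
  (fun a b c => by ext <;> simp <;> ring)

instance : Module k (CC k Q) := Module.ofMinimalAxioms
  (fun a b c => by ext <;> simp [mul_add])
  (fun a b c => by ext <;> simp [add_mul])
  (fun a b c => by ext <;> simp [mul_assoc])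
  (fun a => by ext <;> simp)

instance : Algebra k (CC k Q) := Algebra.ofModule
  (fun a b c => by ext <;> simp <;> ring)
  (fun a b c => by ext <;> simp <;> ring)

instance : FiniteDimensional k (CC k Q) :=
  FiniteDimensional.of_injective (V₂ := k × k × k × k × k × k × k × k × k × k)
    { toFun := fun a => (a.e, a.x, a.y, a.p, a.u, a.r, a.v, a.s, a.f, a.z)
      map_add' := fun _ _ => rfl
      map_smul' := fun _ _ => rfl }
    (fun a b h => by
      simp only [LinearMap.coe_mk, AddHom.coe_mk, Prod.mk.injEq] at h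
      ext <;> simp [h])

/-- a basis vector. -/
def Be (Q : k) : CC k Q := ⟨1, 0, 0, 0, 0, 0, 0, 0, 0, 0⟩

/-- a coordinate. -/
def ce (Q : k) : CC k Q →ₗ[k] k where
  toFun a := a.e
  map_add' _ _ := rfl
  map_smul' _ _ := rfl

@[simp] theorem ce_apply (a : CC k Q) : ce Q a = a.e := rfl

/-- a basis vector. -/
def Bx (Q : k) : CC k Q := ⟨0, 1, 0, 0, 0, 0, 0, 0, 0, 0⟩

/-- a coordinate. -/
def cx (Q : k) : CC k Q →ₗ[k] k where
  toFun a := a.x
  map_add' _ _ := rfl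
  map_smul' _ _ := rfl

@[simp] theorem cx_apply (a : CC k Q) : cx Q a = a.x := rfl

/-- a basis vector. -/
def By (Q : k) : CC k Q := ⟨0, 0, 1, 0, 0, 0, 0, 0, 0, 0⟩

/-- a coordinate. -/
def cy (Q : k) : CC k Q →ₗ[k] k where
  toFun a := a.y
  map_add' _ _ := rfl
  map_smul' _ _ := rfl

@[simp] theorem cy_apply (a : CC k Q) : cy Q a = a.y := rfl

/-- a basis vector. -/
def Bp (Q : k) : CC k Q := ⟨0, 0, 0, 1, 0, 0, 0, 0, 0, 0⟩

/-- a coordinate. -/
def cp (Q : k) : CC k Q →ₗ[k] k where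
  toFun a := a.p
  map_add' _ _ := rfl
  map_smul' _ _ := rfl

@[simp] theorem cp_apply (a : CC k Q) : cp Q a = a.p := rfl

/-- a basis vector. -/
def Bu (Q : k) : CC k Q := ⟨0, 0, 0, 0, 1, 0, 0, 0, 0, 0⟩

/-- a coordinate. -/
def cu (Q : k) : CC k Q →ₗ[k] k where
  toFun a := a.u
  map_add' _ _ := rfl
  map_smul' _ _ := rfl

@[simp] theorem cu_apply (a : CC k Q) : cu Q a = a.u := rfl

/-- a basis vector. -/
def Br (Q : k) : CC k Q := ⟨0, 0, 0, 0, 0, 1, 0, 0, 0, 0⟩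

/-- a coordinate. -/
def cr (Q : k) : CC k Q →ₗ[k] k where
  toFun a := a.r
  map_add' _ _ := rfl
  map_smul' _ _ := rfl

@[simp] theorem cr_apply (a : CC k Q) : cr Q a = a.r := rfl

/-- a basis vector. -/
def Bv (Q : k) : CC k Q := ⟨0, 0, 0, 0, 0, 0, 1, 0, 0, 0⟩

/-- a coordinate. -/
def cv (Q : k) : CC k Q →ₗ[k] k where
  toFun a := a.v
  map_add' _ _ := rfl
  map_smul' _ _ := rfl

@[simp] theorem cv_apply (a : CC k Q) : cv Q a = a.v := rfl

/-- a basis vector. -/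
def Bs (Q : k) : CC k Q := ⟨0, 0, 0, 0, 0, 0, 0, 1, 0, 0⟩

/-- a coordinate. -/
def cs (Q : k) : CC k Q →ₗ[k] k where
  toFun a := a.s
  map_add' _ _ := rfl
  map_smul' _ _ := rfl

@[simp] theorem cs_apply (a : CC k Q) : cs Q a = a.s := rfl

/-- a basis vector. -/
def Bf (Q : k) : CC k Q := ⟨0, 0, 0, 0, 0, 0, 0, 0, 1, 0⟩

/-- a coordinate. -/
def cf (Q : k) : CC k Q →ₗ[k] k where
  toFun a := a.f
  map_add' _ _ := rfl
  map_smul' _ _ := rfl

@[simp] theorem cf_apply (a : CC k Q) : cf Q a = a.f := rfl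

/-- a basis vector. -/
def Bz (Q : k) : CC k Q := ⟨0, 0, 0, 0, 0, 0, 0, 0, 0, 1⟩

/-- a coordinate. -/
def cz (Q : k) : CC k Q →ₗ[k] k where
  toFun a := a.z
  map_add' _ _ := rfl
  map_smul' _ _ := rfl

@[simp] theorem cz_apply (a : CC k Q) : cz Q a = a.z := rfl

@[simp] theorem Be_e : (Be Q).e = 1 := rfl
@[simp] theorem Be_x : (Be Q).x = 0 := rfl
@[simp] theorem Be_y : (Be Q).y = 0 := rfl
@[simp] theorem Be_p : (Be Q).p = 0 := rfl
@[simp] theorem Be_u : (Be Q).u = 0 := rfl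
@[simp] theorem Be_r : (Be Q).r = 0 := rfl
@[simp] theorem Be_v : (Be Q).v = 0 := rfl
@[simp] theorem Be_s : (Be Q).s = 0 := rfl
@[simp] theorem Be_f : (Be Q).f = 0 := rfl
@[simp] theorem Be_z : (Be Q).z = 0 := rfl
@[simp] theorem Bx_e : (Bx Q).e = 0 := rfl
@[simp] theorem Bx_x : (Bx Q).x = 1 := rfl
@[simp] theorem Bx_y : (Bx Q).y = 0 := rfl
@[simp] theorem Bx_p : (Bx Q).p = 0 := rfl
@[simp] theorem Bx_u : (Bx Q).u = 0 := rfl
@[simp] theorem Bx_r : (Bx Q).r = 0 := rfl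
@[simp] theorem Bx_v : (Bx Q).v = 0 := rfl
@[simp] theorem Bx_s : (Bx Q).s = 0 := rfl
@[simp] theorem Bx_f : (Bx Q).f = 0 := rfl
@[simp] theorem Bx_z : (Bx Q).z = 0 := rfl
@[simp] theorem By_e : (By Q).e = 0 := rfl
@[simp] theorem By_x : (By Q).x = 0 := rfl
@[simp] theorem By_y : (By Q).y = 1 := rfl
@[simp] theorem By_p : (By Q).p = 0 := rfl
@[simp] theorem By_u : (By Q).u = 0 := rfl
@[simp] theorem By_r : (By Q).r = 0 := rfl
@[simp] theorem By_v : (By Q).v = 0 := rfl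
@[simp] theorem By_s : (By Q).s = 0 := rfl
@[simp] theorem By_f : (By Q).f = 0 := rfl
@[simp] theorem By_z : (By Q).z = 0 := rfl
@[simp] theorem Bp_e : (Bp Q).e = 0 := rfl
@[simp] theorem Bp_x : (Bp Q).x = 0 := rfl
@[simp] theorem Bp_y : (Bp Q).y = 0 := rfl
@[simp] theorem Bp_p : (Bp Q).p = 1 := rfl
@[simp] theorem Bp_u : (Bp Q).u = 0 := rfl
@[simp] theorem Bp_r : (Bp Q).r = 0 := rfl
@[simp] theorem Bp_v : (Bp Q).v = 0 := rfl
@[simp] theorem Bp_s : (Bp Q).s = 0 := rfl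
@[simp] theorem Bp_f : (Bp Q).f = 0 := rfl
@[simp] theorem Bp_z : (Bp Q).z = 0 := rfl
@[simp] theorem Bu_e : (Bu Q).e = 0 := rfl
@[simp] theorem Bu_x : (Bu Q).x = 0 := rfl
@[simp] theorem Bu_y : (Bu Q).y = 0 := rfl
@[simp] theorem Bu_p : (Bu Q).p = 0 := rfl
@[simp] theorem Bu_u : (Bu Q).u = 1 := rfl
@[simp] theorem Bu_r : (Bu Q).r = 0 := rfl
@[simp] theorem Bu_v : (Bu Q).v = 0 := rfl
@[simp] theorem Bu_s : (Bu Q).s = 0 := rfl
@[simp] theorem Bu_f : (Bu Q).f = 0 := rfl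
@[simp] theorem Bu_z : (Bu Q).z = 0 := rfl
@[simp] theorem Br_e : (Br Q).e = 0 := rfl
@[simp] theorem Br_x : (Br Q).x = 0 := rfl
@[simp] theorem Br_y : (Br Q).y = 0 := rfl
@[simp] theorem Br_p : (Br Q).p = 0 := rfl
@[simp] theorem Br_u : (Br Q).u = 0 := rfl
@[simp] theorem Br_r : (Br Q).r = 1 := rfl
@[simp] theorem Br_v : (Br Q).v = 0 := rfl
@[simp] theorem Br_s : (Br Q).s = 0 := rfl
@[simp] theorem Br_f : (Br Q).f = 0 := rfl
@[simp] theorem Br_z : (Br Q).z = 0 := rfl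
@[simp] theorem Bv_e : (Bv Q).e = 0 := rfl
@[simp] theorem Bv_x : (Bv Q).x = 0 := rfl
@[simp] theorem Bv_y : (Bv Q).y = 0 := rfl
@[simp] theorem Bv_p : (Bv Q).p = 0 := rfl
@[simp] theorem Bv_u : (Bv Q).u = 0 := rfl
@[simp] theorem Bv_r : (Bv Q).r = 0 := rfl
@[simp] theorem Bv_v : (Bv Q).v = 1 := rfl
@[simp] theorem Bv_s : (Bv Q).s = 0 := rfl
@[simp] theorem Bv_f : (Bv Q).f = 0 := rfl
@[simp] theorem Bv_z : (Bv Q).z = 0 := rfl
@[simp] theorem Bs_e : (Bs Q).e = 0 := rfl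
@[simp] theorem Bs_x : (Bs Q).x = 0 := rfl
@[simp] theorem Bs_y : (Bs Q).y = 0 := rfl
@[simp] theorem Bs_p : (Bs Q).p = 0 := rfl
@[simp] theorem Bs_u : (Bs Q).u = 0 := rfl
@[simp] theorem Bs_r : (Bs Q).r = 0 := rfl
@[simp] theorem Bs_v : (Bs Q).v = 0 := rfl
@[simp] theorem Bs_s : (Bs Q).s = 1 := rfl
@[simp] theorem Bs_f : (Bs Q).f = 0 := rfl
@[simp] theorem Bs_z : (Bs Q).z = 0 := rfl
@[simp] theorem Bf_e : (Bf Q).e = 0 := rfl
@[simp] theorem Bf_x : (Bf Q).x = 0 := rfl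
@[simp] theorem Bf_y : (Bf Q).y = 0 := rfl
@[simp] theorem Bf_p : (Bf Q).p = 0 := rfl
@[simp] theorem Bf_u : (Bf Q).u = 0 := rfl
@[simp] theorem Bf_r : (Bf Q).r = 0 := rfl
@[simp] theorem Bf_v : (Bf Q).v = 0 := rfl
@[simp] theorem Bf_s : (Bf Q).s = 0 := rfl
@[simp] theorem Bf_f : (Bf Q).f = 1 := rfl
@[simp] theorem Bf_z : (Bf Q).z = 0 := rfl
@[simp] theorem Bz_e : (Bz Q).e = 0 := rfl
@[simp] theorem Bz_x : (Bz Q).x = 0 := rfl
@[simp] theorem Bz_y : (Bz Q).y = 0 := rfl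
@[simp] theorem Bz_p : (Bz Q).p = 0 := rfl
@[simp] theorem Bz_u : (Bz Q).u = 0 := rfl
@[simp] theorem Bz_r : (Bz Q).r = 0 := rfl
@[simp] theorem Bz_v : (Bz Q).v = 0 := rfl
@[simp] theorem Bz_s : (Bz Q).s = 0 := rfl
@[simp] theorem Bz_f : (Bz Q).f = 0 := rfl
@[simp] theorem Bz_z : (Bz Q).z = 1 := rfl

/-- the periodic elements. -/
def w (Q q : k) : CC k Q := ⟨0, 1, -q, 0, 0, 0, 0, 0, 0, 0⟩

@[simp] theorem w_e (q : k) : (w Q q).e = 0 := rfl
@[simp] theorem w_x (q : k) : (w Q q).x = 1 := rfl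
@[simp] theorem w_y (q : k) : (w Q q).y = -q := rfl
@[simp] theorem w_p (q : k) : (w Q q).p = 0 := rfl
@[simp] theorem w_u (q : k) : (w Q q).u = 0 := rfl
@[simp] theorem w_r (q : k) : (w Q q).r = 0 := rfl
@[simp] theorem w_v (q : k) : (w Q q).v = 0 := rfl
@[simp] theorem w_s (q : k) : (w Q q).s = 0 := rfl
@[simp] theorem w_f (q : k) : (w Q q).f = 0 := rfl
@[simp] theorem w_z (q : k) : (w Q q).z = 0 := rfl

theorem expand (a : CC k Q) : a = a.e • Be Q + a.x • Bx Q + a.y • By Q + a.p • Bp Q + a.u • Bu Q +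
    a.r • Br Q + a.v • Bv Q + a.s • Bs Q + a.f • Bf Q + a.z • Bz Q := by
  ext <;> simp

theorem lin_expand (φ : CC k Q →ₗ[k] k) (a : CC k Q) : φ a = a.e * φ (Be Q) + a.x * φ (Bx Q) +
    a.y * φ (By Q) + a.p * φ (Bp Q) + a.u * φ (Bu Q) + a.r * φ (Br Q) + a.v * φ (Bv Q) +
    a.s * φ (Bs Q) + a.f * φ (Bf Q) + a.z * φ (Bz Q) := by
  conv_lhs => rw [expand a]
  simp

end CC

end

end Vale.Agent.P195
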