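import Vale.Agent.P195.CC

/-! The explicit algebra is good. -/

namespace Vale.Agent.P195

noncomputable section

section LI

variable {k : Type} [Field k] {R : Type} [Ring R]

/-- principal left ideals. -/
def LI (w : R) : Submodule R R := LinearMap.range (LinearMap.toSpanSingleton R R w)

theorem LI.mem (c w : R) : c * w ∈ LI w := ⟨c, rfl⟩

theorem LI.mul_e {e : R} (he : e * e = e) (a : LI e) : a.1 * e = a.1 := by
  obtain ⟨_, c, rfl⟩ := a
  change c * e * e = c * e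
  rw [mul_assoc, he]

/-- right multiplication onto a principal left ideal. -/
def LI.r (w : R) : R →ₗ[R] LI w := (LinearMap.toSpanSingleton R R w).rangeRestrict

@[simp] theorem LI.r_apply (w c : R) : (LI.r w c).1 = c * w := rfl

theorem LI.le {w e : R} (h : w * e = w) : LI w ≤ LI e := by
  rintro _ ⟨c, rfl⟩
  exact ⟨c * w, by simp [mul_assoc, h]⟩

theorem LI.proj {e : R} (he : e * e = e) : Module.Projective R (LI e) :=
  proj_of_retract (LI e).subtype (LI.r e) fun x => Subtype.ext (LI.mul_e he x)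

theorem LI.ses {e w w' : R} (h1 : e * w = w) (h2 : w' * e = w') (h3 : w' * w = 0)
    (h4 : ∀ a : LI e, a.1 * w = 0 → ∃ d, d * w' = a.1) :
    SES (Submodule.inclusion (LI.le h2)) (LI.r w ∘ₗ (LI e).subtype) := by
  refine SES.mk' (Submodule.inclusion_injective _) ?_ ?_ ?_
  · rintro ⟨_, c, rfl⟩
    exact ⟨LI.r e c, Subtype.ext (by simp [mul_assoc, h1])⟩
  · rintro ⟨_, c, rfl⟩
    exact Subtype.ext (by simp [mul_assoc, h3])
  · intro a ha
    obtain ⟨d, hd⟩ := h4 a (congrArg Subtype.val ha)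
    exact ⟨LI.r w' d, Subtype.ext hd⟩

variable [Algebra k R]

theorem LI.hom {e : R} (he : e * e = e) (χ : R →ₐ[k] k) (h : χ e = 0) : EZ R (LI e) (chr χ) 0 := by
  rw [EZ.zero_iff]
  intro g
  ext a
  have : a = a.1 • e • LI.r e 1 := Subtype.ext (by simp [he, LI.mul_e he a])
  rw [this, map_smul, map_smul, chr_smul χ e, h]
  simp

end LI

namespace CC

variable {k : Type} [Field k] {Q : k}

/-- the character. -/
def χ (Q : k) : CC k Q →ₐ[k] k where
  toFun a := a.f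
  map_one' := rfl
  map_mul' _ _ := rfl
  map_zero' := rfl
  map_add' _ _ := rfl
  commutes' c := mul_one c

@[simp] theorem χ_apply (a : CC k Q) : χ Q a = a.f := rfl

theorem ee : Be Q * Be Q = Be Q := by ext <;> simp

theorem ew (q : k) : Be Q * w Q q = w Q q := by ext <;> simp

theorem we (q : k) : w Q q * Be Q = w Q q := by ext <;> simp

theorem coe_u (a : LI (Be Q)) : a.1.u = 0 := by rw [← LI.mul_e ee a]; simp
theorem coe_r (a : LI (Be Q)) : a.1.r = 0 := by rw [← LI.mul_e ee a]; simp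
theorem coe_f (a : LI (Be Q)) : a.1.f = 0 := by rw [← LI.mul_e ee a]; simp
theorem coe_z (a : LI (Be Q)) : a.1.z = 0 := by rw [← LI.mul_e ee a]; simp

theorem mem_w {q : k} (hq : q ≠ 1) (a : LI (Be Q)) (h1 : a.1.e = 0) (h2 : a.1.y = -q * a.1.x)
    (h3 : a.1.v = 0) : ∃ d, d * w Q q = a.1 := by
  refine ⟨⟨a.1.x, 0, a.1.p, 0, 0, 0, a.1.s / (1 - q), 0, 0, 0⟩, ?_⟩
  have : 1 - q ≠ 0 := sub_ne_zero.2 hq.symm
  ext <;> simp [h1, h2, h3, coe_u, coe_r, coe_f, coe_z, mul_comm]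
  field_simp
  ring

theorem ses_w {q : k} (hq : q ≠ 1) (hq' : Q * q ≠ 1) :
    SES (Submodule.inclusion (LI.le (we (Q := Q) (Q * q)))) (LI.r (w Q q) ∘ₗ (LI (Be Q)).subtype) := by
  refine LI.ses (ew q) (we _) (by ext <;> simp) fun a ha => ?_
  have h1 := congrArg CC.x ha
  have h2 := congrArg CC.p ha
  have h3 := congrArg CC.s ha
  simp at h1 h2 h3
  refine mem_w hq' a (by simpa using h1) (by linear_combination h2) ?_
  have : a.1.v * (1 - q) = 0 := by linear_combination h3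
  exact (mul_eq_zero.1 this).resolve_right (sub_ne_zero.2 hq.symm)

/-- the projective injective module. -/
abbrev U (Q : k) : KMod k (CC k Q) := KMod.of k _ (LI (Be Q) × LI (Be Q))

/-- the middle module. -/
abbrev W (Q q : k) : KMod k (CC k Q) := KMod.of k _ (LI (w Q q))

/-- the embedding of the regular module. -/
def i1 (Q : k) : CC k Q →ₗ[CC k Q] U Q :=
  (LI.r (Be Q)).prod (LI.r (Be Q) ∘ₗ LinearMap.toSpanSingleton _ _ (Bv Q))

/-- its cokernel. -/
def p1 (Q : k) : U Q →ₗ[CC k Q] W Q 1 := LI.r (w Q 1) ∘ₗ (LI (Be Q)).subtype ∘ₗ LinearMap.snd _ _ _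

/-- the embedding into the second factor. -/
def i2 (Q q : k) : W Q q →ₗ[CC k Q] U Q :=
  LinearMap.inr _ _ _ ∘ₗ Submodule.inclusion (LI.le (we q))

/-- the embedding into the dual. -/
def j (Q : k) : LI (Be Q) →ₗ[CC k Q] CoInd k (CC k Q) k :=
  LinearMap.toSpanSingleton _ _ (HomR.mk _ (cp Q)) ∘ₗ (LI (Be Q)).subtype

/-- the cover of the dual. -/
def p2 (Q : k) : U Q →ₗ[CC k Q] CoInd k (CC k Q) k :=
  (j Q).coprod (LinearMap.toSpanSingleton _ _ (HomR.mk _ (cs Q)) ∘ₗ (LI (Be Q)).subtype)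

theorem j_apply (a : LI (Be Q)) (c : CC k Q) : j Q a c = (c * a.1).p := rfl

theorem p2_apply (a : U Q) (c : CC k Q) : p2 Q a c = (c * a.1.1).p + (c * a.2.1).s := rfl

theorem s1 : SES (i1 Q) (p1 Q) := by
  refine SES.mk' ?_ ?_ ?_ ?_
  · rw [injective_iff_map_eq_zero]
    intro c hc
    have h1 : c * Be Q = 0 := congrArg (fun a : U Q => a.1.1) hc
    have h2 : c * Bv Q * Be Q = 0 := congrArg (fun a : U Q => a.2.1) hc
    simp only [CC.ext_iff] at h1 h2
    simp at h1 h2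
    ext <;> simp [h1, h2]
  · rintro ⟨_, c, rfl⟩
    exact ⟨(0, LI.r _ c), Subtype.ext (by simp [p1, mul_assoc, ew])⟩
  · intro c
    refine Subtype.ext ?_
    change c * Bv Q * Be Q * w Q 1 = 0
    ext <;> simp
  · rintro ⟨a, b⟩ h
    have h1 : b.1 * w Q 1 = 0 := congrArg Subtype.val h
    simp only [CC.ext_iff] at h1
    simp at h1
    refine ⟨a.1 + ⟨0, 0, 0, 0, b.1.x, b.1.p, 0, 0, b.1.v, b.1.s⟩,
      Prod.ext (Subtype.ext ?_) (Subtype.ext ?_)⟩
    · change _ * Be Q = a.1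
      ext <;> simp [coe_u, coe_r, coe_f, coe_z]
    · change _ * Bv Q * Be Q = b.1
      ext <;> simp [coe_u, coe_r, coe_f, coe_z, h1]
      linear_combination -h1.2

theorem j_range (hQ : Q ≠ 0) (φ : CoInd k (CC k Q) k) : ∃ a, j Q a = rD k (Be Q) φ := by
  refine ⟨LI.r _ ⟨φ (Bp Q), φ (By Q), -φ (Bx Q) / Q, φ (Be Q), 0, 0, φ (Br Q), -φ (Bu Q) / Q, 0, 0⟩,
    HomR.ext fun c => ?_⟩
  rw [j_apply, rD_apply, lin_expand (HomR.lin _ φ) (Be Q * c)]
  simp
  field_simp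
  ring

theorem j_inj (hQ : Q ≠ 0) : Function.Injective (j Q) := by
  rw [injective_iff_map_eq_zero]
  intro a ha
  have h : ∀ c, (c * a.1).p = 0 := fun c => congrArg (fun φ : CoInd k (CC k Q) k => φ c) ha
  have h1 := h (Be Q)
  have h2 := h (Bx Q)
  have h3 := h (By Q)
  have h4 := h (Bp Q)
  have h5 := h (Bu Q)
  have h6 := h (Br Q)
  simp [hQ] at h1 h2 h3 h4 h5 h6
  refine Subtype.ext ?_
  ext <;> simp [coe_u, coe_r, coe_f, coe_z, h1, h2, h3, h4, h5, h6]

theorem s2 (hQ : Q ≠ 0) : SES (i2 Q 1) (p2 Q) := by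
  refine SES.mk' (LinearMap.inr_injective.comp (Submodule.inclusion_injective _)) ?_ ?_ ?_
  · intro φ
    obtain ⟨a, ha⟩ := j_range hQ φ
    refine ⟨(a, LI.r _ ⟨φ (Bs Q), φ (Bv Q), 0, 0, 0, 0, φ (Bz Q), φ (Bf Q), 0, 0⟩),
      HomR.ext fun c => ?_⟩
    rw [p2_apply, ← j_apply, ha, rD_apply, lin_expand (HomR.lin _ φ) (Be Q * c),
      lin_expand (HomR.lin _ φ) c]
    simp
    ring
  · rintro ⟨_, d, rfl⟩
    refine HomR.ext fun c => ?_
    change (c * 0).p + (c * (d * w Q 1)).s = 0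
    simp
  · rintro ⟨a, b⟩ hab
    have h : ∀ c, (c * a.1).p + (c * b.1).s = 0 := fun c =>
      congrArg (fun φ : CoInd k (CC k Q) k => φ c) hab
    have h1 := h (Bf Q)
    have h2 := h (Bv Q)
    have h3 := h (Bs Q)
    have h4 := h (Bz Q)
    simp at h1 h2 h3 h4
    have ha : a = 0 := j_inj hQ (HomR.ext fun c => by
      have := h (Be Q * c)
      simpa [j_apply] using this)
    refine ⟨LI.r _ ⟨b.1.x, 0, b.1.p, 0, 0, 0, 0, 0, 0, 0⟩, Prod.ext ha.symm (Subtype.ext ?_)⟩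
    change _ * w Q 1 = b.1
    ext <;> simp [coe_u, coe_r, coe_f, coe_z, h1, h3, h4]
    linear_combination -h2

theorem extD (hQ : Q ≠ 0) (h1 : Q ≠ 1) (h2 : Q ^ 2 ≠ 1) :
    EZ (CC k Q) (CoInd k (CC k Q) k) (CC k Q) 1 := by
  have := LI.proj (ee (Q := Q))
  refine EZ.of_extend (s2 hQ) (EZ.of_proj _) fun g => ?_
  obtain ⟨m, hm⟩ : ∃ m, m = g (LI.r _ 1) := ⟨_, rfl⟩
  have hg : ∀ d, g (LI.r _ d) = d * m := fun d => by
    rw [hm, ← smul_eq_mul, ← map_smul, ← map_smul, smul_eq_mul, mul_one]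
  have e1 : Be Q * m = m := by
    rw [← hg, hm]
    congr 1
    exact Subtype.ext (by simp [ew])
  have e2 : Bv Q * m = 0 := by
    rw [← hg, ← map_zero g]
    congr 1
    refine Subtype.ext ?_
    change Bv Q * w Q 1 = 0
    ext <;> simp
  simp only [CC.ext_iff] at e1 e2
  simp [sub_eq_zero, h1.symm] at e1 e2
  have e3 : w Q 1 * ⟨m.x, -m.p, 0, 0, m.r / (Q ^ 2 - 1), 0, 0, 0, 0, 0⟩ = m := by
    have : Q ^ 2 - 1 ≠ 0 := sub_ne_zero.2 h2
    ext <;> simp [e1.1.symm, e1.2.1.symm, e1.2.2.1.symm, e1.2.2.2.symm, e2]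
    · linear_combination -e2.2.1
    · field_simp
      ring
  refine ⟨LinearMap.toSpanSingleton _ _ ⟨m.x, -m.p, 0, 0, m.r / (Q ^ 2 - 1), 0, 0, 0, 0, 0⟩ ∘ₗ
    (LI (Be Q)).subtype ∘ₗ LinearMap.snd _ _ _, ?_⟩
  rintro ⟨_, d, rfl⟩
  refine Eq.trans ?_ (hg d).symm
  change d * w Q 1 * _ = _
  rw [mul_assoc, e3]

/-- the map onto the simple module. -/
def pN (Q : k) : CC k Q →ₗ[CC k Q] chr (χ Q) := LinearMap.toSpanSingleton _ _ (toChr _ 1)

theorem pN_apply (c : CC k Q) : pN Q c = toChr _ c.f := by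
  change c • toChr (χ Q) 1 = _
  rw [chr_smul, ← map_smul]
  simp

theorem pN_surj : Function.Surjective (pN Q) := fun x =>
  ⟨(toChr _).symm x • 1, by rw [pN_apply]; simp⟩

theorem resN (hQ : ∀ n : ℕ, Q ^ (n + 1) ≠ 1) :
    Res (chr (χ Q)) (KMod.of k _ (LinearMap.ker (pN Q))) := by
  have hP := LI.proj (ee (Q := Q))
  have h0 := LI.hom (ee (Q := Q)) (χ Q) rfl
  have h1 : 1 - Q ≠ 0 := sub_ne_zero.2 (by simpa using (hQ 0).symm)
  let g : U Q →ₗ[CC k Q] LinearMap.ker (pN Q) :=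
    ((LI (Be Q)).subtype.coprod (LinearMap.toSpanSingleton _ _ (Bu Q) ∘ₗ
      (LI (Be Q)).subtype)).codRestrict _ fun a => by simp [pN_apply, coe_f]
  have hg : ∀ a, (g a).1 = a.1.1 + a.2.1 * Bu Q := fun _ => rfl
  refine Res.step (Y := W Q (Q ^ 2)) (P := U Q) (i := i2 Q _) (p := g) ?_ inferInstance
    (EZ.left_prod h0 h0) ?_
  · refine SES.mk' (LinearMap.inr_injective.comp (Submodule.inclusion_injective _)) ?_ ?_ ?_
    · rintro ⟨c, hc⟩
      have hc' : c.f = 0 := by simpa [pN_apply] using hc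
      refine ⟨(LI.r _ c, LI.r _ ⟨c.u, 0, c.r, 0, 0, 0, c.z / (1 - Q), 0, 0, 0⟩), Subtype.ext ?_⟩
      rw [hg]
      ext <;> simp [hc']
      field_simp
    · rintro ⟨_, d, rfl⟩
      refine Subtype.ext ?_
      change 0 + d * w Q (Q ^ 2) * Bu Q = 0
      ext <;> simp
      ring
    · rintro ⟨a, b⟩ hab
      have h : a.1 + b.1 * Bu Q = 0 := congrArg Subtype.val hab
      simp only [CC.ext_iff] at h
      simp [coe_u, coe_r, coe_f, coe_z, h1] at h
      obtain ⟨d, hd⟩ := mem_w (hQ 1) b (by simp [h]) (by linear_combination h.2.2.2.2.2.1)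
        (by simp [h])
      refine ⟨LI.r _ d, Prod.ext (Subtype.ext ?_) (Subtype.ext hd)⟩
      change 0 = a.1
      ext <;> simp [h, coe_u, coe_r, coe_f, coe_z]
  · refine Res.seq (P := KMod.of k _ (LI (Be Q))) hP h0 (fun n => W Q (Q ^ (n + 2))) fun n => ?_
    have := ses_w (Q := Q) (hQ (n + 1)) (by rw [← pow_succ']; exact hQ _)
    rw [show n + 1 + 2 = n + 1 + 1 + 1 by omega, pow_succ' Q (n + 1 + 1)]
    exact ⟨_, _, this⟩

theorem span (h1 : Q ≠ 1) (c : CC k Q) (hc : χ Q c = 0) : c ∈ Submodule.span k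
    (Set.range fun p : CC k Q × Unit × CC k Q => p.1 * Be Q * p.2.2) := by
  have h1' : 1 - Q ≠ 0 := sub_ne_zero.2 h1.symm
  have hc' : c.f = 0 := hc
  have : c = c * Be Q * 1 + 1 * Be Q * ⟨0, 0, 0, 0, c.u, c.r, 0, 0, 0, 0⟩ +
      ⟨0, 0, 0, 0, 0, 0, c.z / (1 - Q), 0, 0, 0⟩ * Be Q * Bu Q := by
    ext <;> simp [hc']
    field_simp
  rw [this]
  exact add_mem (add_mem (Submodule.subset_span ⟨(_, (), _), rfl⟩)
    (Submodule.subset_span ⟨(_, (), _), rfl⟩)) (Submodule.subset_span ⟨(_, (), _), rfl⟩)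

theorem trL (h2 : (2 : k) = 0) (c : CC k Q) :
    LinearMap.trace k _ (LinearMap.mulLeft k (Bf Q) ∘ₗ LinearMap.mulRight k c) = 0 := by
  have : LinearMap.mulLeft k (Bf Q) ∘ₗ LinearMap.mulRight k c =
      (cf Q).smulRight (Bf Q * c) + (cv Q).smulRight (Bv Q * c) + (cs Q).smulRight (Bs Q * c) +
        (cz Q).smulRight (Bz Q * c) := by
    refine LinearMap.ext fun a => ?_
    ext <;> simp <;> ring
  rw [this]
  simp only [map_add, LinearMap.trace_smulRight]
  simp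
  linear_combination (c.e + c.f) * h2

theorem trR (h2 : (2 : k) = 0) (c : CC k Q) :
    LinearMap.trace k _ (LinearMap.mulLeft k c ∘ₗ LinearMap.mulRight k (Bf Q)) = 0 := by
  have : LinearMap.mulLeft k c ∘ₗ LinearMap.mulRight k (Bf Q) =
      (cf Q).smulRight (c * Bf Q) + (cu Q).smulRight (c * Bu Q) + (cr Q).smulRight (c * Br Q) +
        (cz Q).smulRight (c * Bz Q) := by
    refine LinearMap.ext fun a => ?_
    ext <;> simp <;> ring
  rw [this]
  simp only [map_add, LinearMap.trace_smulRight]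
  simp
  linear_combination (c.e + c.f) * h2

theorem good (h2 : (2 : k) = 0) (hQ : Q ≠ 0) (hQ' : ∀ n : ℕ, Q ^ (n + 1) ≠ 1) :
    Nonempty (Good k (CC k Q)) := by
  have h1 : Q ≠ 1 := by simpa using hQ' 0
  have hP := LI.proj (ee (Q := Q))
  have h0 := LI.hom (ee (Q := Q)) (χ Q) rfl
  obtain ⟨α, hα⟩ := (SES.coker (j Q) (j_inj hQ)).lift (rD k (Be Q)) fun φ =>
    (Submodule.Quotient.mk_eq_zero _).2 (j_range hQ φ)
  have hI : Module.Injective (CC k Q) (LI (Be Q)) := inj_of_retract (j Q) α fun a => j_inj hQ (by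
    rw [hα]
    refine HomR.ext fun c => ?_
    simp [j_apply])
  exact ⟨{
    χ := χ Q
    e := Be Q
    f := Bf Q
    e_idem := ee
    χe := rfl
    χf := rfl
    span := span h1
    U := U Q
    W := W Q 1
    projU := inferInstance
    injU := inferInstance
    homU := EZ.left_prod h0 h0
    i1 := i1 Q
    p1 := p1 Q
    s1 := s1
    i2 := i2 Q 1
    p2 := p2 Q
    s2 := s2 hQ
    a1 := i1 Q
    b1 := (LI (Be Q)).subtype ∘ₗ LinearMap.fst _ _ _
    ab1 := fun _ => rfl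
    a2 := LinearMap.inl _ _ _ ∘ₗ α
    b2 := j Q ∘ₗ LinearMap.fst _ _ _
    ab2 := hα
    N := KMod.of k _ (LinearMap.ker (pN Q))
    iN := (LinearMap.ker (pN Q)).subtype
    pN := pN Q
    sN := SES.ker _ pN_surj
    resN := resN hQ'
    extD := extD hQ h1 (hQ' 1)
    trL := trL h2
    trR := trR h2 }⟩

end CC

theorem arCounter : ARCounter (RatFunc (ZMod 2)) := by
  have hH : Function.Injective fun n : ℕ => (RatFunc.X : RatFunc (ZMod 2)) ^ n := by
    intro m n h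
    have h' : (Polynomial.X : Polynomial (ZMod 2)) ^ m = Polynomial.X ^ n := by
      apply RatFunc.algebraMap_injective
      simpa using h
    simpa using congrArg Polynomial.natDegree h'
  have h2 : (2 : RatFunc (ZMod 2)) = 0 := by
    have : (2 : ZMod 2) = 0 := rfl
    rw [← map_ofNat (algebraMap (ZMod 2) (RatFunc (ZMod 2))) 2, this, map_zero]
  obtain ⟨G⟩ := CC.good h2 RatFunc.X_ne_zero fun n h => by
    have := hH (a₁ := n + 1) (a₂ := 0) (by simpa using h)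
    omega
  exact G.counter RatFunc.X RatFunc.X_ne_zero hH

end

end Vale.Agent.P195
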