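import Vale.Agent.P195.Add

/-! External tensor products of modules. -/

open TensorProduct

namespace Vale.Agent.P195

noncomputable section

variable {k : Type} [Field k] {A A' : Type} [Ring A] [Algebra k A] [Ring A'] [Algebra k A']

/-- the action on a tensor product of modules. -/
def ETρ (X : KMod k A) (Y : KMod k A') : A ⊗[k] A' →ₐ[k] Module.End k (X ⊗[k] Y) :=
  (Module.endTensorEndAlgHom (R := k) (S := k) (A := k)).comp
    (Algebra.TensorProduct.map (Algebra.lsmul k k X) (Algebra.lsmul k k Y))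

/-- the outer tensor product. -/
def ET (X : KMod k A) (Y : KMod k A') : KMod k (A ⊗[k] A') :=
  (KMod.of k (Module.End k (X ⊗[k] Y)) (X ⊗[k] Y)).res (ETρ X Y)

/-- identification. -/
def toET (X : KMod k A) (Y : KMod k A') : X ⊗[k] Y ≃ₗ[k] ET X Y := LinearEquiv.refl _ _

variable {X X' X'' : KMod k A} {Y Y' Y'' : KMod k A'}

theorem smul_toET (a : A) (a' : A') (x : X) (y : Y) :
    (a ⊗ₜ[k] a') • toET X Y (x ⊗ₜ y) = toET X Y ((a • x) ⊗ₜ (a' • y)) := rfl

theorem ET.ind {p : ET X Y → Prop} (h0 : p 0) (h1 : ∀ x y, p (toET X Y (x ⊗ₜ y)))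
    (h2 : ∀ a b, p a → p b → p (a + b)) (z : ET X Y) : p z :=
  TensorProduct.induction_on (motive := p) z h0 h1 h2

/-- linear maps out of the outer tensor product. -/
def ET.lift {M : Type} [AddCommGroup M] [Module k M] [Module (A ⊗[k] A') M]
    (u : X ⊗[k] Y →ₗ[k] M)
    (hu : ∀ a a' x y, u ((a • x) ⊗ₜ (a' • y)) = (a ⊗ₜ[k] a' : A ⊗[k] A') • u (x ⊗ₜ y)) :
    ET X Y →ₗ[A ⊗[k] A'] M where
  toFun z := u ((toET X Y).symm z)
  map_add' a b := by simp
  map_smul' b z := by
    induction b using TensorProduct.induction_on with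
    | zero => simp
    | tmul a a' =>
      induction z using ET.ind with
      | h0 => simp
      | h1 x y => simp [smul_toET, hu]
      | h2 x y hx hy => simp only [smul_add, map_add, hx, hy]
    | add a b ha hb => simp only [add_smul, map_add, ha, hb]

@[simp] theorem ET.lift_apply {M : Type} [AddCommGroup M] [Module k M] [Module (A ⊗[k] A') M]
    (u : X ⊗[k] Y →ₗ[k] M) (hu) (z : X ⊗[k] Y) : ET.lift u hu (toET X Y z) = u z := rfl

/-- functoriality. -/
def ETmap (u : X →ₗ[A] X') (v : Y →ₗ[A'] Y') : ET X Y →ₗ[A ⊗[k] A'] ET X' Y' :=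
  ET.lift ((toET X' Y').toLinearMap ∘ₗ TensorProduct.map (u.restrictScalars k) (v.restrictScalars k))
    (fun a a' x y => by simp [smul_toET])

@[simp] theorem ETmap_tmul (u : X →ₗ[A] X') (v : Y →ₗ[A'] Y') (x : X) (y : Y) :
    ETmap u v (toET X Y (x ⊗ₜ y)) = toET X' Y' (u x ⊗ₜ v y) := rfl

theorem SES.etL {i : X →ₗ[A] X'} {p : X' →ₗ[A] X''} (h : SES i p) (Y : KMod k A') :
    SES (ETmap i (LinearMap.id : Y →ₗ[A'] Y)) (ETmap p LinearMap.id) :=
  ⟨Module.Flat.rTensor_preserves_injective_linearMap (M := Y) (i.restrictScalars k) h.inj,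
    LinearMap.rTensor_surjective Y (g := p.restrictScalars k) h.surj,
    rTensor_exact Y (f := i.restrictScalars k) (g := p.restrictScalars k) h.exact h.surj⟩

theorem SES.etR {i : Y →ₗ[A'] Y'} {p : Y' →ₗ[A'] Y''} (h : SES i p) (X : KMod k A) :
    SES (ETmap (LinearMap.id : X →ₗ[A] X) i) (ETmap LinearMap.id p) :=
  ⟨Module.Flat.lTensor_preserves_injective_linearMap (M := X) (i.restrictScalars k) h.inj,
    LinearMap.lTensor_surjective X (g := p.restrictScalars k) h.surj,
    lTensor_exact X (f := i.restrictScalars k) (g := p.restrictScalars k) h.exact h.surj⟩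

theorem AddOf.et (h : AddOf A X X') (h' : AddOf A' Y Y') :
    AddOf (A ⊗[k] A') (ET X Y) (ET X' Y') := by
  obtain ⟨I, _, c, b, h⟩ := h
  obtain ⟨I', _, c', b', h'⟩ := h'
  refine ⟨I × I', inferInstance, fun p => ETmap (c p.1) (c' p.2), fun p => ETmap (b p.1) (b' p.2),
    fun z => ?_⟩
  induction z using ET.ind with
  | h0 => simp
  | h1 x y =>
    simp only [ETmap_tmul, ← map_sum, Fintype.sum_prod_type, ← tmul_sum, ← sum_tmul, h, h']
  | h2 x y hx hy => simp only [map_add, Finset.sum_add_distrib, hx, hy]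

/-- the first inclusion. -/
abbrev ι1 (k A A' : Type) [Field k] [Ring A] [Algebra k A] [Ring A'] [Algebra k A'] :
    A →ₐ[k] A ⊗[k] A' := Algebra.TensorProduct.includeLeft

/-- the second inclusion. -/
abbrev ι2 (k A A' : Type) [Field k] [Ring A] [Algebra k A] [Ring A'] [Algebra k A'] :
    A' →ₐ[k] A ⊗[k] A' := Algebra.TensorProduct.includeRight

theorem AddOf.resL (X : KMod k A) (Y : KMod k A') : AddOf A X ((ET X Y).res (ι1 k A A')) := by
  let β := Module.finBasis k Y
  let E : X ⊗[k] Y ≃ₗ[k] (ET X Y).res (ι1 k A A') := (toET X Y).trans ((ET X Y).toRes _)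
  have hE : ∀ (a : A) x y, a • E (x ⊗ₜ y) = E ((a • x) ⊗ₜ y) := fun a x y => by
    change (a ⊗ₜ[k] (1 : A')) • toET X Y (x ⊗ₜ y) = toET X Y _
    rw [smul_toET, one_smul]
  let c0 : Fin (Module.finrank k Y) → X ⊗[k] Y →ₗ[k] X := fun i =>
    (TensorProduct.rid k X).toLinearMap ∘ₗ LinearMap.lTensor X (β.coord i)
  let c : Fin (Module.finrank k Y) → (ET X Y).res (ι1 k A A') →ₗ[A] X := fun i =>
    { toFun := fun z => c0 i (E.symm z)
      map_add' := fun a b => by simp
      map_smul' := fun a z => by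
        obtain ⟨z, rfl⟩ := E.surjective z
        induction z using TensorProduct.induction_on with
        | zero => simp
        | tmul x y => simp [hE, c0, smul_comm a]
        | add x y hx hy => simp only [map_add, smul_add, hx, hy] }
  let b : Fin (Module.finrank k Y) → X →ₗ[A] (ET X Y).res (ι1 k A A') := fun i =>
    { toFun := fun x => E (x ⊗ₜ β i)
      map_add' := fun a b => by simp [add_tmul]
      map_smul' := fun a x => (hE a x _).symm }
  refine ⟨_, inferInstance, c, b, fun z => ?_⟩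
  obtain ⟨z, rfl⟩ := E.surjective z
  induction z using TensorProduct.induction_on with
  | zero => simp
  | tmul x y =>
    conv_rhs => rw [← β.sum_repr y, tmul_sum, map_sum]
    simp [b, c, c0]
  | add x y hx hy => simp only [map_add, Finset.sum_add_distrib, hx, hy]

variable (χ : A →ₐ[k] k) (χ' : A' →ₐ[k] k)

/-- the product character. -/
def χT : A ⊗[k] A' →ₐ[k] k := Algebra.TensorProduct.productMap χ χ'

@[simp] theorem χT_tmul (a : A) (a' : A') : χT χ χ' (a ⊗ₜ a') = χ a * χ' a' := rfl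

/-- the tensor product of two characters. -/
def ETchr : ET (chr χ) (chr χ') ≃ₗ[A ⊗[k] A'] chr (χT χ χ') :=
  LinearEquiv.ofBijective
    (ET.lift ((TensorProduct.congr (toChr χ).symm (toChr χ').symm).trans
      ((TensorProduct.lid k k).trans (toChr _))).toLinearMap (fun a a' x y => by
        simp only [chr_smul, χT_tmul, ← smul_tmul', tmul_smul, map_smul, mul_smul]
        rw [smul_comm]))
    ((TensorProduct.congr (toChr χ).symm (toChr χ').symm).trans
      ((TensorProduct.lid k k).trans (toChr _))).bijective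

variable {χ χ'}

theorem EZ.etL0 (h : EZ A X (chr χ) 0) (Y : KMod k A') :
    EZ (A ⊗[k] A') (ET X Y) (chr (χT χ χ')) 0 := by
  rw [EZ.zero_iff] at h ⊢
  intro u
  refine LinearMap.ext fun z => ?_
  induction z using ET.ind with
  | h0 => simp
  | h1 x y =>
    let v : X →ₗ[A] chr χ :=
      { toFun := fun x => toChr χ ((toChr _).symm (u (toET X Y (x ⊗ₜ y))))
        map_add' := fun a b => by simp [add_tmul]
        map_smul' := fun a x => by
          have := u.map_smul (a ⊗ₜ 1) (toET X Y (x ⊗ₜ y))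
          rw [smul_toET, one_smul, chr_smul] at this
          simp [this, chr_smul, ← smul_eq_mul] }
    exact congrArg (fun w : X →ₗ[A] chr χ => w x) (h v)
  | h2 x y hx hy => rw [map_add, map_add, hx, hy]

theorem EZ.etR0 (h : EZ A' Y (chr χ') 0) (X : KMod k A) :
    EZ (A ⊗[k] A') (ET X Y) (chr (χT χ χ')) 0 := by
  rw [EZ.zero_iff] at h ⊢
  intro u
  refine LinearMap.ext fun z => ?_
  induction z using ET.ind with
  | h0 => simp
  | h1 x y =>
    let v : Y →ₗ[A'] chr χ' :=
      { toFun := fun y => toChr χ' ((toChr _).symm (u (toET X Y (x ⊗ₜ y))))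
        map_add' := fun a b => by simp [tmul_add]
        map_smul' := fun a y => by
          have := u.map_smul (1 ⊗ₜ a) (toET X Y (x ⊗ₜ y))
          rw [smul_toET, one_smul, chr_smul] at this
          simp [this, chr_smul, ← smul_eq_mul] }
    exact congrArg (fun w : Y →ₗ[A'] chr χ' => w y) (h v)
  | h2 x y hx hy => rw [map_add, map_add, hx, hy]

variable [FiniteDimensional k A] [FiniteDimensional k A']

/-- the tensor product of the regular modules. -/
def ETreg : ET (KMod.reg k A) (KMod.reg k A') ≃ₗ[A ⊗[k] A'] A ⊗[k] A' :=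
  LinearEquiv.ofBijective
    (ET.lift (X := KMod.reg k A) (Y := KMod.reg k A') (M := A ⊗[k] A') LinearMap.id
      (fun a a' (x : A) (y : A') => (Algebra.TensorProduct.tmul_mul_tmul (R := k) a x a' y).symm))
    Function.bijective_id

theorem ETreg_tmul (a : A) (a' : A') :
    ETreg (toET _ _ (KMod.toReg k A a ⊗ₜ KMod.toReg k A' a')) = a ⊗ₜ[k] a' := rfl

/-- the tensor product of the dual spaces. -/
def dualT (k A A' : Type) [Field k] [Ring A] [Algebra k A] [Ring A'] [Algebra k A']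
    [FiniteDimensional k A] [FiniteDimensional k A'] :
    CoInd k A k ⊗[k] CoInd k A' k ≃ₗ[k] CoInd k (A ⊗[k] A') k :=
  (TensorProduct.congr (HomR.lin _) (HomR.lin _)).trans
    ((TensorProduct.dualDistribEquiv k A A').trans (HomR.lin _).symm)

theorem dualT_tmul (φ : CoInd k A k) (ψ : CoInd k A' k) (a : A) (a' : A') :
    dualT k A A' (φ ⊗ₜ ψ) (a ⊗ₜ a') = φ a * ψ a' := by
  simp [dualT]

/-- the tensor product of the duals. -/
def ETdual : ET (DualM k A) (DualM k A') ≃ₗ[A ⊗[k] A'] CoInd k (A ⊗[k] A') k :=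
  LinearEquiv.ofBijective
    (ET.lift (X := DualM k A) (Y := DualM k A') (dualT k A A').toLinearMap
      (fun a a' x y => HomR.ext_lin (TensorProduct.ext' fun _ _ => by simp [dualT_tmul])))
    (dualT k A A').bijective

theorem ETdual_tmul (φ : CoInd k A k) (ψ : CoInd k A' k) (a : A) (a' : A') :
    ETdual (toET (DualM k A) (DualM k A') (φ ⊗ₜ ψ)) (a ⊗ₜ a') = φ a * ψ a' :=
  dualT_tmul φ ψ a a'

instance ET.proj [Module.Projective A X] [Module.Projective A' Y] :
    Module.Projective (A ⊗[k] A') (ET X Y) :=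
  ((AddOf.of_equiv ETreg).trans (AddOf.et (X := KMod.reg k A) (Y := KMod.reg k A')
    (AddOf.of_proj k X) (AddOf.of_proj k Y))).proj

instance ET.inj [Module.Injective A X] [Module.Injective A' Y] :
    Module.Injective (A ⊗[k] A') (ET X Y) :=
  ((AddOf.of_equiv ETdual).trans (AddOf.et (X := DualM k A) (Y := DualM k A')
    (AddOf.of_inj k X) (AddOf.of_inj k Y))).inj

theorem NN.etL [Module.Projective A X] (h : EZ A X (chr χ) 0) (Y : KMod k A') :
    NN (A ⊗[k] A') (ET X Y) (chr (χT χ χ')) := by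
  refine NN.coind (fun Z => ∃ Y, Z = ET X Y) ?_ _ ⟨Y, rfl⟩
  rintro _ ⟨Y, rfl⟩
  exact ⟨_, _, _, _, Y.fses.etR X, NN.of_proj (h.etL0 _), _, rfl⟩

theorem NN.etR [Module.Projective A' Y] (h : EZ A' Y (chr χ') 0) (X : KMod k A) :
    NN (A ⊗[k] A') (ET X Y) (chr (χT χ χ')) := by
  refine NN.coind (fun Z => ∃ X, Z = ET X Y) ?_ _ ⟨X, rfl⟩
  rintro _ ⟨X, rfl⟩
  exact ⟨_, _, _, _, X.fses.etL Y, NN.of_proj (h.etR0 _), _, rfl⟩

theorem Res.etL (h : Res (chr χ) X) (Y : KMod k A') : NN (A ⊗[k] A') (ET X Y) (chr (χT χ χ')) := by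
  obtain ⟨T, hT, h⟩ := h
  refine NN.coind (fun Z => ∃ X, T X ∧ Z = ET X Y) ?_ _ ⟨X, hT, rfl⟩
  rintro _ ⟨X, hX, rfl⟩
  obtain ⟨X', P, i, p, h1, h2, h3, h4⟩ := h X hX
  exact ⟨_, _, _, _, h1.etL Y, NN.etL h3 Y, _, h4, rfl⟩

theorem Res.etR (h : Res (chr χ') Y) (X : KMod k A) : NN (A ⊗[k] A') (ET X Y) (chr (χT χ χ')) := by
  obtain ⟨T, hT, h⟩ := h
  refine NN.coind (fun Z => ∃ Y, T Y ∧ Z = ET X Y) ?_ _ ⟨Y, hT, rfl⟩
  rintro _ ⟨Y, hY, rfl⟩
  obtain ⟨Y', P, i, p, h1, h2, h3, h4⟩ := h Y hY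
  exact ⟨_, _, _, _, h1.etR X, NN.etR h3 X, _, h4, rfl⟩

end

end Vale.Agent.P195
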