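import Mathlib

/-! Vanishing of Ext groups for unbundled modules, and long exact sequence lemmas. -/

open CategoryTheory Abelian

namespace Vale.Agent.P195

noncomputable section

section basic

variable (R : Type) [Ring R]

/-- Ext groups of unbundled modules. -/
abbrev Ex (X Y : Type) [AddCommGroup X] [Module R X] [AddCommGroup Y] [Module R Y] (n : ℕ) :
    Type :=
  Ext.{0} (ModuleCat.of R X) (ModuleCat.of R Y) n

/-- The Ext group vanishes. -/
def EZ (X Y : Type) [AddCommGroup X] [Module R X] [AddCommGroup Y] [Module R Y] (n : ℕ) : Prop :=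
  ∀ x : Ex R X Y n, x = 0

variable {R}
variable {X Y Z W : Type} [AddCommGroup X] [Module R X] [AddCommGroup Y] [Module R Y]
  [AddCommGroup Z] [Module R Z] [AddCommGroup W] [Module R W]

/-- A short exact sequence of modules. -/
structure SES (i : X →ₗ[R] Y) (p : Y →ₗ[R] Z) : Prop where
  inj : Function.Injective i
  surj : Function.Surjective p
  exact : Function.Exact i p

/-- Degree zero Ext class of a linear map. -/
def m0 (f : X →ₗ[R] Y) : Ex R X Y 0 := Ext.mk₀ (ModuleCat.ofHom f)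

theorem m0_comp (f : X →ₗ[R] Y) (g : Y →ₗ[R] Z) :
    (m0 f).comp (m0 g) (zero_add 0) = m0 (g ∘ₗ f) := by
  simp only [m0, Ext.mk₀_comp_mk₀]; rfl

theorem m0_id_comp {n : ℕ} (x : Ex R X Y n) : (m0 LinearMap.id).comp x (zero_add n) = x :=
  Ext.mk₀_id_comp x

theorem comp_m0_id {n : ℕ} (x : Ex R X Y n) : x.comp (m0 LinearMap.id) (add_zero n) = x :=
  Ext.comp_mk₀_id x

theorem m0_zero : m0 (0 : X →ₗ[R] Y) = 0 := by
  simp only [m0]; exact Ext.mk₀_zero _ _

theorem m0_add (f g : X →ₗ[R] Y) : m0 (f + g) = m0 f + m0 g := by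
  simp only [m0]; exact Ext.mk₀_add _ _

theorem m0_neg (f : X →ₗ[R] Y) : m0 (-f) = - m0 f := by
  simp only [m0]; exact Ext.mk₀_neg _

theorem m0_sub (f g : X →ₗ[R] Y) : m0 (f - g) = m0 f - m0 g := by
  rw [sub_eq_add_neg, m0_add, m0_neg, sub_eq_add_neg]

theorem m0_surj (x : Ex R X Y 0) : ∃ f : X →ₗ[R] Y, m0 f = x := by
  obtain ⟨f, rfl⟩ := (Ext.mk₀_bijective _ _).2 x
  exact ⟨f.hom, rfl⟩

theorem m0_inj {f g : X →ₗ[R] Y} (h : m0 f = m0 g) : f = g := by
  have := (Ext.mk₀_bijective _ _).1 h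
  exact congrArg ModuleCat.Hom.hom this

theorem m0_comp_assoc (f : X →ₗ[R] Y) (g : Y →ₗ[R] Z) {n : ℕ} (x : Ex R Z W n) :
    (m0 f).comp ((m0 g).comp x (zero_add n)) (zero_add n) = (m0 (g ∘ₗ f)).comp x (zero_add n) :=
  Ext.mk₀_comp_mk₀_assoc _ _ x

theorem comp_m0_assoc {n : ℕ} (x : Ex R W X n) (f : X →ₗ[R] Y) (g : Y →ₗ[R] Z) :
    (x.comp (m0 f) (add_zero n)).comp (m0 g) (add_zero n) = x.comp (m0 (g ∘ₗ f)) (add_zero n) := by
  rw [Ext.comp_assoc_of_second_deg_zero, m0_comp]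

namespace SES

variable {i : X →ₗ[R] Y} {p : Y →ₗ[R] Z}

theorem comp_zero (h : SES i p) : p ∘ₗ i = 0 := h.exact.linearMap_comp_eq_zero

theorem apply_zero (h : SES i p) (x : X) : p (i x) = 0 := h.exact.apply_apply_eq_zero x

theorem mem_range (h : SES i p) {y : Y} (hy : p y = 0) : ∃ x, i x = y := (h.exact y).1 hy

theorem mk' (hi : Function.Injective i) (hp : Function.Surjective p) (h0 : ∀ x, p (i x) = 0)
    (h1 : ∀ y, p y = 0 → ∃ x, i x = y) : SES i p :=
  ⟨hi, hp, fun y => ⟨h1 y, by rintro ⟨x, rfl⟩; exact h0 x⟩⟩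

/-- The short complex attached to a short exact sequence. -/
abbrev sc (h : SES i p) : ShortComplex (ModuleCat.{0} R) :=
  ModuleCat.shortComplexOfCompEqZero i p h.comp_zero

theorem shortExact (h : SES i p) : h.sc.ShortExact :=
  ModuleCat.shortComplex_shortExact _ h.exact h.inj h.surj

/-- The extension class. -/
def cls (h : SES i p) : Ex R Z X 1 := h.shortExact.extClass

theorem contra1 (h : SES i p) {n n' : ℕ} (x : Ex R X W n) (hn : 1 + n = n')
    (hx : h.cls.comp x hn = 0) : ∃ y : Ex R Y W n, (m0 i).comp y (zero_add n) = x :=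
  Ext.contravariant_sequence_exact₁ h.shortExact _ x hn hx

theorem contra2 (h : SES i p) {n : ℕ} (y : Ex R Y W n)
    (hy : (m0 i).comp y (zero_add n) = 0) : ∃ z : Ex R Z W n, (m0 p).comp z (zero_add n) = y :=
  Ext.contravariant_sequence_exact₂ h.shortExact _ y hy

theorem contra3 (h : SES i p) {n n' : ℕ} (z : Ex R Z W n') (hz : (m0 p).comp z (zero_add n') = 0)
    (hn : 1 + n = n') : ∃ x : Ex R X W n, h.cls.comp x hn = z :=
  Ext.contravariant_sequence_exact₃ h.shortExact _ z hz hn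

theorem co1 (h : SES i p) {n n' : ℕ} (x : Ex R W X n') (hx : x.comp (m0 i) (add_zero n') = 0)
    (hn : n + 1 = n') : ∃ z : Ex R W Z n, z.comp h.cls hn = x :=
  Ext.covariant_sequence_exact₁ _ h.shortExact x hx hn

theorem co2 (h : SES i p) {n : ℕ} (y : Ex R W Y n) (hy : y.comp (m0 p) (add_zero n) = 0) :
    ∃ x : Ex R W X n, x.comp (m0 i) (add_zero n) = y :=
  Ext.covariant_sequence_exact₂ _ h.shortExact y hy

theorem co3 (h : SES i p) {n n' : ℕ} (z : Ex R W Z n) (hn : n + 1 = n')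
    (hz : z.comp h.cls hn = 0) : ∃ y : Ex R W Y n, y.comp (m0 p) (add_zero n) = z :=
  Ext.covariant_sequence_exact₃ _ h.shortExact z hn hz

theorem cls_comp_assoc (h : SES i p) {n n' : ℕ} (y : Ex R Y W n) (hn : 1 + n = n') :
    h.cls.comp ((m0 i).comp y (zero_add n)) hn = 0 :=
  h.shortExact.extClass_comp_assoc y

theorem comp_cls_assoc (h : SES i p) {n n' : ℕ} (x : Ex R X W n) (hn : 1 + n = n') :
    (m0 p).comp (h.cls.comp x hn) (zero_add n') = 0 :=
  h.shortExact.comp_extClass_assoc x hn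

theorem comp_comp_cls (h : SES i p) {n n' : ℕ} (y : Ex R W Y n) (hn : n + 1 = n') :
    (y.comp (m0 p) (add_zero n)).comp h.cls hn = 0 := by
  rw [Ext.comp_assoc_of_second_deg_zero]
  have : (m0 p).comp h.cls (zero_add 1) = 0 := h.shortExact.comp_extClass
  rw [this, Ext.comp_zero]

/-- descent of a map killing the sub. -/
theorem desc (h : SES i p) (u : Y →ₗ[R] W) (hu : ∀ x, u (i x) = 0) :
    ∃ v : Z →ₗ[R] W, ∀ y, v (p y) = u y := by
  have hk : LinearMap.ker p ≤ LinearMap.ker u := by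
    intro y hy
    obtain ⟨x, rfl⟩ := h.mem_range hy
    exact hu x
  refine ⟨((LinearMap.ker p).liftQ u hk) ∘ₗ (p.quotKerEquivOfSurjective h.surj).symm.toLinearMap,
    fun y => ?_⟩
  have : (p.quotKerEquivOfSurjective h.surj).symm (p y) = Submodule.Quotient.mk y := by
    rw [LinearEquiv.symm_apply_eq]; rfl
  simp [this]

/-- lifting of a map killed by the quotient map. -/
theorem lift (h : SES i p) (u : W →ₗ[R] Y) (hu : ∀ w, p (u w) = 0) :
    ∃ v : W →ₗ[R] X, ∀ w, i (v w) = u w := by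
  refine ⟨(LinearEquiv.ofInjective i h.inj).symm.toLinearMap ∘ₗ
    (u.codRestrict (LinearMap.range i) fun w => h.mem_range (hu w)), fun w => ?_⟩
  have : ∀ z : LinearMap.range i, i ((LinearEquiv.ofInjective i h.inj).symm z) = z := by
    intro z
    obtain ⟨x, rfl⟩ := (LinearEquiv.ofInjective i h.inj).surjective z
    simp
  exact this _

theorem ker (p : Y →ₗ[R] Z) (hp : Function.Surjective p) : SES (LinearMap.ker p).subtype p :=
  ⟨Subtype.val_injective, hp, p.exact_subtype_ker_map⟩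

theorem quot (N : Submodule R Y) : SES N.subtype N.mkQ :=
  ⟨Subtype.val_injective, N.mkQ_surjective, LinearMap.exact_subtype_mkQ N⟩

theorem coker (i : X →ₗ[R] Y) (hi : Function.Injective i) : SES i (LinearMap.range i).mkQ :=
  ⟨hi, Submodule.mkQ_surjective _, i.exact_map_mkQ_range⟩

theorem prod : SES (LinearMap.inl R X Z) (LinearMap.snd R X Z) :=
  ⟨LinearMap.inl_injective, LinearMap.snd_surjective, Function.Exact.inl_snd⟩

end SES

namespace EZ

variable {i : X →ₗ[R] Y} {p : Y →ₗ[R] Z}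

theorem subsingleton {n : ℕ} (h : EZ R X Y n) : Subsingleton (Ex R X Y n) :=
  ⟨fun a b => by rw [h a, h b]⟩

theorem of_subsingleton {n : ℕ} (h : Subsingleton (Ex R X Y n)) : EZ R X Y n :=
  fun _ => Subsingleton.elim _ _

theorem zero_iff : EZ R X Y 0 ↔ ∀ f : X →ₗ[R] Y, f = 0 := by
  constructor
  · intro h f
    apply m0_inj
    rw [h (m0 f), m0_zero]
  · intro h x
    obtain ⟨f, rfl⟩ := m0_surj x
    rw [h f, m0_zero]

theorem of_proj [Module.Projective R X] (n : ℕ) : EZ R X Y (n + 1) :=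
  fun x => Ext.eq_zero_of_projective x

theorem of_inj [h : Module.Injective R Y] (n : ℕ) : EZ R X Y (n + 1) := fun x =>
  haveI := Module.injective_object_of_injective_module R Y
  Ext.eq_zero_of_injective x

theorem left_mid (h : SES i p) {n : ℕ} (h1 : EZ R X W n) (h3 : EZ R Z W n) : EZ R Y W n := by
  intro y
  obtain ⟨z, rfl⟩ := h.contra2 y (h1 _)
  rw [h3 z, Ext.comp_zero]

theorem left_quot (h : SES i p) {n : ℕ} (h1 : EZ R X W n) (h2 : EZ R Y W (n + 1)) :
    EZ R Z W (n + 1) := by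
  intro z
  obtain ⟨x, rfl⟩ := h.contra3 z (h2 _) (add_comm 1 n)
  rw [h1 x, Ext.comp_zero]

theorem left_quot0 (hp : Function.Surjective p) (h2 : EZ R Y W 0) : EZ R Z W 0 := by
  rw [zero_iff] at h2 ⊢
  intro f
  have := h2 (f ∘ₗ p)
  ext z
  obtain ⟨y, rfl⟩ := hp z
  exact congrArg (fun g => g y) this

theorem left_sub (h : SES i p) {n : ℕ} (h2 : EZ R Y W n) (h3 : EZ R Z W (n + 1)) :
    EZ R X W n := by
  intro x
  obtain ⟨y, rfl⟩ := h.contra1 x (add_comm 1 n) (h3 _)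
  rw [h2 y, Ext.comp_zero]

theorem right_mid (h : SES i p) {n : ℕ} (h1 : EZ R W X n) (h3 : EZ R W Z n) : EZ R W Y n := by
  intro y
  obtain ⟨z, rfl⟩ := h.co2 y (h3 _)
  rw [h1 z, Ext.zero_comp]

theorem right_sub (h : SES i p) {n : ℕ} (h3 : EZ R W Z n) (h2 : EZ R W Y (n + 1)) :
    EZ R W X (n + 1) := by
  intro x
  obtain ⟨z, rfl⟩ := h.co1 x (h2 _) rfl
  rw [h3 z, Ext.zero_comp]

theorem right_quot (h : SES i p) {n : ℕ} (h2 : EZ R W Y n) (h1 : EZ R W X (n + 1)) :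
    EZ R W Z n := by
  intro z
  obtain ⟨y, rfl⟩ := h.co3 z rfl (h1 _)
  rw [h2 y, Ext.zero_comp]

theorem left_retract (a : X →ₗ[R] Y) (b : Y →ₗ[R] X) (hab : ∀ x, b (a x) = x) {n : ℕ}
    (h : EZ R Y W n) : EZ R X W n := by
  intro x
  have : b ∘ₗ a = LinearMap.id := LinearMap.ext hab
  rw [← m0_id_comp x, ← this, ← m0_comp_assoc, h ((m0 b).comp x (zero_add n)), Ext.comp_zero]

theorem right_retract (a : X →ₗ[R] Y) (b : Y →ₗ[R] X) (hab : ∀ x, b (a x) = x) {n : ℕ}
    (h : EZ R W Y n) : EZ R W X n := by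
  intro x
  have : b ∘ₗ a = LinearMap.id := LinearMap.ext hab
  rw [← comp_m0_id x, ← this, ← comp_m0_assoc, h (x.comp (m0 a) (add_zero n)), Ext.zero_comp]

theorem left_equiv (e : X ≃ₗ[R] Y) {n : ℕ} (h : EZ R Y W n) : EZ R X W n :=
  left_retract e.toLinearMap e.symm.toLinearMap (by simp) h

theorem right_equiv (e : X ≃ₗ[R] Y) {n : ℕ} (h : EZ R W Y n) : EZ R W X n :=
  right_retract e.toLinearMap e.symm.toLinearMap (by simp) h

theorem left_prod {n : ℕ} (h1 : EZ R X W n) (h2 : EZ R Y W n) : EZ R (X × Y) W n :=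
  left_mid SES.prod h1 h2

theorem right_prod {n : ℕ} (h1 : EZ R W X n) (h2 : EZ R W Y n) : EZ R W (X × Y) n :=
  right_mid SES.prod h1 h2

theorem left_subsingleton [Subsingleton X] (n : ℕ) : EZ R X W n := by
  intro x
  have : (LinearMap.id : X →ₗ[R] X) = 0 := by ext; exact Subsingleton.elim _ _
  rw [← m0_id_comp x, this, m0_zero, Ext.zero_comp]

theorem right_subsingleton [Subsingleton X] (n : ℕ) : EZ R W X n := by
  intro x
  have : (LinearMap.id : X →ₗ[R] X) = 0 := by ext; exact Subsingleton.elim _ _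
  rw [← comp_m0_id x, this, m0_zero, Ext.comp_zero]

theorem left_pi {n : ℕ} (h : EZ R X W n) (m : ℕ) : EZ R (Fin m → X) W n := by
  induction m with
  | zero => exact left_subsingleton n
  | succ m ih => exact left_equiv (Fin.consLinearEquiv R (fun _ => X)).symm (left_prod h ih)

theorem right_pi {n : ℕ} (h : EZ R W X n) (m : ℕ) : EZ R W (Fin m → X) n := by
  induction m with
  | zero => exact right_subsingleton n
  | succ m ih => exact right_equiv (Fin.consLinearEquiv R (fun _ => X)).symm (right_prod h ih)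

/-- vanishing of Ext one gives extension of maps. -/
theorem extend (h : SES i p) (h3 : EZ R Z W 1) (u : X →ₗ[R] W) :
    ∃ v : Y →ₗ[R] W, ∀ x, v (i x) = u x := by
  obtain ⟨y, hy⟩ := h.contra1 (m0 u) rfl (h3 _)
  obtain ⟨v, rfl⟩ := m0_surj y
  rw [m0_comp] at hy
  exact ⟨v, fun x => congrArg (fun g => g x) (m0_inj hy)⟩

theorem of_extend (h : SES i p) (h2 : EZ R Y W 1)
    (hu : ∀ u : X →ₗ[R] W, ∃ v : Y →ₗ[R] W, ∀ x, v (i x) = u x) : EZ R Z W 1 := by
  intro z
  obtain ⟨x, rfl⟩ := h.contra3 (n := 0) z (h2 _) rfl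
  obtain ⟨u, rfl⟩ := m0_surj x
  obtain ⟨v, hv⟩ := hu u
  have : u = v ∘ₗ i := LinearMap.ext fun x => (hv x).symm
  rw [this, ← m0_comp]
  exact h.cls_comp_assoc _ _

/-- vanishing of Ext one gives lifting of maps. -/
theorem lift (h : SES i p) (h1 : EZ R W X 1) (u : W →ₗ[R] Z) :
    ∃ v : W →ₗ[R] Y, ∀ w, p (v w) = u w := by
  obtain ⟨y, hy⟩ := h.co3 (m0 u) rfl (h1 _)
  obtain ⟨v, rfl⟩ := m0_surj y
  rw [m0_comp] at hy
  exact ⟨v, fun x => congrArg (fun g => g x) (m0_inj hy)⟩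

theorem of_lift (h : SES i p) (h2 : EZ R W Y 1)
    (hu : ∀ u : W →ₗ[R] Z, ∃ v : W →ₗ[R] Y, ∀ w, p (v w) = u w) : EZ R W X 1 := by
  intro z
  obtain ⟨x, rfl⟩ := h.co1 (n := 0) z (h2 _) rfl
  obtain ⟨u, rfl⟩ := m0_surj x
  obtain ⟨v, hv⟩ := hu u
  have : u = p ∘ₗ v := LinearMap.ext fun x => (hv x).symm
  rw [this, ← m0_comp]
  exact h.comp_comp_cls _ _

end EZ

/-- A module all of whose first Ext groups vanish is projective. -/
theorem proj_of_EZ (h : ∀ (W : Type) [AddCommGroup W] [Module R W], EZ R X W 1) :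
    Module.Projective R X := by
  apply Module.Projective.of_lifting_property''
  intro f hf
  obtain ⟨v, hv⟩ := EZ.lift (SES.ker f hf) (h _) LinearMap.id
  exact ⟨v, LinearMap.ext hv⟩

end basic

section linear

variable (k : Type) [Field k] (R : Type) [Ring R] [Algebra k R]

/-- The Ext group is spanned by one element over the ground field. -/
def E1 (X Y : Type) [AddCommGroup X] [Module R X] [AddCommGroup Y] [Module R Y] (n : ℕ) : Prop :=
  ∃ x : Ex R X Y n, ∀ y : Ex R X Y n, ∃ c : k, y = c • x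

variable {k R}
variable {X Y Z W : Type} [AddCommGroup X] [Module R X] [AddCommGroup Y] [Module R Y]
  [AddCommGroup Z] [Module R Z] [AddCommGroup W] [Module R W]

theorem m0_smul [Module k Y] [IsScalarTower k R Y] (c : k) (f : X →ₗ[R] Y) :
    m0 (c • f) = c • m0 f := by
  simp only [m0]
  rw [← Ext.mk₀_smul]
  congr 1
  ext x
  exact (algebraMap_smul R c (f x)).symm

theorem span1_surj {A B : Type} [AddCommGroup A] [AddCommGroup B] [Module k A] [Module k B]
    (F : A → B) (hF : ∀ (c : k) a, F (c • a) = c • F a) (hs : Function.Surjective F)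
    (h : ∃ x : A, ∀ y : A, ∃ c : k, y = c • x) : ∃ x : B, ∀ y : B, ∃ c : k, y = c • x := by
  obtain ⟨x, hx⟩ := h
  refine ⟨F x, fun y => ?_⟩
  obtain ⟨a, rfl⟩ := hs y
  obtain ⟨c, rfl⟩ := hx a
  exact ⟨c, hF c x⟩

theorem span1_inj {A B : Type} [AddCommGroup A] [AddCommGroup B] [Module k A] [Module k B]
    (F : A → B) (hF : ∀ (c : k) a, F (c • a) = c • F a) (hs : Function.Injective F)
    (h : ∃ x : B, ∀ y : B, ∃ c : k, y = c • x) : ∃ x : A, ∀ y : A, ∃ c : k, y = c • x := by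
  obtain ⟨x, hx⟩ := h
  by_cases h0 : ∀ a : A, a = 0
  · exact ⟨0, fun y => ⟨0, by rw [h0 y, zero_smul]⟩⟩
  push Not at h0
  obtain ⟨a, ha⟩ := h0
  refine ⟨a, fun y => ?_⟩
  obtain ⟨c, hc⟩ := hx (F a)
  obtain ⟨d, hd⟩ := hx (F y)
  have hc0 : c ≠ 0 := by
    rintro rfl
    apply ha
    apply hs
    have := hF 0 a
    rw [zero_smul, zero_smul] at this
    rw [hc, this, zero_smul]
  refine ⟨d / c, hs ?_⟩
  rw [hF, hc, hd, smul_smul, div_mul_cancel₀ _ hc0]

namespace E1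

variable {i : X →ₗ[R] Y} {p : Y →ₗ[R] Z}

theorem left_quot (h : SES i p) {n : ℕ} (h1 : E1 k R X W n) (h2 : EZ R Y W (n + 1)) :
    E1 k R Z W (n + 1) :=
  span1_surj (fun x => h.cls.comp x (add_comm 1 n)) (fun _ _ => Ext.comp_smul _ _ _ _)
    (fun z => h.contra3 z (h2 _) _) h1

theorem left_sub (h : SES i p) {n : ℕ} (h2 : EZ R Y W n) (h3 : E1 k R Z W (n + 1)) :
    E1 k R X W n := by
  refine span1_inj (fun x => h.cls.comp x (add_comm 1 n)) (fun _ _ => Ext.comp_smul _ _ _ _)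
    ?_ h3
  intro a b hab
  have : h.cls.comp (a - b) (add_comm 1 n) = 0 := by
    rw [sub_eq_add_neg, Ext.comp_add, Ext.comp_neg]
    simp only at hab
    rw [hab, add_neg_cancel]
  obtain ⟨y, hy⟩ := h.contra1 _ _ this
  rw [h2 y, Ext.comp_zero] at hy
  exact (sub_eq_zero.1 hy.symm)

theorem left_mid (h : SES i p) {n : ℕ} (h1 : E1 k R X W n) (h3 : EZ R Z W n) :
    E1 k R Y W n := by
  refine span1_inj (fun y => (m0 i).comp y (zero_add n)) (fun _ _ => Ext.comp_smul _ _ _ _)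
    ?_ h1
  intro a b hab
  have : (m0 i).comp (a - b) (zero_add n) = 0 := by
    rw [sub_eq_add_neg, Ext.comp_add, Ext.comp_neg]
    simp only at hab
    rw [hab, add_neg_cancel]
  obtain ⟨y, hy⟩ := h.contra2 _ this
  rw [h3 y, Ext.comp_zero] at hy
  exact (sub_eq_zero.1 hy.symm)

theorem left_mid' (h : SES i p) {n : ℕ} (h1 : EZ R X W n) (h3 : E1 k R Z W n) :
    E1 k R Y W n :=
  span1_surj (fun z => (m0 p).comp z (zero_add n)) (fun _ _ => Ext.comp_smul _ _ _ _)
    (fun y => h.contra2 y (h1 _)) h3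

theorem left_equiv (e : X ≃ₗ[R] Y) {n : ℕ} (h : E1 k R Y W n) : E1 k R X W n := by
  refine span1_surj (fun z => (m0 e.toLinearMap).comp z (zero_add n))
    (fun _ _ => Ext.comp_smul _ _ _ _) (fun y => ⟨(m0 e.symm.toLinearMap).comp y (zero_add n), ?_⟩) h
  simp only
  rw [m0_comp_assoc]
  have : e.symm.toLinearMap ∘ₗ e.toLinearMap = LinearMap.id := by ext; simp
  rw [this, m0_id_comp]

theorem right_sub (h : SES i p) {n : ℕ} (h3 : E1 k R W Z n) (h2 : EZ R W Y (n + 1)) :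
    E1 k R W X (n + 1) :=
  span1_surj (fun z => z.comp h.cls rfl) (fun _ _ => Ext.smul_comp _ _ _ _)
    (fun x => h.co1 x (h2 _) rfl) h3

theorem right_quot (h : SES i p) {n : ℕ} (h2 : EZ R W Y n) (h1 : E1 k R W X (n + 1)) :
    E1 k R W Z n := by
  refine span1_inj (fun z => z.comp h.cls rfl) (fun _ _ => Ext.smul_comp _ _ _ _) ?_ h1
  intro a b hab
  have : (a - b).comp h.cls rfl = 0 := by
    rw [sub_eq_add_neg, Ext.add_comp, Ext.neg_comp]
    simp only at hab
    rw [hab, add_neg_cancel]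
  obtain ⟨y, hy⟩ := h.co3 _ _ this
  rw [h2 y, Ext.zero_comp] at hy
  exact (sub_eq_zero.1 hy.symm)

theorem zero_iff [Module k Y] [IsScalarTower k R Y] :
    E1 k R X Y 0 ↔ ∃ f : X →ₗ[R] Y, ∀ g : X →ₗ[R] Y, ∃ c : k, g = c • f := by
  constructor
  · intro h
    exact span1_inj m0 m0_smul (fun _ _ => m0_inj) h
  · intro h
    exact span1_surj m0 m0_smul (fun x => m0_surj x) h

theorem extend [Module k W] [IsScalarTower k R W] (h : SES i p) (h3 : E1 k R Z W 1) :
    ∃ u0 : X →ₗ[R] W, ∀ u : X →ₗ[R] W, ∃ (c : k) (v : Y →ₗ[R] W), u = c • u0 + v ∘ₗ i := by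
  let F : (X →ₗ[R] W) →ₗ[k] Ex R Z W 1 :=
    { toFun := fun u => h.cls.comp (m0 u) rfl
      map_add' := fun a b => by rw [m0_add, Ext.comp_add]
      map_smul' := fun c a => by rw [m0_smul, Ext.comp_smul]; rfl }
  obtain ⟨x, hx⟩ := span1_inj (k := k) (LinearMap.range F).subtype (fun _ _ => rfl)
    Subtype.val_injective h3
  obtain ⟨x, u0, rfl⟩ := x
  refine ⟨u0, fun u => ?_⟩
  obtain ⟨c, hc⟩ := hx ⟨F u, u, rfl⟩
  have hc' : F (u - c • u0) = 0 := by
    rw [map_sub, map_smul, sub_eq_zero]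
    exact congrArg Subtype.val hc
  obtain ⟨y, hy⟩ := h.contra1 (m0 (u - c • u0)) rfl hc'
  obtain ⟨v, rfl⟩ := m0_surj y
  rw [m0_comp] at hy
  exact ⟨c, v, by rw [m0_inj hy]; abel⟩

theorem lift [Module k Z] [IsScalarTower k R Z] (h : SES i p) (h1 : E1 k R W X 1) :
    ∃ u0 : W →ₗ[R] Z, ∀ u : W →ₗ[R] Z, ∃ (c : k) (v : W →ₗ[R] Y), u = c • u0 + p ∘ₗ v := by
  let F : (W →ₗ[R] Z) →ₗ[k] Ex R W X 1 :=
    { toFun := fun u => (m0 u).comp h.cls rfl
      map_add' := fun a b => by rw [m0_add, Ext.add_comp]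
      map_smul' := fun c a => by rw [m0_smul, Ext.smul_comp]; rfl }
  obtain ⟨x, hx⟩ := span1_inj (k := k) (LinearMap.range F).subtype (fun _ _ => rfl)
    Subtype.val_injective h1
  obtain ⟨x, u0, rfl⟩ := x
  refine ⟨u0, fun u => ?_⟩
  obtain ⟨c, hc⟩ := hx ⟨F u, u, rfl⟩
  have hc' : F (u - c • u0) = 0 := by
    rw [map_sub, map_smul, sub_eq_zero]
    exact congrArg Subtype.val hc
  obtain ⟨y, hy⟩ := h.co3 (m0 (u - c • u0)) rfl hc'
  obtain ⟨v, rfl⟩ := m0_surj y
  rw [m0_comp] at hy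
  exact ⟨c, v, by rw [m0_inj hy]; abel⟩

end E1

end linear

end

end Vale.Agent.P195
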