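import Vale.Agent.P195.CC2

/-! Modules of every finite projective dimension over one finite dimensional algebra. -/

open TensorProduct CategoryTheory

namespace Vale.Agent.P195

noncomputable section

variable {Λ : Type} [Ring Λ] {G : Type} [AddCommGroup G] [Module Λ G]
variable {X Y Z : Type} [AddCommGroup X] [Module Λ X] [AddCommGroup Y] [Module Λ Y]
  [AddCommGroup Z] [Module Λ Z]

/-- precomposition, linear over the endomorphism ring. -/
def preE (G : Type) [AddCommGroup G] [Module Λ G] (u : X →ₗ[Λ] Y) :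
    (Y →ₗ[Λ] G) →ₗ[Module.End Λ G] (X →ₗ[Λ] G) where
  toFun φ := φ ∘ₗ u
  map_add' _ _ := rfl
  map_smul' _ _ := rfl

theorem preE_ses {i : X →ₗ[Λ] Y} {p : Y →ₗ[Λ] Z} (h : SES i p)
    (he : ∀ u : X →ₗ[Λ] G, ∃ v : Y →ₗ[Λ] G, ∀ x, v (i x) = u x) : SES (preE G p) (preE G i) := by
  refine SES.mk' ?_ ?_ ?_ ?_
  · intro a b hab
    refine LinearMap.ext fun z => ?_
    obtain ⟨y, rfl⟩ := h.surj z
    exact congrArg (fun w : Y →ₗ[Λ] G => w y) hab
  · intro u
    obtain ⟨v, hv⟩ := he u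
    exact ⟨v, LinearMap.ext hv⟩
  · intro φ
    refine LinearMap.ext fun x => ?_
    change φ (p (i x)) = 0
    rw [h.apply_zero, map_zero]
  · intro φ hφ
    obtain ⟨v, hv⟩ := h.desc φ fun x => congrArg (fun w : X →ₗ[Λ] G => w x) hφ
    exact ⟨v, LinearMap.ext hv⟩

theorem hom_proj (h : AddOf Λ G X) : Module.Projective (Module.End Λ G) (X →ₗ[Λ] G) := by
  obtain ⟨I, _, c, b, h⟩ := h
  refine AddOf.proj (X := Module.End Λ G) ⟨I, inferInstance, fun i => preE G (b i),
    fun i => preE G (c i), fun φ => LinearMap.ext fun x => ?_⟩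
  rw [LinearMap.sum_apply]
  change ∑ i, φ (b i (c i x)) = φ x
  rw [← map_sum, h]

theorem proj_of_hom {i : X →ₗ[Λ] Y} {p : Y →ₗ[Λ] Z} (h : SES (preE G p) (preE G i))
    (hY : AddOf Λ G Y) [Module.Projective Λ Y] (j : Z →ₗ[Λ] G) (hj : Function.Injective j)
    [Module.Projective (Module.End Λ G) (X →ₗ[Λ] G)] : Module.Projective Λ Z := by
  obtain ⟨r, hr⟩ := EZ.extend h (EZ.of_proj 0) LinearMap.id
  obtain ⟨I, _, c, b, hb⟩ := hY
  refine proj_of_retract (∑ l, b l ∘ₗ r (c l)) p fun z => hj ?_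
  have h1 : j ∘ₗ p = ∑ l, (show Module.End Λ G from j ∘ₗ p ∘ₗ b l) • c l := by
    refine LinearMap.ext fun y => ?_
    rw [LinearMap.sum_apply]
    change j (p y) = ∑ l, j (p (b l (c l y)))
    rw [← map_sum, ← map_sum, hb]
  have h2 : r (j ∘ₗ p) = j := hr j
  rw [h1, map_sum] at h2
  conv_rhs => rw [← h2]
  simp only [map_smul, LinearMap.sum_apply, map_sum]
  rfl

theorem findim_of_counter {k : Type} [Field k] (h : ARCounter k) :
    ∃ (A : Type) (_ : Ring A) (_ : Algebra k A) (_ : FiniteDimensional k A), ∀ n : ℕ,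
      ∃ (N : Type) (_ : AddCommGroup N) (_ : Module A N) (_ : Module.Finite A N),
        projectiveDimension (ModuleCat.of A N) = n := by
  obtain ⟨Λ, _, _, _, Z, _, _, _, _, _, h1, h2, h3⟩ := h
  let Z' : KMod k Λ := KMod.of k Λ Z
  let G := Λ × Z
  let Γ := Module.End Λ G
  have hG : ∀ n, EZ Λ Z' G (n + 1) := fun n => EZ.right_prod (h2 n) (h1 n)
  have hs : ∀ m, SES (preE G (act k Λ (Z'.syzN m))) (preE G (Z'.inc m)) := fun m =>
    preE_ses (Z'.sesN m) (hG m).extend_syzN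
  have hA : ∀ m, AddOf Λ G (Λ ⊗[k] Z'.syzN m) := fun m =>
    (AddOf.of_retract (LinearMap.inl Λ Λ Z) (LinearMap.fst Λ Λ Z) fun _ => rfl).trans
      (AddOf.of_proj k _)
  have hP : ∀ m, Projective (ModuleCat.of Γ (Λ ⊗[k] Z'.syzN m →ₗ[Λ] G)) := fun m =>
    haveI := hom_proj (hA m)
    inferInstance
  have up : ∀ m, HasProjectiveDimensionLT (ModuleCat.of Γ (Z'.syzN m →ₗ[Λ] G)) (m + 1) := by
    intro m
    induction m with
    | zero =>
      have : Module.Projective Γ (Z'.syzN 0 →ₗ[Λ] G) := hom_proj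
        (AddOf.of_retract (LinearMap.inr Λ Λ Z) (LinearMap.snd Λ Λ Z) fun _ => rfl)
      infer_instance
    | succ m ih =>
      have := hP m
      exact (hs m).shortExact.hasProjectiveDimensionLT_X₃ _ ih
        (hasProjectiveDimensionLT_of_ge (ModuleCat.of Γ (Λ ⊗[k] Z'.syzN m →ₗ[Λ] G)) 1 _ (by omega))
  have down : ∀ m, ¬ HasProjectiveDimensionLT (ModuleCat.of Γ (Z'.syzN (m + 1) →ₗ[Λ] G)) (m + 1) := by
    intro m
    induction m with
    | zero =>
      intro hh
      have : Module.Projective Γ (Z'.syzN 1 →ₗ[Λ] G) :=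
        (IsProjective.iff_projective _).2 (projective_iff_hasProjectiveDimensionLT_one.2 hh)
      exact h3 (proj_of_hom (hs 0) (hA 0) (LinearMap.inr Λ Λ Z) LinearMap.inr_injective)
    | succ m ih =>
      exact fun hh => ih (((hs (m + 1)).shortExact.hasProjectiveDimensionLT_X₃_iff m (hP _)).1 hh)
  have down' : ∀ m, ¬ HasProjectiveDimensionLT (ModuleCat.of Γ (Z'.syzN m →ₗ[Λ] G)) m := by
    intro m
    cases m with
    | zero =>
      intro hh
      have := hP 0
      exact down 0 ((hs 0).shortExact.hasProjectiveDimensionLT_X₃ _ hh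
        (hasProjectiveDimensionLT_of_ge (ModuleCat.of Γ (Λ ⊗[k] Z'.syzN 0 →ₗ[Λ] G)) 1 _ le_rfl))
    | succ m => exact down m
  refine ⟨Γ, inferInstance, inferInstance, finHom G G, fun n => ⟨Z'.syzN n →ₗ[Λ] G, inferInstance,
    inferInstance, Module.Finite.of_restrictScalars_finite k Γ _, le_antisymm ?_ ?_⟩⟩
  · exact (projectiveDimension_le_iff _ n).2 (up n)
  · exact (projectiveDimension_ge_iff _ n).2 (down' n)

end

end Vale.Agent.P195
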