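import Vale.Agent.P195.ExtZ

/-! The periodicity class argument. -/

open CategoryTheory Abelian

namespace Vale.Agent.P195

noncomputable section

variable {R : Type} [Ring R]
variable {X Y Z W : Type} [AddCommGroup X] [Module R X] [AddCommGroup Y] [Module R Y]
  [AddCommGroup Z] [Module R Z] [AddCommGroup W] [Module R W]

/-- right multiplication by a class is bijective in degree `n`. -/
def PostBij {a : ℕ} (α : Ex R Z X a) (W : Type) [AddCommGroup W] [Module R W] (n : ℕ) : Prop :=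
  ∀ (m : ℕ) (h : n + a = m), Function.Bijective (fun z : Ex R W Z n => z.comp α h)

/-- left multiplication by a class is bijective in degree `n`. -/
def PreBij {a : ℕ} (α : Ex R Z X a) (W : Type) [AddCommGroup W] [Module R W] (n : ℕ) : Prop :=
  ∀ (m : ℕ) (h : a + n = m), Function.Bijective (fun x : Ex R X W n => α.comp x h)

/-- left multiplication by a class is surjective in degree `n`. -/
def PreSurj {a : ℕ} (α : Ex R Z X a) (W : Type) [AddCommGroup W] [Module R W] (n : ℕ) : Prop :=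
  ∀ (m : ℕ) (h : a + n = m), Function.Surjective (fun x : Ex R X W n => α.comp x h)

theorem PostBij.comp {a b c n : ℕ} {α : Ex R Z X a} {β : Ex R X Y b} (hc : a + b = c)
    (h1 : PostBij α W n) (h2 : PostBij β W (n + a)) : PostBij (α.comp β hc) W n := by
  intro m h
  have := (h2 m (by omega)).comp (h1 (n + a) rfl)
  convert this using 1
  funext z
  simp only [Function.comp]
  rw [Ext.comp_assoc]
  omega

theorem PreBij.comp {a b c n : ℕ} {α : Ex R Z X a} {β : Ex R X Y b} (hc : a + b = c)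
    (h1 : PreBij α W (b + n)) (h2 : PreBij β W n) : PreBij (α.comp β hc) W n := by
  intro m h
  have := (h1 m (by omega)).comp (h2 (b + n) rfl)
  convert this using 1
  funext z
  simp only [Function.comp]
  rw [Ext.comp_assoc]
  omega

theorem PreSurj.comp {a b c n : ℕ} {α : Ex R Z X a} {β : Ex R X Y b} (hc : a + b = c)
    (h1 : PreSurj α W (b + n)) (h2 : PreSurj β W n) : PreSurj (α.comp β hc) W n := by
  intro m h
  have := (h1 m (by omega)).comp (h2 (b + n) rfl)
  convert this using 1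
  funext z
  simp only [Function.comp]
  rw [Ext.comp_assoc]
  omega

theorem PreBij.surj {a n : ℕ} {α : Ex R Z X a} (h : PreBij α W n) : PreSurj α W n :=
  fun m hm => (h m hm).2

theorem post_inj_of {a n m : ℕ} (α : Ex R Z X a) (h : n + a = m)
    (h0 : ∀ z : Ex R W Z n, z.comp α h = 0 → z = 0) :
    Function.Injective (fun z : Ex R W Z n => z.comp α h) := by
  intro x y hxy
  rw [← sub_eq_zero]
  apply h0
  rw [sub_eq_add_neg, Ext.add_comp, Ext.neg_comp]
  simp only at hxy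
  rw [hxy, add_neg_cancel]

theorem pre_inj_of {a n m : ℕ} (α : Ex R Z X a) (h : a + n = m)
    (h0 : ∀ z : Ex R X W n, α.comp z h = 0 → z = 0) :
    Function.Injective (fun z : Ex R X W n => α.comp z h) := by
  intro x y hxy
  rw [← sub_eq_zero]
  apply h0
  rw [sub_eq_add_neg, Ext.comp_add, Ext.comp_neg]
  simp only at hxy
  rw [hxy, add_neg_cancel]

theorem SES.postBij {i : X →ₗ[R] Y} {p : Y →ₗ[R] Z} (h : SES i p) {n : ℕ}
    (h0 : ∀ y : Ex R W Y n, y.comp (m0 p) (add_zero n) = 0) (h1 : EZ R W Y (n + 1)) :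
    PostBij h.cls W n := by
  rintro m rfl
  refine ⟨post_inj_of _ _ fun z hz => ?_, fun x => h.co1 x (h1 _) rfl⟩
  obtain ⟨y, rfl⟩ := h.co3 z rfl hz
  exact h0 y

theorem SES.postBij' {i : X →ₗ[R] Y} {p : Y →ₗ[R] Z} (h : SES i p) {n : ℕ}
    (h0 : EZ R W Y n) (h1 : EZ R W Y (n + 1)) : PostBij h.cls W n :=
  h.postBij (fun y => by rw [h0 y, Ext.zero_comp]) h1

theorem SES.preBij {i : X →ₗ[R] Y} {p : Y →ₗ[R] Z} (h : SES i p) {n : ℕ}
    (h0 : EZ R Y W n) (h1 : EZ R Y W (n + 1)) : PreBij h.cls W n := by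
  intro m hm
  obtain rfl : m = n + 1 := by omega
  refine ⟨pre_inj_of _ _ fun z hz => ?_, fun x => h.contra3 x (h1 _) hm⟩
  obtain ⟨y, rfl⟩ := h.contra1 z hm hz
  rw [h0 y, Ext.comp_zero]

theorem SES.preSurj {i : X →ₗ[R] Y} {p : Y →ₗ[R] Z} (h : SES i p) {n : ℕ}
    (h1 : EZ R Y W (n + 1)) : PreSurj h.cls W n := by
  intro m hm
  obtain rfl : m = n + 1 := by omega
  exact fun x => h.contra3 x (h1 _) hm

theorem EZ.inj' [Module.Injective R Y] {n : ℕ} (hn : 1 ≤ n) : EZ R X Y n := by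
  obtain ⟨n, rfl⟩ : ∃ m, n = m + 1 := ⟨n - 1, by omega⟩
  exact EZ.of_inj n

theorem EZ.proj' [Module.Projective R X] {n : ℕ} (hn : 1 ≤ n) : EZ R X Y n := by
  obtain ⟨n, rfl⟩ : ∃ m, n = m + 1 := ⟨n - 1, by omega⟩
  exact EZ.of_proj n

/-- the algebraic heart: two sided multiplication by a class of degree five. -/
theorem preBij_of_postBij {k : Type} [Field k] [Algebra k R] [Module k X] [IsScalarTower k R X]
    {d : ℕ} (θ : Ex R X X (d + 1)) (hpost : ∀ n, PostBij θ X n)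
    (hz : ∀ n, 1 ≤ n → n ≤ d → EZ R X X n)
    (hend : ∀ u : X →ₗ[R] X, ∃ c : k, u = c • LinearMap.id) (n : ℕ) : PreBij θ X n := by
  induction n using Nat.strong_induction_on with
  | _ n ih =>
  intro m hm
  rcases Nat.lt_or_ge n (d + 1) with hn | hn
  · rcases Nat.eq_zero_or_pos n with rfl | hn0
    · obtain rfl : m = d + 1 := by omega
      have := hpost 0 (d + 1) (by omega)
      convert this using 1
      funext z
      obtain ⟨u, rfl⟩ := m0_surj z
      obtain ⟨c, rfl⟩ := hend u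
      rw [m0_smul, Ext.comp_smul, Ext.smul_comp, comp_m0_id, m0_id_comp]
    · have h1 := hz n hn0 (by omega)
      have h2 : EZ R X X m := by
        intro y
        obtain ⟨x, rfl⟩ := (hpost n m (by omega)).2 y
        simp only
        rw [h1 x, Ext.zero_comp]
      exact ⟨fun a b _ => by rw [h1 a, h1 b], fun y => ⟨0, by rw [h2 y]; exact h2 _⟩⟩
  · obtain ⟨n, rfl⟩ : ∃ n', n = n' + (d + 1) := ⟨n - (d + 1), by omega⟩
    have h1 := ih n (by omega) (n + (d + 1)) (by omega)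
    have h2 := hpost n (n + (d + 1)) rfl
    have h3 := hpost (n + (d + 1)) m (by omega)
    have h4 : (fun x : Ex R X X (n + (d + 1)) => θ.comp x hm) ∘
        (fun z : Ex R X X n => z.comp θ rfl) =
        (fun z : Ex R X X (n + (d + 1)) => z.comp θ (by omega : n + (d + 1) + (d + 1) = m)) ∘
        (fun x : Ex R X X n => θ.comp x (by omega : d + 1 + n = n + (d + 1))) := by
      funext z
      simp only [Function.comp]
      rw [Ext.comp_assoc]
      omega
    have h5 := h3.comp h1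
    rw [← h4] at h5
    exact (Function.Bijective.of_comp_iff _ h2).1 h5

section main

variable {k : Type} [Field k] [Algebra k R]
variable {s B1 B2 B3 B4 D J0 J1 J2 J3 : Type}
  [AddCommGroup s] [Module R s] [Module k s] [IsScalarTower k R s]
  [AddCommGroup B1] [Module R B1] [AddCommGroup B2] [Module R B2]
  [AddCommGroup B3] [Module R B3] [AddCommGroup B4] [Module R B4]
  [AddCommGroup D] [Module R D]
  [AddCommGroup J0] [Module R J0] [AddCommGroup J1] [Module R J1]
  [AddCommGroup J2] [Module R J2] [AddCommGroup J3] [Module R J3]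
  [Module.Projective R J0] [Module.Projective R J1] [Module.Projective R J2]
  [Module.Projective R J3]
  [Module.Injective R J0] [Module.Injective R J1] [Module.Injective R J2] [Module.Injective R J3]
  {i0 : s →ₗ[R] J0} {p0 : J0 →ₗ[R] B1} {i1 : B1 →ₗ[R] J1} {p1 : J1 →ₗ[R] B2}
  {i2 : B2 →ₗ[R] J2} {p2 : J2 →ₗ[R] B3} {i3 : B3 →ₗ[R] J3} {p3 : J3 →ₗ[R] B4}
  {j : B4 →ₗ[R] D} {q : D →ₗ[R] s}

theorem theta_low (h0 : SES i0 p0) (h1 : SES i1 p1) (h2 : SES i2 p2) (h3 : SES i3 p3)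
    (l1 : EZ R s s 1) (l2 : EZ R s B1 1) (l3 : EZ R s B2 1) (l4 : EZ R s B3 1) :
    ∀ n, 1 ≤ n → n ≤ 4 → EZ R s s n := by
  intro n hn1 hn4
  have a2 : EZ R s s 2 := EZ.right_sub h0 l2 (EZ.of_inj _)
  have a3 : EZ R s s 3 := EZ.right_sub h0 (EZ.right_sub h1 l3 (EZ.of_inj _)) (EZ.of_inj _)
  have a4 : EZ R s s 4 := EZ.right_sub h0 (EZ.right_sub h1 (EZ.right_sub h2 l4 (EZ.of_inj _))
    (EZ.of_inj _)) (EZ.of_inj _)
  have := h3
  interval_cases n
  · exact l1
  · exact a2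
  · exact a3
  · exact a4

theorem theta_main (h0 : SES i0 p0) (h1 : SES i1 p1) (h2 : SES i2 p2) (h3 : SES i3 p3)
    (hθ : SES j q) (ha : ∀ n, EZ R s D (n + 1)) (hb : ∀ u : s →ₗ[R] D, q ∘ₗ u = 0)
    (hlow : ∀ n, 1 ≤ n → n ≤ 4 → EZ R s s n)
    (hend : ∀ u : s →ₗ[R] s, ∃ c : k, u = c • LinearMap.id) :
    ∀ n, 4 ≤ n → EZ R D s n := by
  let c : Ex R B4 s 4 := h3.cls.comp (h2.cls.comp (h1.cls.comp h0.cls (c := 2) rfl) (c := 3) rfl) rfl
  have cpost : ∀ n, 1 ≤ n → PostBij c s n := fun n hn =>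
    PostBij.comp _ (h3.postBij' (EZ.inj' hn) (EZ.of_inj _))
      (PostBij.comp _ (h2.postBij' (EZ.of_inj _) (EZ.of_inj _))
        (PostBij.comp _ (h1.postBij' (EZ.of_inj _) (EZ.of_inj _))
          (h0.postBij' (EZ.of_inj _) (EZ.of_inj _))))
  have cpre : ∀ n, 1 ≤ n → PreBij c s n := fun n hn =>
    PreBij.comp _ (h3.preBij (EZ.proj' (by omega)) (EZ.of_proj _))
      (PreBij.comp _ (h2.preBij (EZ.proj' (by omega)) (EZ.of_proj _))
        (PreBij.comp _ (h1.preBij (EZ.proj' (by omega)) (EZ.of_proj _))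
          (h0.preBij (EZ.proj' hn) (EZ.of_proj _))))
  have csurj : ∀ n, PreSurj c s n := fun n =>
    PreSurj.comp _ (h3.preSurj (EZ.of_proj _))
      (PreSurj.comp _ (h2.preSurj (EZ.of_proj _))
        (PreSurj.comp _ (h1.preSurj (EZ.of_proj _)) (h0.preSurj (EZ.of_proj _))))
  have epost : ∀ n, PostBij hθ.cls s n := by
    intro n
    rcases Nat.eq_zero_or_pos n with rfl | hn
    · refine hθ.postBij (fun y => ?_) (ha _)
      obtain ⟨u, rfl⟩ := m0_surj y
      rw [m0_comp, hb u, m0_zero]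
    · obtain ⟨n, rfl⟩ : ∃ m, n = m + 1 := ⟨n - 1, by omega⟩
      exact hθ.postBij' (ha _) (ha _)
  let θ : Ex R s s (4 + 1) := hθ.cls.comp c rfl
  have tpost : ∀ n, PostBij θ s n := fun n => PostBij.comp _ (epost n) (cpost _ (by omega))
  have tpre := preBij_of_postBij θ tpost hlow hend
  have epre : ∀ n, 4 ≤ n → PreBij hθ.cls s n := by
    intro n hn m hm
    obtain ⟨n, rfl⟩ : ∃ n', n = 4 + n' := ⟨n - 4, by omega⟩
    have e1 := tpre n m (by omega)
    have e2 : (fun x : Ex R s s n => θ.comp x (by omega : 4 + 1 + n = m)) =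
        (fun x : Ex R B4 s (4 + n) => hθ.cls.comp x hm) ∘ (fun x : Ex R s s n => c.comp x rfl) := by
      funext x
      simp only [Function.comp, θ]
      rw [Ext.comp_assoc]
      omega
    rw [e2] at e1
    exact ⟨e1.1.of_comp_right (csurj n _ rfl), e1.2.of_comp⟩
  intro n hn y
  have e3 : (m0 j).comp y (zero_add n) = 0 := by
    apply (epre n hn (1 + n) rfl).1
    simp only
    rw [hθ.cls_comp_assoc, Ext.comp_zero]
  obtain ⟨z, rfl⟩ := hθ.contra2 y e3
  rcases Nat.eq_or_lt_of_le hn with rfl | hn'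
  · rw [hlow 4 (by omega) le_rfl z, Ext.comp_zero]
  · obtain ⟨n, rfl⟩ : ∃ n', n = 1 + n' := ⟨n - 1, by omega⟩
    obtain ⟨x, rfl⟩ := (epre n (by omega) (1 + n) rfl).2 z
    exact hθ.comp_cls_assoc x rfl

theorem theta_three (h0 : SES i0 p0) (h1 : SES i1 p1) (h2 : SES i2 p2) (h3 : SES i3 p3)
    (hθ : SES j q) (hlow : EZ R s s 3) (hJ : E1 k R J0 s 0) : E1 k R D s 3 := by
  have e1 : E1 k R B1 s 0 := by
    rw [E1.zero_iff] at hJ ⊢
    refine span1_inj (fun u : B1 →ₗ[R] s => u ∘ₗ p0) (fun c a => rfl) ?_ hJ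
    intro a b hab
    ext x
    obtain ⟨y, rfl⟩ := h0.surj x
    exact congrArg (fun g => g y) hab
  exact E1.left_mid hθ (E1.left_quot h3 (E1.left_quot h2 (E1.left_quot h1 e1 (EZ.of_proj _))
    (EZ.of_proj _)) (EZ.of_proj _)) hlow

theorem theta_two {O1 O2 P0 P1 : Type} [AddCommGroup O1] [Module R O1] [AddCommGroup O2]
    [Module R O2] [AddCommGroup P0] [Module R P0] [AddCommGroup P1] [Module R P1]
    [Module.Injective R P0] [Module.Injective R P1]
    {a0 : O1 →ₗ[R] P0} {b0 : P0 →ₗ[R] s} {a1 : O2 →ₗ[R] P1} {b1 : P1 →ₗ[R] O1}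
    (g0 : SES a0 b0) (g1 : SES a1 b1) (hP : EZ R s P1 0)
    (h0 : SES i0 p0) (h1 : SES i1 p1) (h2 : SES i2 p2) (h3 : SES i3 p3)
    (hθ : SES j q) (hlow : EZ R s s 2) : EZ R D s 2 := by
  have e0 : EZ R s O2 0 := by
    rw [EZ.zero_iff] at hP ⊢
    intro u
    ext x
    apply g1.inj
    rw [LinearMap.zero_apply, map_zero]
    exact congrArg (fun g => g x) (hP (a1 ∘ₗ u))
  have e1 : EZ R B4 O2 4 := EZ.left_quot h3 (EZ.left_quot h2 (EZ.left_quot h1
    (EZ.left_quot h0 e0 (EZ.of_proj _)) (EZ.of_proj _)) (EZ.of_proj _)) (EZ.of_proj _)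
  exact EZ.left_mid hθ (EZ.right_quot g0 (EZ.of_inj _) (EZ.right_quot g1 (EZ.of_inj _) e1)) hlow

end main

end

end Vale.Agent.P195
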