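import Vale.Agent.P195.Glue2
import Vale.Agent.P195.Theta

/-! The functors attached to the towers. -/

open TensorProduct

namespace Vale.Agent.P195

noncomputable section

variable {k : Type} [Field k] {S : Type} [Ring S] [Algebra k S]

theorem proj_of_ses_sub {A B C : Type} [AddCommGroup A] [Module S A] [AddCommGroup B] [Module S B]
    [AddCommGroup C] [Module S C] {i : A →ₗ[S] B} {p : B →ₗ[S] C} (h : SES i p)
    [Module.Projective S B] [Module.Projective S C] : Module.Projective S A :=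
  proj_of_EZ fun _ _ _ => EZ.left_sub h (EZ.of_proj _) (EZ.of_proj _)

theorem proj_of_ses_mid {A B C : Type} [AddCommGroup A] [Module S A] [AddCommGroup B] [Module S B]
    [AddCommGroup C] [Module S C] {i : A →ₗ[S] B} {p : B →ₗ[S] C} (h : SES i p)
    [Module.Projective S A] [Module.Projective S C] : Module.Projective S B :=
  proj_of_EZ fun _ _ _ => EZ.left_mid h (EZ.of_proj _) (EZ.of_proj _)

theorem E1.right_equiv {X Y W : Type} [AddCommGroup X] [Module S X] [AddCommGroup Y] [Module S Y]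
    [AddCommGroup W] [Module S W] (e : X ≃ₗ[S] Y) {n : ℕ} (h : E1 k S W Y n) : E1 k S W X n := by
  refine span1_surj (fun z => z.comp (m0 e.symm.toLinearMap) (add_zero n))
    (fun _ _ => CategoryTheory.Abelian.Ext.smul_comp _ _ _ _)
    (fun y => ⟨y.comp (m0 e.toLinearMap) (add_zero n), ?_⟩) h
  simp only
  rw [comp_m0_assoc]
  have : e.symm.toLinearMap ∘ₗ e.toLinearMap = LinearMap.id := by ext; simp
  rw [this, comp_m0_id]

theorem res_proj {φ ψ : S →ₐ[k] S} (h1 : ∀ a, φ (ψ a) = a) (h2 : ∀ a, ψ (φ a) = a)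
    (P : KMod k S) [Module.Projective S P] : Module.Projective S (P.res φ) := by
  obtain ⟨r, e, c, hc⟩ := exists_dualBasis k S P
  let c' : Fin r → P.res φ →ₗ[S] S := fun i =>
    { toFun := fun p => ψ (c i ((P.toRes φ).symm p))
      map_add' := fun a b => by simp
      map_smul' := fun a p => by simp [KMod.toRes_symm_smul, h2] }
  refine proj_of_sum c' (fun i => LinearMap.toSpanSingleton S _ (P.toRes φ (e i))) fun p => ?_
  obtain ⟨p, rfl⟩ := (P.toRes φ).surjective p
  simp [c', KMod.smul_toRes, h1, ← map_sum, hc]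

theorem PF.twist {φ ψ : S →ₐ[k] S} (h1 : ∀ a, φ (ψ a) = a) (h2 : ∀ a, ψ (φ a) = a)
    {X X' : Type} [AddCommGroup X] [Module S X] [AddCommGroup X'] [Module S X'] {Y : KMod k S}
    {u : X →ₗ[S] Y.res φ} (hu : u ∈ PF k S _ _) (e : X' →+ X) (he : ∀ a x, e (a • x) = ψ a • e x)
    (v : X' →ₗ[S] Y) (hv : ∀ x, Y.toRes φ (v x) = u (e x)) : v ∈ PF k S _ _ := by
  obtain ⟨P, hP, a, b, rfl⟩ := hu
  have := res_proj h2 h1 P
  let a' : X' →ₗ[S] P.res ψ :=
    { toFun := fun x => P.toRes ψ (a (e x))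
      map_add' := fun x y => by simp
      map_smul' := fun c x => by simp [he, KMod.smul_toRes] }
  let b' : P.res ψ →ₗ[S] Y :=
    { toFun := fun p => (Y.toRes φ).symm (b ((P.toRes ψ).symm p))
      map_add' := fun x y => by simp
      map_smul' := fun c x => by simp [KMod.toRes_symm_smul, h1] }
  exact PF.of_factor' a' b' fun x => (Y.toRes φ).injective (hv x)

variable [FiniteDimensional k S]

/-- twisting a functor. -/
def KFun.twist (F : KFun k S) (φ : S →ₐ[k] S) : KFun k S where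
  obj X := (F.obj X).res φ
  map {X Y} :=
    { toFun := fun u => KMod.resMap φ (F.map u)
      map_add' := fun u v => by rw [map_add]; rfl
      map_smul' := fun c u => by rw [map_smul]; rfl }
  map_id X x := F.map_id X x
  map_comp u v x := F.map_comp u v x

theorem EZ.fun_syzN {F : KFun k S} (hF : F.Exact) (hP : F.PP) {X : KMod k S} {W : Type}
    [AddCommGroup W] [Module S W] {n : ℕ} (m : ℕ) (h : EZ S (F.obj X) W (n + 1 + m)) :
    EZ S (F.obj (X.syzN m)) W (n + 1) := by
  induction m generalizing n with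
  | zero => exact h
  | succ m ih =>
    have := hP (X.syzN m).free inferInstance
    rw [show n + 1 + (m + 1) = n + 1 + 1 + m by omega] at h
    exact EZ.left_sub (hF (X.fsesN m)) (EZ.of_proj _) (ih h)

variable {R : Type} [Ring R] [Algebra k R] [FiniteDimensional k R]

/-- the cocycle functor. -/
def DF (ι : R →ₐ[k] S) (j : ℕ) : KFun k S where
  obj X := KMod.of k S (D ι ι X j)
  map := Dmap ι ι j
  map_id _ _ := rfl
  map_comp _ _ _ := rfl

/-- the coinduced functor. -/
def JF (ι : R →ₐ[k] S) (j : ℕ) : KFun k S where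
  obj X := KMod.of k S (J ι j X)
  map {_ _} :=
    { toFun := fun u => HomR.post _ (u.restrictScalars k)
      map_add' := fun _ _ => rfl
      map_smul' := fun _ _ => rfl }
  map_id _ _ := rfl
  map_comp _ _ _ := rfl

theorem DF_exact (ι : R →ₐ[k] S) (j : ℕ) [Module.Projective R (K ι j)] : (DF ι j).Exact :=
  fun _ _ _ _ _ h => Dmap_ses h (Dmap_surj _ h.surj)

theorem JF_exact (ι : R →ₐ[k] S) (j : ℕ) : (JF ι j).Exact := fun _ _ _ _ _ h => post_ses _ h

theorem DF_pp (ι : R →ₐ[k] S) (j : ℕ) [Module.Projective S (D ι ι S j)] : (DF ι j).PP := by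
  intro P hP
  obtain ⟨r, e, c, hc⟩ := exists_dualBasis k S P
  refine proj_of_sum (U := D ι ι P j) (fun i => Dmap ι ι j (c i))
    (fun i => Dmap ι ι j (LinearMap.toSpanSingleton S P (e i))) fun u => D.ext fun y => ?_
  simp only [AddSubmonoidClass.coe_finsetSum, map_sum, LinearMap.coe_sum, Finset.sum_apply]
  exact hc (u.1 y)

section finInj

/-- modules with a finite injective coresolution. -/
def FinInj (X : KMod k R) : Prop :=
  ∀ P : KMod k R → Prop, (∀ Y : KMod k R, Module.Injective R Y → P Y) →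
    (∀ (A B C : KMod k R) (i : A →ₗ[R] B) (p : B →ₗ[R] C), SES i p → P B → P C → P A) →
    (∀ (A B C : KMod k R) (i : A →ₗ[R] B) (p : B →ₗ[R] C), SES i p → P A → P C → P B) → P X

omit [FiniteDimensional k R] in
theorem FinInj.inj (X : KMod k R) [h : Module.Injective R X] : FinInj X := fun _ h1 _ _ => h1 X h

omit [FiniteDimensional k R] in
theorem FinInj.sub {A B C : KMod k R} {i : A →ₗ[R] B} {p : B →ₗ[R] C} (h : SES i p)
    (hB : FinInj B) (hC : FinInj C) : FinInj A :=
  fun P h1 h2 h3 => h2 A B C i p h (hB P h1 h2 h3) (hC P h1 h2 h3)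

omit [FiniteDimensional k R] in
theorem FinInj.mid {A B C : KMod k R} {i : A →ₗ[R] B} {p : B →ₗ[R] C} (h : SES i p)
    (hA : FinInj A) (hC : FinInj C) : FinInj B :=
  fun P h1 h2 h3 => h3 A B C i p h (hA P h1 h2 h3) (hC P h1 h2 h3)

theorem D_coInd_semi (ι : R →ₐ[k] S) (j : ℕ) (V : Type) [AddCommGroup V] [Module k V]
    (u : J ι j V) : IsSemi (AlgHom.id k R)
      ((HomR.post (RAct.rmul k R) (HomR.lin _ u)).restrictScalars k ∘ₗ
        (toCoInd k R (K ι j)).restrictScalars k) := fun b y => by simp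

theorem D_coInd_inj (ι : R →ₐ[k] S) (j : ℕ) (V : Type) [AddCommGroup V] [Module k V] :
    Module.Injective S (D ι (AlgHom.id k R) (CoInd k R V) j) := by
  let ev : CoInd k R V →ₗ[k] V := LinearMap.applyₗ (1 : R) ∘ₗ (HomR.lin _).toLinearMap
  let b : J ι j V →ₗ[S] D ι (AlgHom.id k R) (CoInd k R V) j :=
    { toFun := fun u => D.mk _ (D_coInd_semi ι j V u)
      map_add' := fun u v => D.ext fun y => by ext; simp
      map_smul' := fun a u => D.ext fun y => by ext; simp [rK_smul] }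
  refine inj_of_retract (HomR.post _ ev ∘ₗ Submodule.subtype _) b fun u => D.ext fun y => ?_
  ext c
  simp [b, ev, D.semi u c y]

theorem FinInj.proj [SelfInj k S] (ι : R →ₐ[k] S) (j : ℕ) [Module.Projective R (K ι j)]
    {X : KMod k R} (h : FinInj X) : Module.Projective S (D ι (AlgHom.id k R) X j) := by
  refine h (fun X => Module.Projective S (D ι (AlgHom.id k R) X j)) ?_ ?_ ?_
  · intro Y hY
    obtain ⟨v, hv⟩ := hY.out (toCoInd k R Y) toCoInd_inj LinearMap.id
    have := D_coInd_inj ι j Y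
    have : Module.Injective S (D ι (AlgHom.id k R) Y j) :=
      inj_of_retract (Dmap ι _ j (toCoInd k R Y)) (Dmap ι _ j v) fun u => D.ext fun y => by
        simp [hv]
    exact SelfInj.proj_of_inj (k := k) _
  · intro A B C i p h hB hC
    exact proj_of_ses_sub (Dmap_ses h (Dmap_surj _ h.surj))
  · intro A B C i p h hB hC
    exact proj_of_ses_mid (Dmap_ses h (Dmap_surj _ h.surj))

theorem FinInj.pp [SelfInj k S] (ι : R →ₐ[k] S) (j : ℕ) [Module.Projective R (K ι j)]
    (h : FinInj (K0 ι)) : (DF ι j).PP := by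
  have : Module.Projective S (D ι ι S j) := h.proj ι j
  exact DF_pp ι j

end finInj

section psi

instance K_id_proj (j : ℕ) : Module.Projective S (K (AlgHom.id k S) j) := by
  induction j with
  | zero => exact inferInstanceAs (Module.Projective S S)
  | succ j ih => exact proj_of_ses_sub ((K0 (AlgHom.id k S)).sesN j)

instance : Module.Projective S (K0 (AlgHom.id k S)) := inferInstanceAs (Module.Projective S S)

/-- the cosyzygy modules. -/
abbrev Ψ (k S : Type) [Field k] [Ring S] [Algebra k S] [FiniteDimensional k S]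
    (X : Type) [AddCommGroup X] [Module k X] [Module S X] [IsScalarTower k S X] (j : ℕ) :
    Type := D (AlgHom.id k S) (AlgHom.id k S) X j

variable {X Y : Type} [AddCommGroup X] [Module k X] [Module S X] [IsScalarTower k S X]
  [AddCommGroup Y] [Module k Y] [Module S Y] [IsScalarTower k S Y]

theorem Ψ_ses (j : ℕ) : SES (D (AlgHom.id k S) (AlgHom.id k S) X j).subtype
    (δ (AlgHom.id k S) (AlgHom.id k S) X j) :=
  δ_ses (ExtProp.of_EZ_id (EZ.of_proj _))

/-- the embedding in degree zero. -/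
def i0 (ι : R →ₐ[k] S) (X : Type) [AddCommGroup X] [Module k X] [Module S X]
    [IsScalarTower k S X] : X →ₗ[S] J ι 0 X := toCoInd k S X

theorem i0_apply (ι : R →ₐ[k] S) (x : X) (a : S) : i0 ι X x (toK ι a) = a • x := rfl

theorem i0_ses (ι : R →ₐ[k] S) (h : ExtProp ι (K0 ι) X 0)
    (h0 : ∀ u : D ι ι X 0, ∀ a, u.1 (toK ι a) = a • u.1 (toK ι 1)) :
    SES (i0 ι X) (δ ι ι X 0) := by
  refine SES.mk' toCoInd_inj (δ_surj h) (fun x => ?_) (fun u hu => ?_)
  · refine δ_D ⟨i0 ι X x, fun b y => ?_⟩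
    obtain ⟨a, rfl⟩ := (toK ι).surjective y
    rw [smul_toK, i0_apply, i0_apply, mul_smul]
  · obtain ⟨u, rfl⟩ := (δ_exact 0 u).1 hu
    refine ⟨u.1 (toK ι 1), HomR.ext fun y => ?_⟩
    obtain ⟨a, rfl⟩ := (toK ι).surjective y
    rw [i0_apply]
    exact (h0 u a).symm

theorem Ψ_i0_ses : SES (i0 (AlgHom.id k S) X) (δ (AlgHom.id k S) (AlgHom.id k S) X 0) :=
  i0_ses _ (ExtProp.of_EZ_id (EZ.of_proj _)) fun u a => by
    have := D.semi u a (toK _ 1)
    rw [smul_toK] at this
    simpa using this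

variable [SelfInj k S] [FiniteDimensional k X] [FiniteDimensional k Y]

theorem Ψ_proj [Module.Projective S X] (j : ℕ) : Module.Projective S (Ψ k S X (j + 1)) := by
  induction j with
  | zero =>
    have : Module.Injective S X := SelfInj.inj_of_proj (k := k) _
    exact proj_of_ses Ψ_i0_ses
  | succ j ih =>
    have : Module.Injective S (Ψ k S X (j + 1)) := SelfInj.inj_of_proj (k := k) _
    exact proj_of_ses (Ψ_ses (j + 1))

theorem Ψ_faith (j : ℕ) (u : X →ₗ[S] Y) (hu : Dmap _ (AlgHom.id k S) (j + 1) u ∈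
    PF k S (Ψ k S X (j + 1)) (Ψ k S Y (j + 1))) : u ∈ PF k S X Y := by
  induction j with
  | zero =>
    refine ladder_down Ψ_i0_ses Ψ_i0_ses (uP := HomR.post _ (u.restrictScalars k)) ?_
      (δ_post 0 u) hu
    intro x
    refine HomR.ext fun y => ?_
    obtain ⟨a, rfl⟩ := (toK _).surjective y
    simp [i0_apply]
  | succ j ih =>
    exact ih (ladder_down (Ψ_ses _) (Ψ_ses _) (uP := HomR.post _ (u.restrictScalars k))
      (fun _ => rfl) (δ_post _ u) hu)

theorem Ψ_full (j : ℕ) (w : Ψ k S X (j + 1) →ₗ[S] Ψ k S Y (j + 1)) :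
    ∃ u : X →ₗ[S] Y, w - Dmap _ (AlgHom.id k S) (j + 1) u ∈ PF k S _ _ := by
  induction j with
  | zero =>
    obtain ⟨u, wP, e1, e0⟩ := exists_down Ψ_i0_ses Ψ_i0_ses w
    refine ⟨u, ladder_up Ψ_i0_ses Ψ_i0_ses (u1 := 0)
      (uP := wP - HomR.post _ (u.restrictScalars k)) ?_ ?_ (zero_mem _)⟩
    · intro x
      rw [LinearMap.sub_apply, ← e1]
      refine HomR.ext fun y => ?_
      obtain ⟨a, rfl⟩ := (toK _).surjective y
      simp [i0_apply]
    · intro y
      simp [e0, δ_post]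
  | succ j ih =>
    obtain ⟨w1, wP, e1, e0⟩ := exists_down (Ψ_ses _) (Ψ_ses _) w
    obtain ⟨u, hu⟩ := ih w1
    refine ⟨u, ladder_up (Ψ_ses _) (Ψ_ses _)
      (uP := wP - HomR.post _ (u.restrictScalars k)) ?_ ?_ hu⟩
    · intro x
      rw [LinearMap.sub_apply, LinearMap.sub_apply, ← e1, map_sub]
      rfl
    · intro y
      simp [e0, δ_post]

variable {A : Type} [AddCommGroup A] [Module S A]

theorem Ψ_EZ (h : EZ S A X 3) (u : A →ₗ[S] Ψ k S X 3) : u ∈ PF k S _ _ :=
  PF.of_EZ (Ψ_ses 2) (EZ.right_quot (Ψ_ses 1) (EZ.of_inj _)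
    (EZ.right_quot Ψ_i0_ses (EZ.of_inj _) h)) u

theorem Ψ_E1 (h : E1 k S A X 3) {γ : A →ₗ[S] Ψ k S X 3} (hγ : γ ∉ PF k S _ _)
    (u : A →ₗ[S] Ψ k S X 3) : ∃ c : k, u - c • γ ∈ PF k S _ _ :=
  PF.of_E1 (Ψ_ses 2) (E1.right_quot (Ψ_ses 1) (EZ.of_inj _)
    (E1.right_quot Ψ_i0_ses (EZ.of_inj _) h)) hγ u

end psi

end

end Vale.Agent.P195
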