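import Vale.Agent.P195.Stable

/-! Triangular algebras attached to an exact functor. -/

open TensorProduct

namespace Vale.Agent.P195

noncomputable section

variable {k : Type} [Field k] {S : Type} [Ring S] [Algebra k S]

theorem exists_dualBasis (k : Type) [Field k] (S : Type) [Ring S] [Algebra k S] (P : Type)
    [AddCommGroup P] [Module k P] [Module S P] [IsScalarTower k S P] [FiniteDimensional k P]
    [Module.Projective S P] : ∃ (r : ℕ) (e : Fin r → P) (c : Fin r → P →ₗ[S] S),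
      ∀ p, ∑ i, c i p • e i = p := by
  let β := Module.finBasis k P
  have hs : Function.Surjective (Fintype.linearCombination S β) := by
    intro x
    refine ⟨fun i => algebraMap k S (β.repr x i), ?_⟩
    simp [Fintype.linearCombination_apply]
  obtain ⟨s, hs⟩ := Module.projective_lifting_property _ LinearMap.id hs
  refine ⟨_, β, fun i => LinearMap.proj i ∘ₗ s, fun p => ?_⟩
  simpa [Fintype.linearCombination_apply] using congrArg (fun f => f p) hs

theorem proj_of_sum {R : Type} [Ring R] {U W : Type} [AddCommGroup U] [Module R U] [AddCommGroup W]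
    [Module R W] [Module.Projective R W] {I : Type} [Fintype I] (c : I → U →ₗ[R] W)
    (b : I → W →ₗ[R] U) (h : ∀ u, ∑ i, b i (c i u) = u) : Module.Projective R U := by
  classical
  have : Module.Projective R (I → W) := by
    obtain ⟨s, hs⟩ := Module.projective_def'.1 (inferInstance : Module.Projective R W)
    exact proj_of_retract (Q' := I → (W →₀ R)) (s.compLeft I)
      ((Finsupp.linearCombination R id).compLeft I)
      (fun x => funext fun i => congrArg (fun f => f (x i)) hs)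
  refine proj_of_retract (LinearMap.pi c) (∑ i, b i ∘ₗ LinearMap.proj i) fun u => ?_
  simpa using h u

variable [FiniteDimensional k S]

/-- the regular module. -/
def KMod.reg (k S : Type) [Field k] [Ring S] [Algebra k S] [FiniteDimensional k S] :
    KMod k S := KMod.of k S S

/-- the identification with the regular module. -/
def KMod.toReg (k S : Type) [Field k] [Ring S] [Algebra k S] [FiniteDimensional k S] :
    S ≃ₗ[S] KMod.reg k S := LinearEquiv.refl S S

instance : Module.Projective S (KMod.reg k S) := inferInstanceAs (Module.Projective S S)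

/-- the free module on a module. -/
def KMod.free (X : KMod k S) : KMod k S := KMod.of k S (S ⊗[k] X)

instance (X : KMod k S) : Module.Projective S X.free :=
  inferInstanceAs (Module.Projective S (S ⊗[k] X))

/-- typed inclusion. -/
def KMod.fi (X : KMod k S) : X.syz →ₗ[S] X.free := X.incl

/-- typed cover. -/
def KMod.fp (X : KMod k S) : X.free →ₗ[S] X := act k S X

theorem KMod.fses (X : KMod k S) : SES X.fi X.fp := X.ses

/-- A linear endofunctor of finite dimensional modules. -/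
structure KFun (k S : Type) [Field k] [Ring S] [Algebra k S] where
  obj : KMod k S → KMod k S
  map : {X Y : KMod k S} → (X →ₗ[S] Y) →ₗ[k] (obj X →ₗ[S] obj Y)
  map_id : ∀ (X : KMod k S) (x : obj X), map LinearMap.id x = x
  map_comp : ∀ {X Y Z : KMod k S} (u : X →ₗ[S] Y) (v : Y →ₗ[S] Z) (x : obj X),
    map (v ∘ₗ u) x = map v (map u x)

/-- exactness. -/
def KFun.Exact (Φ : KFun k S) : Prop :=
  ∀ ⦃X Y Z : KMod k S⦄ ⦃i : X →ₗ[S] Y⦄ ⦃p : Y →ₗ[S] Z⦄, SES i p → SES (Φ.map i) (Φ.map p)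

/-- the map from the regular module sending one to a given element. -/
def tosp {X : KMod k S} (x : X) : KMod.reg k S →ₗ[S] X :=
  LinearMap.toSpanSingleton S X x ∘ₗ (KMod.toReg k S).symm.toLinearMap

@[simp] theorem tosp_apply {X : KMod k S} (x : X) (a : KMod.reg k S) :
    tosp x a = (KMod.toReg k S).symm a • x := rfl

theorem smul_toReg (a b : S) : a • KMod.toReg k S b = KMod.toReg k S (a * b) := rfl

@[simp] theorem toReg_smul_one (a : KMod.reg k S) :
    (KMod.toReg k S).symm a • KMod.toReg k S 1 = a := by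
  rw [smul_toReg, mul_one, LinearEquiv.apply_symm_apply]

namespace KFun

variable (Φ : KFun k S)

/-- the bimodule. -/
abbrev N : KMod k S := Φ.obj (KMod.reg k S)

/-- the canonical pairing. -/
def star {X : KMod k S} (n : Φ.N) (x : X) : Φ.obj X := Φ.map (tosp x) n

variable {X Y : KMod k S}

theorem star_add_left (n n' : Φ.N) (x : X) : Φ.star (n + n') x = Φ.star n x + Φ.star n' x :=
  map_add _ _ _

theorem star_add_right (n : Φ.N) (x y : X) : Φ.star n (x + y) = Φ.star n x + Φ.star n y := by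
  have : tosp (x + y) = tosp x + tosp y := LinearMap.ext fun a => by simp
  simp [star, this]

@[simp] theorem star_zero_left (x : X) : Φ.star 0 x = 0 := map_zero _

@[simp] theorem star_zero_right (n : Φ.N) : Φ.star n (0 : X) = 0 := by
  have : tosp (0 : X) = 0 := LinearMap.ext fun a => by simp
  simp [star, this]

theorem star_smul_left (b : S) (n : Φ.N) (x : X) : Φ.star (b • n) x = b • Φ.star n x :=
  map_smul _ _ _

theorem star_ksmul_left (c : k) (n : Φ.N) (x : X) : Φ.star (c • n) x = c • Φ.star n x :=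
  LinearMap.map_smul_of_tower _ _ _

theorem star_ksmul_right (c : k) (n : Φ.N) (x : X) : Φ.star n (c • x) = c • Φ.star n x := by
  have : tosp (c • x) = c • tosp x := LinearMap.ext fun a => by simp [smul_comm c]
  simp [star, this]

theorem map_star (u : X →ₗ[S] Y) (n : Φ.N) (x : X) : Φ.map u (Φ.star n x) = Φ.star n (u x) := by
  have : u ∘ₗ tosp x = tosp (u x) := LinearMap.ext fun a => by simp
  rw [star, ← Φ.map_comp, this, star]

theorem star_star (n : Φ.N) (a : S) (x : X) :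
    Φ.star (Φ.star n (KMod.toReg k S a)) x = Φ.star n (a • x) := Φ.map_star (tosp x) n _

@[simp] theorem star_one (n : Φ.N) : Φ.star n (KMod.toReg k S 1) = n := by
  have : tosp (KMod.toReg k S 1) = LinearMap.id := LinearMap.ext fun a => by simp
  rw [star, this, Φ.map_id]

variable {Φ}

theorem Exact.surj (h : Φ.Exact) (p : X →ₗ[S] Y) (hp : Function.Surjective p) :
    Function.Surjective (Φ.map p) :=
  (h (X := KMod.of k S (LinearMap.ker p)) (SES.ker p hp)).surj

theorem Exact.star_span (h : Φ.Exact) (y : Φ.obj X) :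
    ∃ (r : ℕ) (n : Fin r → Φ.N) (x : Fin r → X), y = ∑ i, Φ.star (n i) (x i) := by
  let β := Module.finBasis k X
  let F : KMod k S := KMod.of k S (Fin (Module.finrank k X) → S)
  let pr : Fin (Module.finrank k X) → F →ₗ[S] KMod.reg k S := fun i =>
    (KMod.toReg k S).toLinearMap ∘ₗ LinearMap.proj i
  let p : F →ₗ[S] X := ∑ i, tosp (β i) ∘ₗ pr i
  have hp : Function.Surjective p := by
    intro x
    refine ⟨fun i => algebraMap k S (β.repr x i), ?_⟩
    simp only [p, pr, LinearMap.coe_sum, Finset.sum_apply]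
    change ∑ i, algebraMap k S (β.repr x i) • β i = x
    simp
  obtain ⟨w, rfl⟩ := h.surj p hp y
  refine ⟨_, fun i => Φ.map (pr i) w, β, ?_⟩
  simp only [p, map_sum, LinearMap.coe_sum, Finset.sum_apply, Φ.map_comp, star]

end KFun

/-- the triangular algebra. -/
def Lam (Φ : KFun k S) : Type := S × Φ.N × S

namespace Lam

variable {Φ : KFun k S}

instance : AddCommGroup (Lam Φ) := inferInstanceAs (AddCommGroup (S × Φ.N × S))
instance : Module k (Lam Φ) := inferInstanceAs (Module k (S × Φ.N × S))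
instance : FiniteDimensional k (Lam Φ) := inferInstanceAs (FiniteDimensional k (S × Φ.N × S))

/-- constructor. -/
def mk (a : S) (n : Φ.N) (b : S) : Lam Φ := (a, n, b)
/-- first diagonal entry. -/
def a (l : Lam Φ) : S := l.1
/-- off diagonal entry. -/
def n (l : Lam Φ) : Φ.N := l.2.1
/-- second diagonal entry. -/
def b (l : Lam Φ) : S := l.2.2

@[simp] theorem mk_a (a : S) (n : Φ.N) (b : S) : (mk a n b).a = a := rfl
@[simp] theorem mk_n (a : S) (n : Φ.N) (b : S) : (mk a n b).n = n := rfl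
@[simp] theorem mk_b (a : S) (n : Φ.N) (b : S) : (mk a n b).b = b := rfl

@[ext] theorem ext {l l' : Lam Φ} (h1 : l.a = l'.a) (h2 : l.n = l'.n) (h3 : l.b = l'.b) : l = l' :=
  Prod.ext h1 (Prod.ext h2 h3)

@[simp] theorem add_a (l l' : Lam Φ) : (l + l').a = l.a + l'.a := rfl
@[simp] theorem add_n (l l' : Lam Φ) : (l + l').n = l.n + l'.n := rfl
@[simp] theorem add_b (l l' : Lam Φ) : (l + l').b = l.b + l'.b := rfl
@[simp] theorem zero_a : (0 : Lam Φ).a = 0 := rfl
@[simp] theorem zero_n : (0 : Lam Φ).n = 0 := rfl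
@[simp] theorem zero_b : (0 : Lam Φ).b = 0 := rfl
@[simp] theorem smul_a (c : k) (l : Lam Φ) : (c • l).a = c • l.a := rfl
@[simp] theorem smul_n (c : k) (l : Lam Φ) : (c • l).n = c • l.n := rfl
@[simp] theorem smul_b (c : k) (l : Lam Φ) : (c • l).b = c • l.b := rfl

instance : Mul (Lam Φ) :=
  ⟨fun l l' => mk (l.a * l'.a) (Φ.star l.n (KMod.toReg k S l'.a) + l.b • l'.n) (l.b * l'.b)⟩
instance : One (Lam Φ) := ⟨mk 1 0 1⟩

@[simp] theorem mul_a (l l' : Lam Φ) : (l * l').a = l.a * l'.a := rfl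
@[simp] theorem mul_n (l l' : Lam Φ) :
    (l * l').n = Φ.star l.n (KMod.toReg k S l'.a) + l.b • l'.n := rfl
@[simp] theorem mul_b (l l' : Lam Φ) : (l * l').b = l.b * l'.b := rfl
@[simp] theorem one_a : (1 : Lam Φ).a = 1 := rfl
@[simp] theorem one_n : (1 : Lam Φ).n = 0 := rfl
@[simp] theorem one_b : (1 : Lam Φ).b = 1 := rfl

instance : Ring (Lam Φ) :=
  { (inferInstance : AddCommGroup (Lam Φ)), (inferInstance : Mul (Lam Φ)),
    (inferInstance : One (Lam Φ)) with
    mul_assoc := fun x y z => by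
      ext
      · simp [mul_assoc]
      · simp [Φ.star_add_left, Φ.star_star, Φ.star_smul_left, mul_smul, add_assoc, smul_toReg]
      · simp [mul_assoc]
    one_mul := fun x => by ext <;> simp
    mul_one := fun x => by ext <;> simp
    zero_mul := fun x => by ext <;> simp
    mul_zero := fun x => by ext <;> simp
    left_distrib := fun x y z => by
      ext
      · simp [mul_add]
      · simp only [mul_n, add_a, add_n, map_add, Φ.star_add_right, smul_add]; abel
      · simp [mul_add]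
    right_distrib := fun x y z => by
      ext
      · simp [add_mul]
      · simp only [mul_n, add_b, add_n, Φ.star_add_left, add_smul]; abel
      · simp [add_mul] }

instance : Algebra k (Lam Φ) := Algebra.ofModule
  (fun c x y => by
    ext
    · simp
    · simp [Φ.star_ksmul_left]
    · simp)
  (fun c x y => by
    ext
    · simp
    · have : KMod.toReg k S (c • y.a) = c • KMod.toReg k S y.a := rfl
      simp only [mul_n, smul_a, smul_n, this, Φ.star_ksmul_right, smul_add, smul_comm c]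
    · simp)

end Lam

/-- modules over the triangular algebra. -/
def Tri {Φ : KFun k S} {X : KMod k S} {X' : Type} [AddCommGroup X'] [Module S X']
    (_φ : Φ.obj X →ₗ[S] X') : Type := X × X'

namespace Tri

variable {Φ : KFun k S} {X Y : KMod k S} {X' Y' : Type} [AddCommGroup X'] [Module S X']
  [AddCommGroup Y'] [Module S Y'] {φ : Φ.obj X →ₗ[S] X'} {ψ : Φ.obj Y →ₗ[S] Y'}

instance : AddCommGroup (Tri φ) := inferInstanceAs (AddCommGroup (X × X'))
instance [Module k X'] : Module k (Tri φ) := inferInstanceAs (Module k (X × X'))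
instance [Module k X'] [FiniteDimensional k X'] : FiniteDimensional k (Tri φ) :=
  inferInstanceAs (FiniteDimensional k (X × X'))

/-- constructor. -/
def mk (φ : Φ.obj X →ₗ[S] X') (x : X) (x' : X') : Tri φ := (x, x')
/-- first component. -/
def x (z : Tri φ) : X := z.1
/-- second component. -/
def y (z : Tri φ) : X' := z.2

@[simp] theorem mk_x (x : X) (x' : X') : (mk φ x x').x = x := rfl
@[simp] theorem mk_y (x : X) (x' : X') : (mk φ x x').y = x' := rfl
@[ext] theorem ext {z z' : Tri φ} (h1 : z.x = z'.x) (h2 : z.y = z'.y) : z = z' := Prod.ext h1 h2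
@[simp] theorem add_x (z z' : Tri φ) : (z + z').x = z.x + z'.x := rfl
@[simp] theorem add_y (z z' : Tri φ) : (z + z').y = z.y + z'.y := rfl
@[simp] theorem zero_x : (0 : Tri φ).x = 0 := rfl
@[simp] theorem zero_y : (0 : Tri φ).y = 0 := rfl
@[simp] theorem ksmul_x [Module k X'] (c : k) (z : Tri φ) : (c • z).x = c • z.x := rfl
@[simp] theorem ksmul_y [Module k X'] (c : k) (z : Tri φ) : (c • z).y = c • z.y := rfl

theorem sum_x {I : Type} (s : Finset I) (f : I → Tri φ) : (∑ i ∈ s, f i).x = ∑ i ∈ s, (f i).x :=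
  Prod.fst_sum
theorem sum_y {I : Type} (s : Finset I) (f : I → Tri φ) : (∑ i ∈ s, f i).y = ∑ i ∈ s, (f i).y :=
  Prod.snd_sum

instance : SMul (Lam Φ) (Tri φ) :=
  ⟨fun l z => mk φ (l.a • z.x) (φ (Φ.star l.n z.x) + l.b • z.y)⟩

@[simp] theorem smul_x (l : Lam Φ) (z : Tri φ) : (l • z).x = l.a • z.x := rfl
@[simp] theorem smul_y (l : Lam Φ) (z : Tri φ) :
    (l • z).y = φ (Φ.star l.n z.x) + l.b • z.y := rfl

instance : Module (Lam Φ) (Tri φ) where
  one_smul z := by ext <;> simp
  mul_smul l l' z := by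
    ext
    · simp [mul_smul]
    · simp [Φ.star_add_left, Φ.star_star, Φ.star_smul_left, mul_smul, add_assoc]
  smul_zero l := by ext <;> simp
  smul_add l z z' := by
    ext
    · simp
    · simp only [smul_y, add_x, add_y, Φ.star_add_right, map_add, smul_add]; abel
  add_smul l l' z := by
    ext
    · simp [add_smul]
    · simp only [smul_y, Lam.add_n, Lam.add_b, add_y, Φ.star_add_left, map_add, add_smul]; abel
  zero_smul z := by ext <;> simp

instance [Module k X'] [IsScalarTower k S X'] : IsScalarTower k (Lam Φ) (Tri φ) :=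
  ⟨fun c l z => by
  ext
  · simp
  · simp [Φ.star_ksmul_left]⟩

/-- maps of triangular modules. -/
def map (u : X →ₗ[S] Y) (u' : X' →ₗ[S] Y') (h : ∀ w, u' (φ w) = ψ (Φ.map u w)) :
    Tri φ →ₗ[Lam Φ] Tri ψ where
  toFun z := mk ψ (u z.x) (u' z.y)
  map_add' z z' := by ext <;> simp
  map_smul' l z := by
    ext
    · simp
    · simp [h, Φ.map_star]

@[simp] theorem map_x (u : X →ₗ[S] Y) (u' : X' →ₗ[S] Y') (h : ∀ w, u' (φ w) = ψ (Φ.map u w))
    (z : Tri φ) : (map u u' h z).x = u z.x := rfl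
@[simp] theorem map_y (u : X →ₗ[S] Y) (u' : X' →ₗ[S] Y') (h : ∀ w, u' (φ w) = ψ (Φ.map u w))
    (z : Tri φ) : (map u u' h z).y = u' z.y := rfl

theorem exists_map (hΦ : Φ.Exact) (F : Tri φ →ₗ[Lam Φ] Tri ψ) :
    ∃ (u : X →ₗ[S] Y) (u' : X' →ₗ[S] Y') (h : ∀ w, u' (φ w) = ψ (Φ.map u w)), F = map u u' h := by
  have h1 : ∀ (a : S) (x : X), F (mk φ (a • x) 0) = Lam.mk a (0 : Φ.N) 0 • F (mk φ x 0) := by
    intro a x
    rw [← map_smul]; congr 1; ext <;> simp
  have h2 : ∀ (a : S) (x : X'), F (mk φ 0 (a • x)) = Lam.mk 0 (0 : Φ.N) a • F (mk φ 0 x) := by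
    intro a x
    rw [← map_smul]; congr 1; ext <;> simp
  have h3 : ∀ (n : Φ.N) (x : X), F (mk φ 0 (φ (Φ.star n x))) = Lam.mk 0 n 0 • F (mk φ x 0) := by
    intro a x
    rw [← map_smul]; congr 1; ext <;> simp
  let u : X →ₗ[S] Y :=
    { toFun := fun x => (F (mk φ x 0)).x
      map_add' := fun a b => by
        rw [← add_x, ← map_add]; congr 2; ext <;> simp
      map_smul' := fun a x => by rw [h1]; simp }
  let u' : X' →ₗ[S] Y' :=
    { toFun := fun x => (F (mk φ 0 x)).y
      map_add' := fun a b => by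
        rw [← add_y, ← map_add]; congr 2; ext <;> simp
      map_smul' := fun a x => by rw [h2]; simp }
  refine ⟨u, u', fun w => ?_, ?_⟩
  · obtain ⟨r, n, x, rfl⟩ := hΦ.star_span w
    simp only [map_sum]
    refine Finset.sum_congr rfl fun i _ => ?_
    rw [Φ.map_star]
    change (F (mk φ 0 (φ (Φ.star (n i) (x i))))).y = _
    rw [h3]
    simp [u]
  · ext z
    · have e : z = mk φ z.x 0 + mk φ 0 ((1 : S) • z.y) := by ext <;> simp
      conv_lhs => rw [e, map_add, h2]
      simp [u]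
    · have e : z = mk φ ((1 : S) • z.x) 0 + mk φ 0 z.y := by ext <;> simp
      conv_lhs => rw [e, map_add, h1]
      simp [u']

/-- typed left inclusion. -/
abbrev inlP (Φ : KFun k S) (P P' : KMod k S) : Φ.obj P →ₗ[S] Φ.obj P × P' :=
  LinearMap.inl S _ _

/-- the regular module as a triangular module. -/
def regEquiv (Φ : KFun k S) : Lam Φ ≃ₗ[Lam Φ] Tri (inlP Φ (KMod.reg k S) (KMod.reg k S)) where
  toFun l := mk _ (KMod.toReg k S l.a) (l.n, KMod.toReg k S l.b)
  invFun z := Lam.mk ((KMod.toReg k S).symm z.x) z.y.1 ((KMod.toReg k S).symm z.y.2)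
  left_inv l := rfl
  right_inv z := rfl
  map_add' l l' := rfl
  map_smul' l l' := by
    ext
    · simp [smul_toReg]
    · simp
    · simp [smul_toReg]

theorem inlP_comm1 {P P' Q Q' : KMod k S} (u : P →ₗ[S] Q) (w : Φ.obj P) :
    ((Φ.map u).prodMap (0 : P' →ₗ[S] Q')) (inlP Φ P P' w) = inlP Φ Q Q' (Φ.map u w) := by simp

theorem inlP_comm2 {P P' Q Q' : KMod k S} (u : P' →ₗ[S] Q') (w : Φ.obj P) :
    (LinearMap.prodMap 0 u) (inlP Φ P P' w) = inlP Φ Q Q' (Φ.map (0 : P →ₗ[S] Q) w) := by simp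

theorem proj_inlP (P P' : KMod k S) [Module.Projective S P] [Module.Projective S P'] :
    Module.Projective (Lam Φ) (Tri (inlP Φ P P')) := by
  obtain ⟨r, e, c, hc⟩ := exists_dualBasis k S P
  obtain ⟨r', e', c', hc'⟩ := exists_dualBasis k S P'
  have := Module.Projective.of_equiv' (regEquiv Φ)
  let c0 : Fin r → P →ₗ[S] KMod.reg k S := fun i => (KMod.toReg k S).toLinearMap ∘ₗ c i
  let c1 : Fin r' → P' →ₗ[S] KMod.reg k S := fun i => (KMod.toReg k S).toLinearMap ∘ₗ c' i
  refine proj_of_sum (W := Tri (inlP Φ (KMod.reg k S) (KMod.reg k S))) (I := Fin r ⊕ Fin r')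
    (Sum.elim (fun i => map (c0 i) _ (inlP_comm1 (c0 i))) (fun j => map 0 _ (inlP_comm2 (c1 j))))
    (Sum.elim (fun i => map (tosp (e i)) _ (inlP_comm1 (tosp (e i))))
      (fun j => map 0 _ (inlP_comm2 (tosp (e' j))))) fun z => ?_
  have hid : ∑ i, tosp (e i) ∘ₗ c0 i = LinearMap.id := by
    ext p; simpa [c0] using hc p
  rw [Fintype.sum_sum_type]
  ext
  · simp [sum_x, c0, hc]
  · simp only [Sum.elim_inl, Sum.elim_inr, add_y, sum_y, map_y, Prod.fst_add, Prod.fst_sum,
      LinearMap.prodMap_apply, LinearMap.zero_apply, Finset.sum_const_zero, add_zero,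
      ← Φ.map_comp]
    rw [← LinearMap.sum_apply, ← map_sum, hid, Φ.map_id]
  · simp [sum_y, Prod.snd_sum, c1, hc']

end Tri

/-- A stage of the resolution. -/
structure Stage (Φ : KFun k S) (X : KMod k S) where
  X' : KMod k S
  φ : Φ.obj X →ₗ[S] X'
  inj : Function.Injective φ

namespace Stage

variable {Φ : KFun k S} {X : KMod k S} (st : Stage Φ X)

/-- the middle term. -/
abbrev Q : Type := Φ.obj X.free × st.X'.free

/-- the cover. -/
def π : st.Q →ₗ[S] st.X' := (st.φ ∘ₗ Φ.map X.fp).coprod st.X'.fp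

theorem π_apply (w : Φ.obj X.free) (p : st.X'.free) :
    st.π (w, p) = st.φ (Φ.map X.fp w) + st.X'.fp p := rfl

theorem π_surj : Function.Surjective st.π := by
  intro x
  obtain ⟨p, rfl⟩ := st.X'.fses.surj x
  exact ⟨(0, p), by simp [π_apply]⟩

/-- the next stage. -/
def next (hΦ : Φ.Exact) : Stage Φ X.syz where
  X' := KMod.of k S (LinearMap.ker st.π)
  φ := (Tri.inlP Φ X.free st.X'.free ∘ₗ Φ.map X.fi).codRestrict _ (fun w => by
    simp [π_apply, (hΦ X.fses).apply_zero])
  inj := by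
    intro a b h
    apply (hΦ X.fses).inj
    exact congrArg (fun z => z.1.1) h

/-- inclusion of the next stage. -/
def ι (hΦ : Φ.Exact) : (st.next hΦ).X' →ₗ[S] st.Q := (LinearMap.ker st.π).subtype

theorem ses (hΦ : Φ.Exact) : SES (st.ι hΦ) st.π := SES.ker _ st.π_surj

theorem ι_φ (hΦ : Φ.Exact) (w : Φ.obj X.syz) :
    st.ι hΦ ((st.next hΦ).φ w) = (Φ.map X.fi w, 0) := rfl

/-- the projective middle term over the triangular algebra. -/
abbrev U : Type := Tri (Tri.inlP Φ X.free st.X'.free)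

/-- inclusion over the triangular algebra. -/
def iU (hΦ : Φ.Exact) : Tri (st.next hΦ).φ →ₗ[Lam Φ] st.U :=
  Tri.map X.fi (st.ι hΦ) (fun w => st.ι_φ hΦ w)

/-- cover over the triangular algebra. -/
def pU : st.U →ₗ[Lam Φ] Tri st.φ := Tri.map X.fp st.π (fun w => by simp [π_apply])

theorem sesU (hΦ : Φ.Exact) : SES (st.iU hΦ) st.pU := by
  refine SES.mk' ?_ ?_ ?_ ?_
  · intro a b h
    ext
    · exact X.fses.inj (congrArg Tri.x h)
    · exact (st.ses hΦ).inj (congrArg Tri.y h)
  · intro z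
    obtain ⟨p, hp⟩ := X.fses.surj z.x
    obtain ⟨q, hq⟩ := st.π_surj z.y
    exact ⟨Tri.mk _ p q, Tri.ext hp hq⟩
  · intro z
    ext
    · exact X.fses.apply_zero _
    · exact (st.ses hΦ).apply_zero _
  · intro z hz
    obtain ⟨p, hp⟩ := X.fses.mem_range (congrArg Tri.x hz)
    obtain ⟨q, hq⟩ := (st.ses hΦ).mem_range (congrArg Tri.y hz)
    exact ⟨Tri.mk _ p q, Tri.ext hp hq⟩

instance : Module.Projective (Lam Φ) st.U := Tri.proj_inlP _ _

theorem extend_reg [SelfInj k S] (hΦ : Φ.Exact) [Module.Projective S Φ.N]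
    (F : Tri (st.next hΦ).φ →ₗ[Lam Φ] Tri (Tri.inlP Φ (KMod.reg k S) (KMod.reg k S))) :
    ∃ G : st.U →ₗ[Lam Φ] Tri (Tri.inlP Φ (KMod.reg k S) (KMod.reg k S)),
      ∀ z, G (st.iU hΦ z) = F z := by
  obtain ⟨u, u', h, rfl⟩ := Tri.exists_map hΦ F
  have hS : Module.Injective S (KMod.reg k S) := SelfInj.inj_of_proj (k := k) _
  have hN : Module.Injective S (Φ.N × KMod.reg k S) := SelfInj.inj_of_proj (k := k) _
  obtain ⟨v0, hv⟩ := hS.out X.fi X.fses.inj u
  let v1 : st.Q →ₗ[S] Φ.N × KMod.reg k S :=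
    Tri.inlP Φ _ _ ∘ₗ Φ.map v0 ∘ₗ LinearMap.fst S _ _
  let p2 : (st.next hΦ).X' →ₗ[S] st.X'.free := LinearMap.snd S _ _ ∘ₗ st.ι hΦ
  have hv0 : v0 ∘ₗ X.fi = u := LinearMap.ext hv
  obtain ⟨d, hd⟩ := (SES.ker p2.rangeRestrict p2.surjective_rangeRestrict).desc
    (u' - v1 ∘ₗ st.ι hΦ) (fun z => by
      obtain ⟨z, hz⟩ := z
      have hz2 : (st.ι hΦ z).2 = 0 := congrArg Subtype.val hz
      have hz3 : st.φ (Φ.map X.fp (st.ι hΦ z).1) = 0 := by
        have := (st.ses hΦ).apply_zero z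
        rw [← Prod.mk.eta (p := st.ι hΦ z), π_apply, hz2, map_zero, add_zero] at this
        exact this
      obtain ⟨w, hw⟩ := (hΦ X.fses).mem_range (st.inj (hz3.trans (map_zero _).symm))
      have hz4 : z = (st.next hΦ).φ w := (st.ses hΦ).inj (by
        rw [ι_φ]; exact Prod.ext hw.symm hz2)
      subst hz4
      simp [h, ι_φ, v1, ← Φ.map_comp, hv0])
  obtain ⟨w, hw⟩ := hN.out (LinearMap.range p2).subtype Subtype.val_injective d
  refine ⟨Tri.map v0 (v1 + w ∘ₗ LinearMap.snd S _ _) (fun y => by simp [v1]), fun z => ?_⟩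
  refine Tri.ext (hv _) ?_
  have := hw (p2.rangeRestrict z.y)
  rw [hd] at this
  change v1 (st.ι hΦ z.y) + w (p2 z.y) = u' z.y
  have e : w (p2 z.y) = u' z.y - v1 (st.ι hΦ z.y) := this
  rw [e]; abel

theorem extend_self [SelfInj k S] (hΦ : Φ.Exact) {s : KMod k S}
    (st0 : Stage Φ s)
    (hA : ∀ (u : X.syz →ₗ[S] s) (u' : (st.next hΦ).X' →ₗ[S] st0.X'),
      (∀ w, u' ((st.next hΦ).φ w) = st0.φ (Φ.map u w)) → u ∈ PF k S _ _ ∧ u' ∈ PF k S _ _)
    (hB : ∀ z : Φ.obj X →ₗ[S] st0.X', ∃ (a : X →ₗ[S] s) (a' : st.X' →ₗ[S] st0.X'),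
      ∀ w, z w = a' (st.φ w) - st0.φ (Φ.map a w))
    (F : Tri (st.next hΦ).φ →ₗ[Lam Φ] Tri st0.φ) :
    ∃ G : st.U →ₗ[Lam Φ] Tri st0.φ, ∀ z, G (st.iU hΦ z) = F z := by
  obtain ⟨u, u', h, rfl⟩ := Tri.exists_map hΦ F
  obtain ⟨hu, hu'⟩ := hA u u' h
  obtain ⟨v, -, hv⟩ := PF.extend hu X.fi X.fses.inj
  obtain ⟨v', -, hv'⟩ := PF.extend hu' (st.ι hΦ) (st.ses hΦ).inj
  have hv0 : v ∘ₗ X.fi = u := LinearMap.ext hv
  obtain ⟨z, hz⟩ := (hΦ X.fses).desc (v' ∘ₗ Tri.inlP Φ _ _ - st0.φ ∘ₗ Φ.map v) (fun w => by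
    have := hv' ((st.next hΦ).φ w)
    rw [ι_φ] at this
    simp [this, h, ← Φ.map_comp, hv0])
  obtain ⟨a, a', ha⟩ := hB z
  refine ⟨Tri.map (v - a ∘ₗ X.fp) (v' - a' ∘ₗ st.π) (fun w => ?_), fun y => ?_⟩
  · have h1 := hz w
    rw [ha] at h1
    simp only [LinearMap.sub_apply, LinearMap.comp_apply, LinearMap.inl_apply] at h1
    simp only [LinearMap.sub_apply, LinearMap.comp_apply, LinearMap.inl_apply, π_apply, map_zero,
      add_zero, map_sub, Φ.map_comp]
    rw [sub_eq_sub_iff_sub_eq_sub, ← h1]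
  · refine Tri.ext ?_ ?_
    · change (v - a ∘ₗ X.fp) (X.fi y.x) = u y.x
      simp [hv, X.fses.apply_zero]
    · change (v' - a' ∘ₗ st.π) (st.ι hΦ y.y) = u' y.y
      simp [hv', (st.ses hΦ).apply_zero]

end Stage

/-- the tower of stages. -/
def stages {Φ : KFun k S} (hΦ : Φ.Exact) {s : KMod k S} (st0 : Stage Φ s) :
    (m : ℕ) → Stage Φ (s.syzN m)
  | 0 => st0
  | m + 1 => (stages hΦ st0 m).next hΦ

/-- a counterexample over the given field. -/
def ARCounter (k : Type) [Field k] : Prop :=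
  ∃ (Λ : Type) (_ : Ring Λ) (_ : Algebra k Λ) (_ : FiniteDimensional k Λ) (Z : Type)
    (_ : AddCommGroup Z) (_ : Module k Z) (_ : Module Λ Z) (_ : IsScalarTower k Λ Z)
    (_ : FiniteDimensional k Z), (∀ n, EZ Λ Z Z (n + 1)) ∧ (∀ n, EZ Λ Z Λ (n + 1)) ∧
      ¬ Module.Projective Λ Z

theorem tower_EZ {Φ : KFun k S} (hΦ : Φ.Exact) {s : KMod k S} (st0 : Stage Φ s) {W : Type}
    [AddCommGroup W] [Module (Lam Φ) W]
    (h : ∀ m (F : Tri ((stages hΦ st0 m).next hΦ).φ →ₗ[Lam Φ] W),
      ∃ G : (stages hΦ st0 m).U →ₗ[Lam Φ] W, ∀ z, G ((stages hΦ st0 m).iU hΦ z) = F z)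
    (n m : ℕ) : EZ (Lam Φ) (Tri (stages hΦ st0 m).φ) W (n + 1) := by
  induction n generalizing m with
  | zero => exact EZ.of_extend ((stages hΦ st0 m).sesU hΦ) (EZ.of_proj _) (h m)
  | succ n ih => exact EZ.left_quot ((stages hΦ st0 m).sesU hΦ) (ih (m + 1)) (EZ.of_proj _)

theorem glue_main [SelfInj k S] {Φ : KFun k S} (hΦ : Φ.Exact) [Module.Projective S Φ.N]
    {s : KMod k S} (st0 : Stage Φ s) (hs : ¬ Module.Projective S s)
    (hA : ∀ m (u : s.syzN (m + 1) →ₗ[S] s) (u' : (stages hΦ st0 (m + 1)).X' →ₗ[S] st0.X'),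
      (∀ w, u' ((stages hΦ st0 (m + 1)).φ w) = st0.φ (Φ.map u w)) →
        u ∈ PF k S _ _ ∧ u' ∈ PF k S _ _)
    (hB : ∀ m (z : Φ.obj (s.syzN m) →ₗ[S] st0.X'),
      ∃ (a : s.syzN m →ₗ[S] s) (a' : (stages hΦ st0 m).X' →ₗ[S] st0.X'),
      ∀ w, z w = a' ((stages hΦ st0 m).φ w) - st0.φ (Φ.map a w)) : ARCounter k := by
  refine ⟨Lam Φ, inferInstance, inferInstance, inferInstance, Tri st0.φ, inferInstance,
    inferInstance, inferInstance, inferInstance, inferInstance, fun n => ?_, fun n => ?_, ?_⟩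
  · exact tower_EZ hΦ st0 (fun m => Stage.extend_self _ hΦ st0 (hA m) (hB m)) n 0
  · exact EZ.right_equiv (Tri.regEquiv Φ)
      (tower_EZ hΦ st0 (fun m => Stage.extend_reg _ hΦ) n 0)
  · intro hZ
    apply hs
    obtain ⟨F, hF⟩ := Module.projective_lifting_property st0.pU LinearMap.id (st0.sesU hΦ).surj
    obtain ⟨u, u', h, rfl⟩ := Tri.exists_map hΦ F
    exact proj_of_retract u s.fp fun x => congrArg (fun f => (f (Tri.mk _ x 0)).x) hF

end

end Vale.Agent.P195
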