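import Vale.Agent.P195.Twist

/-! The gluing functor and the stable computation. -/

open TensorProduct

namespace Vale.Agent.P195

noncomputable section

variable {k : Type} [Field k] {S : Type} [Ring S] [Algebra k S]

theorem ses33 {A1 A2 A3 B1 B2 B3 C1 C2 C3 : Type}
    [AddCommGroup A1] [Module S A1] [AddCommGroup A2] [Module S A2] [AddCommGroup A3] [Module S A3]
    [AddCommGroup B1] [Module S B1] [AddCommGroup B2] [Module S B2] [AddCommGroup B3] [Module S B3]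
    [AddCommGroup C1] [Module S C1] [AddCommGroup C2] [Module S C2] [AddCommGroup C3] [Module S C3]
    {iA : A1 →ₗ[S] A2} {pA : A2 →ₗ[S] A3} {iB : B1 →ₗ[S] B2} {pB : B2 →ₗ[S] B3}
    {iC : C1 →ₗ[S] C2} {pC : C2 →ₗ[S] C3} {n1 : A1 →ₗ[S] B1} {n2 : A2 →ₗ[S] B2} {n3 : A3 →ₗ[S] B3}
    {q1 : B1 →ₗ[S] C1} {q2 : B2 →ₗ[S] C2} {q3 : B3 →ₗ[S] C3}
    (hA : SES iA pA) (hB : SES iB pB) (h1 : SES n1 q1) (h2 : SES n2 q2) (h3 : SES n3 q3)
    (e1 : ∀ x, n2 (iA x) = iB (n1 x)) (e2 : ∀ x, n3 (pA x) = pB (n2 x))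
    (e3 : ∀ x, iC (q1 x) = q2 (iB x)) (e4 : ∀ x, pC (q2 x) = q3 (pB x)) : SES iC pC := by
  refine SES.mk' ?_ ?_ ?_ ?_
  · rw [injective_iff_map_eq_zero]
    intro c hc
    obtain ⟨b, rfl⟩ := h1.surj c
    rw [e3] at hc
    obtain ⟨a2, ha2⟩ := h2.mem_range hc
    have : pA a2 = 0 := h3.inj (by rw [e2, ha2, hB.apply_zero, map_zero])
    obtain ⟨a1, rfl⟩ := hA.mem_range this
    rw [e1] at ha2
    rw [← hB.inj ha2, h1.apply_zero]
  · intro c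
    obtain ⟨b, rfl⟩ := h3.surj c
    obtain ⟨b, rfl⟩ := hB.surj b
    exact ⟨q2 b, e4 b⟩
  · intro c
    obtain ⟨b, rfl⟩ := h1.surj c
    rw [e3, e4, hB.apply_zero, map_zero]
  · intro c hc
    obtain ⟨b, rfl⟩ := h2.surj c
    rw [e4] at hc
    obtain ⟨a3, ha3⟩ := h3.mem_range hc
    obtain ⟨a2, rfl⟩ := hA.surj a3
    obtain ⟨b1, hb1⟩ := hB.mem_range (y := b - n2 a2) (by rw [map_sub, ← e2, ha3, sub_self])
    exact ⟨q1 b1, by rw [e3, hb1, map_sub, h2.apply_zero, sub_zero]⟩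

theorem SES.prodMap {A1 A2 A3 B1 B2 B3 : Type}
    [AddCommGroup A1] [Module S A1] [AddCommGroup A2] [Module S A2] [AddCommGroup A3] [Module S A3]
    [AddCommGroup B1] [Module S B1] [AddCommGroup B2] [Module S B2] [AddCommGroup B3] [Module S B3]
    {iA : A1 →ₗ[S] A2} {pA : A2 →ₗ[S] A3} {iB : B1 →ₗ[S] B2} {pB : B2 →ₗ[S] B3}
    (hA : SES iA pA) (hB : SES iB pB) : SES (iA.prodMap iB) (pA.prodMap pB) := by
  refine SES.mk' (hA.inj.prodMap hB.inj) (hA.surj.prodMap hB.surj) ?_ ?_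
  · intro x; simp [hA.apply_zero, hB.apply_zero]
  · intro y hy
    obtain ⟨a, ha⟩ := hA.mem_range (congrArg Prod.fst hy)
    obtain ⟨b, hb⟩ := hB.mem_range (congrArg Prod.snd hy)
    exact ⟨(a, b), Prod.ext ha hb⟩

variable [FiniteDimensional k S]

/-- natural transformations. -/
structure NatT (F G : KFun k S) where
  app : ∀ X, F.obj X →ₗ[S] G.obj X
  nat : ∀ {X Y : KMod k S} (u : X →ₗ[S] Y) (x : F.obj X), app Y (F.map u x) = G.map u (app X x)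

/-- preservation of projectives. -/
def KFun.PP (F : KFun k S) : Prop :=
  ∀ P : KMod k S, Module.Projective S P → Module.Projective S (F.obj P)

omit [FiniteDimensional k S] in
theorem KFun.PP.pf {F : KFun k S} (hF : F.PP) {X Y : KMod k S} {u : X →ₗ[S] Y}
    (hu : u ∈ PF k S X Y) : F.map u ∈ PF k S _ _ := by
  obtain ⟨P, hP, a, b, rfl⟩ := hu
  have := hF P hP
  exact PF.of_factor' (F.map a) (F.map b) (F.map_comp a b)

/-- typed inclusion in the tower. -/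
def KMod.fiN (s : KMod k S) (m : ℕ) : s.syzN (m + 1) →ₗ[S] (s.syzN m).free := (s.syzN m).fi

theorem KMod.fsesN (s : KMod k S) (m : ℕ) : SES (s.fiN m) (s.syzN m).fp := (s.syzN m).fses

/-- All the data needed for the gluing. -/
structure GlueData (k S : Type) [Field k] [Ring S] [Algebra k S] [FiniteDimensional k S] where
  Y : KFun k S
  P1 : KFun k S
  P2 : KFun k S
  L : KFun k S
  γ1 : NatT Y P1
  γ2 : NatT Y P2
  ν : NatT Y L
  ν_inj : ∀ X, Function.Injective (ν.app X)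
  exY : Y.Exact
  ex1 : P1.Exact
  ex2 : P2.Exact
  exL : L.Exact
  ppY : Y.PP
  pp1 : P1.PP
  pp2 : P2.PP
  ppL : ∀ X, Module.Projective S (L.obj X)
  s : KMod k S
  faith : ∀ (A : KMod k S) (u : A →ₗ[S] s), P1.map u ∈ PF k S _ _ → u ∈ PF k S _ _
  full : ∀ (A : KMod k S) (w : P1.obj A →ₗ[S] P1.obj s), ∃ u, w - P1.map u ∈ PF k S _ _
  ω0 : P2.obj s ≃ₗ[S] P1.obj s
  ω : ∀ m, P2.obj (s.syzN m) ≃ₗ[S] P1.obj (s.syzN m)
  ω_zero : ω 0 = ω0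
  ωP : ∀ m, P2.obj (s.syzN m).free →ₗ[S] P1.obj (s.syzN m).free
  ω_i : ∀ m x, P1.map (s.fiN m) (ω (m + 1) x) = ωP m (P2.map (s.fiN m) x)
  ω_p : ∀ m x, P1.map (s.syzN m).fp (ωP m x) = ω m (P2.map (s.syzN m).fp x)
  τ : ∀ m, (s.syzN m →ₗ[S] s) →ₗ[k] (s.syzN m →ₗ[S] s)
  ω_τ : ∀ m u x, ω0 (P2.map u x) = P1.map (τ m u) (ω m x)
  τ_surj : ∀ m u, ∃ v, u - (τ (m + 1) v - v) ∈ PF k S _ _
  τ_inj : ∀ m u, τ (m + 1) u - u ∈ PF k S _ _ → u ∈ PF k S _ _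
  hend : ∀ u : s →ₗ[S] s, ∃ c : k, u = c • LinearMap.id
  γ1_ne : γ1.app s ∉ PF k S _ _
  γ2_ne : γ2.app s ∉ PF k S _ _
  V0 : ∀ u : Y.obj s →ₗ[S] P1.obj s, ∃ c : k, u - c • γ1.app s ∈ PF k S _ _
  V1 : ∀ u : Y.obj (s.syzN 1) →ₗ[S] P1.obj (s.syzN 1), ∃ c : k,
    u - c • γ1.app (s.syzN 1) ∈ PF k S _ _
  Vm : ∀ m, m ≠ 1 → ∀ u : Y.obj (s.syzN m) →ₗ[S] P1.obj (s.syzN 1), u ∈ PF k S _ _

namespace GlueData

variable (G : GlueData k S)

/-- the middle functor on objects. -/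
abbrev Mid (X : KMod k S) : Type := G.P1.obj X × G.P2.obj X × G.L.obj X

/-- the middle functor on maps. -/
abbrev midMap {X Y : KMod k S} (u : X →ₗ[S] Y) : G.Mid X →ₗ[S] G.Mid Y :=
  (G.P1.map u).prodMap ((G.P2.map u).prodMap (G.L.map u))

/-- the embedding. -/
abbrev emb (X : KMod k S) : G.Y.obj X →ₗ[S] G.Mid X :=
  (G.γ1.app X).prod ((G.γ2.app X).prod (G.ν.app X))

theorem emb_inj (X : KMod k S) : Function.Injective (G.emb X) := fun _ _ h =>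
  G.ν_inj X (congrArg (fun z => z.2.2) h)

theorem emb_nat {X Y : KMod k S} (u : X →ₗ[S] Y) (x : G.Y.obj X) :
    G.emb Y (G.Y.map u x) = G.midMap u (G.emb X x) := by
  simp [G.γ1.nat, G.γ2.nat, G.ν.nat]

theorem range_le {X Y : KMod k S} (u : X →ₗ[S] Y) :
    LinearMap.range (G.emb X) ≤ (LinearMap.range (G.emb Y)).comap (G.midMap u) := by
  rintro _ ⟨x, rfl⟩
  exact ⟨_, G.emb_nat u x⟩

/-- the gluing functor on objects. -/
def Φobj (X : KMod k S) : KMod k S := KMod.of k S (G.Mid X ⧸ LinearMap.range (G.emb X))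

/-- the quotient map. -/
def q0 (X : KMod k S) : G.Mid X →ₗ[S] G.Φobj X := (LinearMap.range (G.emb X)).mkQ

theorem q0_surj (X : KMod k S) : Function.Surjective (G.q0 X) := Submodule.mkQ_surjective _

/-- the gluing functor on maps. -/
def Φmap {X Y : KMod k S} (u : X →ₗ[S] Y) : G.Φobj X →ₗ[S] G.Φobj Y :=
  Submodule.mapQ _ _ (G.midMap u) (G.range_le u)

theorem Φmap_q0 {X Y : KMod k S} (u : X →ₗ[S] Y) (x : G.Mid X) :
    G.Φmap u (G.q0 X x) = G.q0 Y (G.midMap u x) := rfl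

/-- the gluing functor. -/
def Φ : KFun k S where
  obj := G.Φobj
  map {X Y} :=
    { toFun := G.Φmap
      map_add' := fun u v => LinearMap.ext fun x => by
        obtain ⟨x, rfl⟩ := G.q0_surj X x
        rw [LinearMap.add_apply, Φmap_q0, Φmap_q0, Φmap_q0, ← map_add]
        congr 1
        simp
      map_smul' := fun c u => LinearMap.ext fun x => by
        obtain ⟨x, rfl⟩ := G.q0_surj X x
        rw [LinearMap.smul_apply, Φmap_q0, Φmap_q0, ← LinearMap.map_smul_of_tower]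
        congr 1
        simp }
  map_id X x := by
    obtain ⟨x, rfl⟩ := G.q0_surj X x
    simp only [LinearMap.coe_mk, AddHom.coe_mk, Φmap_q0]
    congr 1
    simp [KFun.map_id]
  map_comp u v x := by
    obtain ⟨x, rfl⟩ := G.q0_surj _ x
    simp only [LinearMap.coe_mk, AddHom.coe_mk, Φmap_q0]
    congr 1
    simp [KFun.map_comp]

/-- the quotient map. -/
def q (X : KMod k S) : G.Mid X →ₗ[S] G.Φ.obj X := G.q0 X

theorem q_ses (X : KMod k S) : SES (G.emb X) (G.q X) := SES.coker _ (G.emb_inj X)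

theorem map_q {X Y : KMod k S} (u : X →ₗ[S] Y) (x : G.Mid X) :
    G.Φ.map u (G.q X x) = G.q Y (G.midMap u x) := rfl

theorem exΦ : G.Φ.Exact := fun _ _ _ _ _ h =>
  ses33 (G.exY h) ((G.ex1 h).prodMap ((G.ex2 h).prodMap (G.exL h))) (G.q_ses _) (G.q_ses _)
    (G.q_ses _) (G.emb_nat _) (G.emb_nat _) (G.map_q _) (G.map_q _)

theorem ppΦ [SelfInj k S] : G.Φ.PP := by
  intro P hP
  have := G.ppY P hP
  have := G.pp1 P hP
  have := G.pp2 P hP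
  have := G.ppL P
  have : Module.Injective S (G.Y.obj P) := SelfInj.inj_of_proj (k := k) _
  exact proj_of_ses (G.q_ses P)

theorem exists_φ0 [SelfInj k S] : ∃ (c : k) (_ : c ≠ 0) (φ0 : G.Φ.obj G.s →ₗ[S] G.P1.obj G.s),
    (∀ x, φ0 (G.q _ (x, 0, 0)) = x) ∧ ∀ x, φ0 (G.q _ (0, x, 0)) = c • G.ω0 x := by
  obtain ⟨c, hc⟩ := G.V0 (G.ω0.toLinearMap ∘ₗ G.γ2.app G.s)
  have hc0 : c ≠ 0 := by
    rintro rfl
    rw [zero_smul, sub_zero] at hc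
    exact G.γ2_ne (PF.of_equiv_comp _ hc)
  obtain ⟨w, -, hw⟩ := PF.extend (Submodule.smul_mem _ c⁻¹ hc) (G.ν.app G.s) (G.ν_inj _)
  obtain ⟨φ0, hφ0⟩ := (G.q_ses G.s).desc
    (LinearMap.id.coprod ((-c⁻¹ • G.ω0.toLinearMap).coprod w)) (fun x => by
      simp [hw, smul_sub, smul_smul, hc0]
      abel)
  exact ⟨-c⁻¹, by simpa using hc0, φ0, fun x => by simp [hφ0], fun x => by simp [hφ0]⟩

section

variable (φ0 : G.Φ.obj G.s →ₗ[S] G.P1.obj G.s)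

/-- the initial stage. -/
def st0 : Stage G.Φ G.s where
  X' := KMod.of k S (G.P1.obj G.s × CoInd k S (G.Φ.obj G.s))
  φ := φ0.prod (toCoInd k S _)
  inj := fun _ _ h => toCoInd_inj (congrArg Prod.snd h)

/-- projection. -/
def pr : (G.st0 φ0).X' →ₗ[S] G.P1.obj G.s := LinearMap.fst S _ _

/-- inclusion. -/
def inl0 : G.P1.obj G.s →ₗ[S] (G.st0 φ0).X' := LinearMap.inl S _ _

theorem pr_inl0 (x : G.P1.obj G.s) : G.pr φ0 (G.inl0 φ0 x) = x := rfl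

theorem pr_φ (x : G.Φ.obj G.s) : G.pr φ0 ((G.st0 φ0).φ x) = φ0 x := rfl

theorem pf_of_pr [SelfInj k S] {A : Type} [AddCommGroup A] [Module S A]
    {u : A →ₗ[S] (G.st0 φ0).X'} (hu : G.pr φ0 ∘ₗ u ∈ PF k S _ _) : u ∈ PF k S _ _ := by
  have : Module.Projective S (CoInd k S (G.Φ.obj G.s)) := SelfInj.proj_of_inj (k := k) _
  exact PF.prod hu (PF.of_proj_tgt (LinearMap.snd S _ _ ∘ₗ u))

/-- the stages. -/
abbrev st (m : ℕ) : Stage G.Φ (G.s.syzN m) := stages G.exΦ (G.st0 φ0) m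

/-- typed inclusion. -/
def ιN (m : ℕ) : (G.st φ0 (m + 1)).X' →ₗ[S] (G.st φ0 m).Q := (G.st φ0 m).ι G.exΦ

theorem sesN (m : ℕ) : SES (G.ιN φ0 m) (G.st φ0 m).π := (G.st φ0 m).ses G.exΦ

theorem ιN_φ (m : ℕ) (w : G.Φ.obj (G.s.syzN (m + 1))) :
    G.ιN φ0 m ((G.st φ0 (m + 1)).φ w) = (G.Φ.map (G.s.fiN m) w, 0) := rfl

/-- first component. -/
def j1 (X : KMod k S) : G.P1.obj X →ₗ[S] G.Φ.obj X := G.q X ∘ₗ LinearMap.inl S _ _

/-- second component. -/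
def j2 (X : KMod k S) : G.P2.obj X →ₗ[S] G.Φ.obj X :=
  G.q X ∘ₗ LinearMap.inr S _ _ ∘ₗ LinearMap.inl S _ _

theorem map_j1 {X Y : KMod k S} (u : X →ₗ[S] Y) (x : G.P1.obj X) :
    G.Φ.map u (G.j1 X x) = G.j1 Y (G.P1.map u x) := by
  simp [j1, map_q, Prod.mk_zero_zero]

theorem map_j2 {X Y : KMod k S} (u : X →ₗ[S] Y) (x : G.P2.obj X) :
    G.Φ.map u (G.j2 X x) = G.j2 Y (G.P2.map u x) := by
  simp [j2, map_q]

theorem pf_q {X : KMod k S} {A : Type} [AddCommGroup A] [Module k A] [Module S A]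
    [IsScalarTower k S A] {z : G.Φ.obj X →ₗ[S] A} (h1 : z ∘ₗ G.j1 X ∈ PF k S _ _)
    (h2 : z ∘ₗ G.j2 X ∈ PF k S _ _) : z ∘ₗ G.q X ∈ PF k S _ _ := by
  have := G.ppL X
  have h3 := PF.coprod h1 (PF.coprod h2
    (PF.of_proj_src (z ∘ₗ G.q X ∘ₗ LinearMap.inr S _ _ ∘ₗ LinearMap.inr S _ _)))
  convert h3 using 1
  ext <;> simp [j1, j2]

variable [SelfInj k S]

instance (m : ℕ) : Module.Projective S (G.st φ0 m).Q := by
  have := G.ppΦ (G.s.syzN m).free inferInstance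
  infer_instance

variable {φ0} {c : k} (h1 : ∀ x, φ0 (G.q _ (x, 0, 0)) = x)
  (h2 : ∀ x, φ0 (G.q _ (0, x, 0)) = c • G.ω0 x)

include h1 h2 in
theorem comp_a (m : ℕ) : (G.st φ0 m).φ ∘ₗ G.j2 _ -
    c • ((G.st φ0 m).φ ∘ₗ G.j1 _ ∘ₗ (G.ω m).toLinearMap) ∈ PF k S _ _ := by
  induction m with
  | zero =>
    apply G.pf_of_pr φ0
    have : G.pr φ0 ∘ₗ ((G.st φ0 0).φ ∘ₗ G.j2 _ -
        c • ((G.st φ0 0).φ ∘ₗ G.j1 _ ∘ₗ (G.ω 0).toLinearMap)) = 0 := by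
      ext x
      rw [G.ω_zero]
      exact sub_eq_zero.2 ((h2 x).trans (congrArg (fun t => c • t) (h1 (G.ω0 x)).symm))
    exact this ▸ zero_mem _
  | succ m ih =>
    have := G.pp2 (G.s.syzN m).free inferInstance
    refine ladder_down (G.ex2 (G.s.fsesN m)) (G.sesN φ0 m)
      (uP := LinearMap.inl S _ _ ∘ₗ (G.j2 _ - c • (G.j1 _ ∘ₗ G.ωP m))) ?_ ?_ ih
    · intro x
      simp [ιN_φ, map_j1, map_j2, G.ω_i]
    · intro x
      simp [Stage.π_apply, map_j1, map_j2, G.ω_p]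

include h1 in
theorem comp_b (m : ℕ) : ∃ ψ : (G.st φ0 m).X' →ₗ[S] G.P1.obj (G.s.syzN m),
    ψ ∘ₗ (G.st φ0 m).φ ∘ₗ G.j1 _ - LinearMap.id ∈ PF k S _ _ ∧
    ((G.st φ0 m).φ ∘ₗ G.j1 _) ∘ₗ ψ - LinearMap.id ∈ PF k S _ _ := by
  induction m with
  | zero =>
    refine ⟨G.pr φ0, ?_, ?_⟩
    · have : G.pr φ0 ∘ₗ (G.st φ0 0).φ ∘ₗ G.j1 _ - LinearMap.id = 0 := by
        ext x
        exact sub_eq_zero.2 (h1 x)
      exact this ▸ zero_mem _
    · apply G.pf_of_pr φ0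
      have : G.pr φ0 ∘ₗ (((G.st φ0 0).φ ∘ₗ G.j1 _) ∘ₗ G.pr φ0 - LinearMap.id) = 0 := by
        ext x
        exact sub_eq_zero.2 (h1 (G.pr φ0 x))
      exact this ▸ zero_mem _
  | succ m ih =>
    obtain ⟨ψ, hψ1, hψ2⟩ := ih
    have := G.pp1 (G.s.syzN m).free inferInstance
    obtain ⟨ψ1, ψP, e1, e0⟩ := exists_down (G.sesN φ0 m) (G.ex1 (G.s.fsesN m)) ψ
    refine ⟨ψ1, ?_, ?_⟩
    · refine ladder_down (G.ex1 (G.s.fsesN m)) (G.ex1 (G.s.fsesN m))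
        (uP := ψP ∘ₗ LinearMap.inl S _ _ ∘ₗ G.j1 _ - LinearMap.id) ?_ ?_ hψ1
      · intro x
        simp [e1, ιN_φ, map_j1]
      · intro x
        simp [e0, Stage.π_apply, map_j1]
    · refine ladder_down (G.sesN φ0 m) (G.sesN φ0 m)
        (uP := LinearMap.inl S _ _ ∘ₗ G.j1 _ ∘ₗ ψP - LinearMap.id) ?_ ?_ hψ2
      · intro x
        simp [e1, ιN_φ, map_j1]
      · intro x
        simp [e0, Stage.π_apply, map_j1]

include h1 in
omit [SelfInj k S] in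
theorem φ0_j1 {X : KMod k S} (u : X →ₗ[S] G.s) (x : G.P1.obj X) :
    φ0 (G.Φ.map u (G.j1 X x)) = G.P1.map u x := by
  rw [map_j1]; exact h1 _

include h2 in
omit [SelfInj k S] in
theorem φ0_j2 (m : ℕ) (u : G.s.syzN m →ₗ[S] G.s) (x : G.P2.obj (G.s.syzN m)) :
    φ0 (G.Φ.map u (G.j2 _ x)) = c • G.P1.map (G.τ m u) (G.ω m x) := by
  rw [map_j2, ← G.ω_τ]; exact h2 _

include h1 h2 in
theorem claimA (hc : c ≠ 0) (m : ℕ) (u : G.s.syzN (m + 1) →ₗ[S] G.s)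
    (u' : (G.st φ0 (m + 1)).X' →ₗ[S] (G.st0 φ0).X')
    (h : ∀ w, u' ((G.st φ0 (m + 1)).φ w) = (G.st0 φ0).φ (G.Φ.map u w)) :
    u ∈ PF k S _ _ ∧ u' ∈ PF k S _ _ := by
  have e1 : ∀ x, G.pr φ0 (u' ((G.st φ0 (m + 1)).φ (G.j1 _ x))) = G.P1.map u x := fun x => by
    rw [h, pr_φ, G.φ0_j1 h1]
  have e2 : ∀ x, G.pr φ0 (u' ((G.st φ0 (m + 1)).φ (G.j2 _ x))) =
      c • G.P1.map (G.τ _ u) (G.ω _ x) := fun x => by
    rw [h, pr_φ, G.φ0_j2 h2]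
  have ha := Submodule.smul_mem _ c⁻¹ (PF.comp_left (G.comp_a h1 h2 (m + 1)) (G.pr φ0 ∘ₗ u'))
  have hu : u ∈ PF k S _ _ := by
    apply G.τ_inj m
    apply G.faith
    apply PF.of_comp_equiv (G.ω (m + 1))
    convert ha using 1
    ext x
    simp [e1, e2, smul_sub, smul_smul, hc]
  refine ⟨hu, G.pf_of_pr φ0 ?_⟩
  obtain ⟨ψ, -, hψ⟩ := G.comp_b h1 (m + 1)
  have := sub_mem (PF.comp_right (G.pp1.pf hu) ψ) (PF.comp_left hψ (G.pr φ0 ∘ₗ u'))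
  convert this using 1
  ext x
  simp [e1]

include h1 h2 in
omit [SelfInj k S] in
theorem key0 (hc : c ≠ 0) (z' : G.Φ.obj G.s →ₗ[S] G.P1.obj G.s) (a1 a2 : G.s →ₗ[S] G.s)
    (ha1 : z' ∘ₗ G.j1 _ - G.P1.map a1 ∈ PF k S _ _)
    (ha2 : c⁻¹ • (z' ∘ₗ G.j2 _ ∘ₗ G.ω0.symm.toLinearMap) - G.P1.map a2 ∈ PF k S _ _) :
    a1 = a2 := by
  obtain ⟨d1, rfl⟩ := G.hend a1
  obtain ⟨d2, rfl⟩ := G.hend a2
  suffices d1 = d2 by rw [this]
  have := G.ppL G.s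
  let j3 : G.L.obj G.s →ₗ[S] G.Φ.obj G.s :=
    G.q _ ∘ₗ LinearMap.inr S _ _ ∘ₗ LinearMap.inr S _ _
  have hj : ∀ x, G.j1 _ (G.γ1.app G.s x) + G.j2 _ (G.γ2.app G.s x) + j3 (G.ν.app G.s x) = 0 := by
    intro x
    rw [← (G.q_ses G.s).apply_zero x]
    simp only [j1, j2, j3, LinearMap.comp_apply, ← map_add]
    congr 1
    simp
  have b1 := PF.comp_right ha1 (G.γ1.app G.s)
  have b2 := Submodule.smul_mem _ c
    (PF.comp_right ha2 (G.ω0.toLinearMap ∘ₗ G.γ2.app G.s))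
  have b3 : (z' ∘ₗ j3) ∘ₗ G.ν.app G.s ∈ PF k S _ _ := PF.of_factor _ _
  have b4 := Submodule.smul_mem _ d2
    (PF.of_factor (k := k) (G.ν.app G.s) (φ0 ∘ₗ j3))
  have b5 := sub_mem (add_mem (add_mem b1 b2) b3) b4
  have b6 : (d2 - d1) • G.γ1.app G.s ∈ PF k S _ _ := by
    convert b5 using 1
    ext x
    have t1 := congrArg z' (hj x)
    have t2 := congrArg φ0 (hj x)
    rw [map_add, map_add, map_zero] at t1 t2
    have t3 : φ0 (G.j1 _ (G.γ1.app G.s x)) = G.γ1.app G.s x := h1 _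
    have t4 : φ0 (G.j2 _ (G.γ2.app G.s x)) = c • G.ω0 (G.γ2.app G.s x) := h2 _
    rw [t3, t4] at t2
    simp only [LinearMap.smul_apply, LinearMap.sub_apply, LinearMap.add_apply,
      LinearMap.comp_apply, LinearEquiv.coe_coe, map_smul, G.P1.map_id,
      LinearEquiv.symm_apply_apply, smul_sub, smul_smul, mul_inv_cancel₀ hc, one_smul]
    rw [eq_neg_of_add_eq_zero_right t1, eq_neg_of_add_eq_zero_right t2]
    module
  by_contra hne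
  apply G.γ1_ne
  have := Submodule.smul_mem _ (d2 - d1)⁻¹ b6
  rwa [smul_smul, inv_mul_cancel₀ (sub_ne_zero.2 (Ne.symm hne)), one_smul] at this

include h1 h2 in
theorem claimB (hc : c ≠ 0) (m : ℕ) (z : G.Φ.obj (G.s.syzN m) →ₗ[S] (G.st0 φ0).X') :
    ∃ (a : G.s.syzN m →ₗ[S] G.s) (a' : (G.st φ0 m).X' →ₗ[S] (G.st0 φ0).X'),
      ∀ w, z w = a' ((G.st φ0 m).φ w) - (G.st0 φ0).φ (G.Φ.map a w) := by
  obtain ⟨a1, ha1⟩ := G.full _ (G.pr φ0 ∘ₗ z ∘ₗ G.j1 _)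
  obtain ⟨a2, ha2⟩ := G.full _ (c⁻¹ • (G.pr φ0 ∘ₗ z ∘ₗ G.j2 _ ∘ₗ (G.ω m).symm.toLinearMap))
  have key : ∃ u, (a1 - a2) - (G.τ m u - u) ∈ PF k S _ _ := by
    cases m with
    | succ m => exact G.τ_surj m _
    | zero =>
      rw [G.ω_zero] at ha2
      have := G.key0 h1 h2 hc (G.pr φ0 ∘ₗ z) a1 a2 ha1 ha2
      subst this
      exact ⟨0, by rw [sub_self, map_zero, sub_self, sub_self]; exact zero_mem _⟩
  obtain ⟨u, hu⟩ := key
  obtain ⟨ψ, hψ, -⟩ := G.comp_b h1 m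
  let u' : (G.st φ0 m).X' →ₗ[S] (G.st0 φ0).X' := G.inl0 φ0 ∘ₗ G.P1.map (u + a1) ∘ₗ ψ
  let r : G.Φ.obj (G.s.syzN m) →ₗ[S] (G.st0 φ0).X' :=
    z - (u' ∘ₗ (G.st φ0 m).φ - (G.st0 φ0).φ ∘ₗ G.Φ.map u)
  have hb := PF.comp_left hψ (G.P1.map (u + a1))
  have r1 : (G.pr φ0 ∘ₗ r) ∘ₗ G.j1 _ ∈ PF k S _ _ := by
    convert sub_mem ha1 hb using 1
    ext x
    simp only [r, u', LinearMap.comp_apply, LinearMap.sub_apply, map_sub, pr_inl0, pr_φ,
      G.φ0_j1 h1, map_add, LinearMap.add_apply, LinearMap.id_apply]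
    abel
  have r2 : (G.pr φ0 ∘ₗ r) ∘ₗ G.j2 _ ∈ PF k S _ _ := by
    have t1 := Submodule.smul_mem _ c (PF.comp_right ha2 (G.ω m).toLinearMap)
    have t2 := PF.comp_left (G.comp_a h1 h2 m) (G.P1.map (u + a1) ∘ₗ ψ)
    have t3 := Submodule.smul_mem _ c (PF.comp_right hb (G.ω m).toLinearMap)
    have t4 := Submodule.smul_mem _ c (PF.comp_right (G.pp1.pf hu) (G.ω m).toLinearMap)
    convert sub_mem (sub_mem (sub_mem t1 t2) t3) t4 using 1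
    ext x
    simp only [r, u', LinearMap.comp_apply, LinearMap.sub_apply, map_sub, pr_inl0, pr_φ,
      G.φ0_j2 h2, map_add, LinearMap.add_apply, LinearMap.id_apply, LinearMap.smul_apply,
      LinearEquiv.coe_coe, LinearEquiv.symm_apply_apply, smul_sub, smul_smul,
      mul_inv_cancel₀ hc, one_smul, LinearMap.map_smul_of_tower, smul_add]
    abel
  have hP := G.pp1 G.s.free inferInstance
  have hs : SES (G.P1.map (X := G.s.syzN 1) G.s.fi) (G.P1.map G.s.fp) := G.ex1 G.s.fses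
  have r3 : G.pr φ0 ∘ₗ r ∈ PF k S _ _ := by
    refine les2 (G.q_ses _) hs (fun v => ?_) _ (G.pf_q r1 r2)
    by_cases hm : m = 1
    · subst hm
      obtain ⟨d, hd⟩ := G.V1 v
      exact ⟨d • LinearMap.fst S _ _, hd⟩
    · exact ⟨0, by simpa using G.Vm m hm v⟩
  obtain ⟨r', -, hr'⟩ := PF.extend (G.pf_of_pr φ0 r3) (G.st φ0 m).φ (G.st φ0 m).inj
  refine ⟨u, u' + r', fun w => ?_⟩
  simp only [LinearMap.add_apply, hr', r, LinearMap.sub_apply, LinearMap.comp_apply]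
  abel

end

include G in
theorem counter [SelfInj k S] : ARCounter k := by
  obtain ⟨c, hc, φ0, h1, h2⟩ := G.exists_φ0
  have := G.ppΦ (KMod.reg k S) inferInstance
  refine glue_main G.exΦ (G.st0 φ0) (fun hs => G.γ1_ne ?_) (G.claimA h1 h2 hc) (G.claimB h1 h2 hc)
  have := G.pp1 G.s hs
  exact PF.of_proj_tgt _

end GlueData

end

end Vale.Agent.P195
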