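import Vale.Agent.P195.Fun

/-! From the main data to the gluing data. -/

open TensorProduct

namespace Vale.Agent.P195

noncomputable section

variable {k : Type} [Field k] {S : Type} [Ring S] [Algebra k S]

/-- the one dimensional module of a character. -/
def chr (χ : S →ₐ[k] k) : KMod k S := (KMod.of k k k).res χ

/-- identification. -/
def toChr (χ : S →ₐ[k] k) : k ≃ₗ[k] chr χ := LinearEquiv.refl k k

theorem chr_smul (χ : S →ₐ[k] k) (a : S) (x : chr χ) : a • x = χ a • x := rfl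

theorem chr_eq (χ : S →ₐ[k] k) (x : chr χ) : x = (toChr χ).symm x • toChr χ 1 := by
  rw [← map_smul, smul_eq_mul, mul_one, LinearEquiv.apply_symm_apply]

theorem chr_end (χ : S →ₐ[k] k) (u : chr χ →ₗ[S] chr χ) : ∃ c : k, u = c • LinearMap.id := by
  refine ⟨(toChr χ).symm (u (toChr χ 1)), LinearMap.ext fun x => ?_⟩
  rw [chr_eq χ x, LinearMap.map_smul_of_tower, LinearMap.map_smul_of_tower, LinearMap.smul_apply,
    LinearMap.id_apply, ← chr_eq]

variable [FiniteDimensional k S]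
variable {R : Type} [Ring R] [Algebra k R] [FiniteDimensional k R]

/-- the bimodule syzygies of the algebra. -/
abbrev Kρ (k S : Type) [Field k] [Ring S] [Algebra k S] [FiniteDimensional k S] (j : ℕ) :
    KMod k S := K (AlgHom.id k S) j

/-- their right actions. -/
abbrev rρ (k S : Type) [Field k] [Ring S] [Algebra k S] [FiniteDimensional k S] (j : ℕ) :
    RAct k S (Kρ k S j) := rK (AlgHom.id k S) j

/-- their inclusions. -/
abbrev iρ (k S : Type) [Field k] [Ring S] [Algebra k S] [FiniteDimensional k S] (j : ℕ) :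
    Kρ k S (j + 1) →ₗ[S] S ⊗[k] Kρ k S j := (K0 (AlgHom.id k S)).inc j

/-- a chain map from the augmented resolution to the induced complex. -/
structure Ladder (ι : R →ₐ[k] S) where
  ξ : S ⊗[k] K ι 0
  σ0 : Kρ k S 0 →ₗ[k] S ⊗[k] K ι 1
  σ1 : Kρ k S 1 →ₗ[k] S ⊗[k] K ι 2
  σ2 : Kρ k S 2 →ₗ[k] S ⊗[k] K ι 3
  σ3 : Kρ k S 3 →ₗ[k] S ⊗[k] K ι 4
  rl0 : IsRL (rρ k S 0) ((rK ι 1).lT S) σ0
  rl1 : IsRL (rρ k S 1) ((rK ι 2).lT S) σ1
  rl2 : IsRL (rρ k S 2) ((rK ι 3).lT S) σ2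
  rl3 : IsRL (rρ k S 3) ((rK ι 4).lT S) σ3
  d0 : ∀ a, dL ι 0 (σ0 (toK _ a)) = a • ξ
  d1 : ∀ y, dL ι 1 (σ1 y) = ext1 S σ0 (iρ k S 0 y)
  d2 : ∀ y, dL ι 2 (σ2 y) = ext1 S σ1 (iρ k S 1 y)
  d3 : ∀ y, dL ι 3 (σ3 y) = ext1 S σ2 (iρ k S 2 y)
  d4 : ∀ y, ∃ w, dL ι 4 w = ext1 S σ3 (iρ k S 3 y)

section

variable {X Y : Type} [AddCommGroup X] [Module k X] [Module S X] [IsScalarTower k S X]
  [AddCommGroup Y] [Module k Y] [Module S Y] [IsScalarTower k S Y]

omit [FiniteDimensional k S] in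
theorem ext1_lT {M N : Type} [AddCommGroup M] [Module k M] [AddCommGroup N] [Module k N]
    (u : M →ₗ[k] X) (w : N →ₗ[k] M) (z : S ⊗[k] N) :
    ext1 S u (LinearMap.lTensor S w z) = ext1 S (u ∘ₗ w) z := by
  induction z using TensorProduct.induction_on with
  | zero => simp
  | tmul a x => simp
  | add a b ha hb => simp only [map_add, ha, hb]

omit [FiniteDimensional k S] in
theorem post_ext1 {M : Type} [AddCommGroup M] [Module k M] (u : M →ₗ[k] X) (w : X →ₗ[S] Y)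
    (z : S ⊗[k] M) : w (ext1 S u z) = ext1 S (w.restrictScalars k ∘ₗ u) z := by
  induction z using TensorProduct.induction_on with
  | zero => simp
  | tmul a x => simp
  | add a b ha hb => simp only [map_add, ha, hb]

omit [FiniteDimensional k S] in
theorem extS_id {M : Type} [AddCommGroup M] [Module k M] (u : M →ₗ[k] X) (z : S ⊗[k] M) :
    extS (AlgHom.id k S) u z = ext1 S u z := by
  induction z using TensorProduct.induction_on with
  | zero => simp
  | tmul a x => simp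
  | add a b ha hb => simp only [map_add, ha, hb]

variable {ι : R →ₐ[k] S}

/-- pulling back along a right linear map into the induced complex. -/
def pull {i j : ℕ} {σ : Kρ k S i →ₗ[k] S ⊗[k] K ι j} (hσ : IsRL (rρ k S i) ((rK ι j).lT S) σ)
    (X : Type) [AddCommGroup X] [Module k X] [Module S X] [IsScalarTower k S X] :
    J ι j X →ₗ[S] J (AlgHom.id k S) i X where
  toFun u := HomR.mk _ ((ext1 S (HomR.lin _ u)).restrictScalars k ∘ₗ σ)
  map_add' u v := by ext y; simp [ext1_add]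
  map_smul' a u := by
    ext y
    simp only [HomR.lin_mk, LinearMap.comp_apply, LinearMap.restrictScalars_apply,
      RingHom.id_apply, HomR.smul_apply, hσ a y, RAct.lT_apply, ext1_lT]
    rfl

theorem pull_apply {i j : ℕ} {σ : Kρ k S i →ₗ[k] S ⊗[k] K ι j}
    (hσ : IsRL (rρ k S i) ((rK ι j).lT S) σ) (u : J ι j X) (y : Kρ k S i) :
    pull hσ X u y = ext1 S (HomR.lin _ u) (σ y) := rfl

theorem δ_pull {i j : ℕ} {σ : Kρ k S i →ₗ[k] S ⊗[k] K ι j}
    (hσ : IsRL (rρ k S i) ((rK ι j).lT S) σ) {σ' : Kρ k S (i + 1) →ₗ[k] S ⊗[k] K ι (j + 1)}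
    (hσ' : IsRL (rρ k S (i + 1)) ((rK ι (j + 1)).lT S) σ')
    (hd : ∀ y, dL ι j (σ' y) = ext1 S σ (iρ k S i y)) (u : J ι j X) :
    (δ _ (AlgHom.id k S) X i (pull hσ X u)).1 = pull hσ' X (δ ι ι X j u).1 := by
  ext y
  rw [δ_apply, pull_apply, extS_id]
  refine Eq.trans ?_ (ext1_dL ι j (HomR.lin _ u) (σ' y))
  rw [hd, post_ext1]
  rfl

namespace Ladder

variable (L : Ladder ι)

theorem γ_mem (u : D ι ι X 4) : pull L.rl3 X u.1 ∈ D (AlgHom.id k S) (AlgHom.id k S) X 3 := by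
  obtain ⟨v, hv⟩ := (δ_exact (φ := AlgHom.id k S) 3 (pull L.rl3 X u.1)).1 (D.ext fun y => by
    obtain ⟨w, hw⟩ := L.d4 y
    rw [δ_apply, extS_id]
    have := ext1_dL_semi ι 4 (D.semi u) w
    rw [hw, post_ext1] at this
    exact this)
  rw [← hv]
  exact v.2

/-- the natural map. -/
def γ (X : Type) [AddCommGroup X] [Module k X] [Module S X] [IsScalarTower k S X] :
    D ι ι X 4 →ₗ[S] Ψ k S X 3 :=
  (pull L.rl3 X ∘ₗ (D ι ι X 4).subtype).codRestrict _ L.γ_mem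

theorem γ_apply (u : D ι ι X 4) (y : Kρ k S 3) :
    (L.γ X u).1 y = ext1 S (HomR.lin _ u.1) (L.σ3 y) := rfl

theorem γ_nat (w : X →ₗ[S] Y) (u : D ι ι X 4) :
    L.γ Y (Dmap ι ι 4 w u) = Dmap _ (AlgHom.id k S) 3 w (L.γ X u) := D.ext fun y => by
  rw [Dmap_apply, γ_apply, γ_apply, post_ext1]
  rfl

end Ladder

end

theorem chase_step {A I A' I' A'' J1 J2 J3 : Type} [AddCommGroup A] [Module S A]
    [AddCommGroup I] [Module S I] [AddCommGroup A'] [Module S A'] [AddCommGroup I'] [Module S I']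
    [AddCommGroup A''] [Module S A''] [AddCommGroup J1] [Module S J1] [AddCommGroup J2]
    [Module S J2] [AddCommGroup J3] [Module S J3] [Module.Projective S J2]
    {c : A →ₗ[S] I} {p : I →ₗ[S] A'} {c' : A' →ₗ[S] I'} {p' : I' →ₗ[S] A''} (h : SES c p)
    (h' : SES c' p') {g : J1 →ₗ[S] I} {g' : J2 →ₗ[S] I'} {d : J1 →ₗ[S] J2} {d' : J2 →ₗ[S] J3}
    (hd : ∀ x, d' (d x) = 0) (hg : ∀ x, c' (p (g x)) = g' (d x))
    (ht : ∃ t : J3 →ₗ[S] I', ∀ x, p' (g' x) = p' (t (d' x))) :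
    ∃ t : J2 →ₗ[S] I, ∀ x, p (g x) = p (t (d x)) := by
  obtain ⟨t, ht⟩ := ht
  obtain ⟨w, hw⟩ := h'.lift (g' - t ∘ₗ d') (fun x => by simp [ht])
  obtain ⟨t', ht'⟩ := Module.projective_lifting_property p w h.surj
  refine ⟨t', fun x => h'.inj ?_⟩
  have : p (t' (d x)) = w (d x) := congrArg (fun f => f (d x)) ht'
  rw [this, hw, hg]
  simp [hd]

theorem tensor_basis_sum {V W : Type} [AddCommGroup V] [Module k V] [AddCommGroup W] [Module k W]
    {I : Type} [Fintype I] (β : Module.Basis I k V) (z : V ⊗[k] W) :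
    z = ∑ i, β i ⊗ₜ TensorProduct.lid k W (LinearMap.rTensor W (β.coord i) z) := by
  induction z using TensorProduct.induction_on with
  | zero => simp
  | tmul a x =>
    conv_lhs => rw [← β.sum_repr a, sum_tmul]
    simp [smul_tmul]
  | add a b ha hb =>
    conv_lhs => rw [ha, hb]
    simp [tmul_add, Finset.sum_add_distrib]

/-- The main data. -/
structure MainData (k B S : Type) [Field k] [Ring B] [Algebra k B] [FiniteDimensional k B]
    [Ring S] [Algebra k S] [FiniteDimensional k S] where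
  τ : SymForm k S
  G : Grading k B S
  χ : S →ₐ[k] k
  χh : ∀ l a, χ (G.h l a) = χ a
  H : k
  H0 : H ≠ 0
  hH : Function.Injective fun n : ℕ => H ^ n
  e : Bool → S
  e_idem : ∀ i, e i * e i = e i
  χe : ∀ i, χ (e i) = 0
  span : ∀ a, χ a = 0 → a ∈ Submodule.span k (Set.range fun p : S × Bool × S => p.1 * e p.2.1 * p.2.2)
  pK : Module.Projective B (K G.ι 4)
  fin : FinInj (K0 G.ι)
  hom0 : ∀ u : D G.ι G.ι (chr χ) 0, ∀ a, u.1 (toK G.ι a) = a • u.1 (toK G.ι 1)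
  ez : ∀ i, i < 3 → EZ B (K0 G.ι) ((chr χ).res G.ι) (i + 1)
  e4 : E1 k B (K0 G.ι) ((chr χ).res G.ι) 4
  ne4 : ¬ EZ B (K0 G.ι) ((chr χ).res G.ι) 4
  kill : ∀ i, ∃ (P : KMod k B) (a : K0 G.ι →ₗ[B] P) (b : P →ₗ[B] K0 G.ι),
    (∀ x, b (a x) = (r0 G.ι).toLin (e i) x) ∧ EZ B P ((chr χ).res G.ι) 4
  ezs : ∀ i, EZ B ((chr χ).res G.ι) ((chr χ).res G.ι) (i + 1)
  L : Ladder G.ι
  hξ : ext1 S ((toChr χ).toLinearMap ∘ₗ τ.t ∘ₗ (toK G.ι).symm.toLinearMap) L.ξ ≠ 0

theorem kill_of_factor {ι : R →ₐ[k] S} {R' : Type} [Ring R'] [Algebra k R'] {φ : R →ₐ[k] R'}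
    {X : Type} [AddCommGroup X] [Module k X] [Module R' X] [IsScalarTower k R' X] {e : S} {j : ℕ}
    {P : KMod k R} (a : K0 ι →ₗ[R] P) (b : P →ₗ[R] K0 ι) (hab : ∀ x, b (a x) = (r0 ι).toLin e x)
    (hP : ExtProp φ P X j) (u : D ι φ X (j + 1)) : e • u ∈ LinearMap.range (δ ι φ X j) := by
  obtain ⟨v, hv⟩ := hP (HomR.lin _ u.1 ∘ₗ mapN (isSemi_lin b) (j + 1)) (fun c y => by
    simp only [LinearMap.comp_apply]
    rw [isSemi_mapN (isSemi_lin b) (j + 1) c y]
    exact D.semi u _ _)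
  refine ⟨HomR.mk _ (v ∘ₗ mapN (isSemi_lin a) j), D.ext fun y => ?_⟩
  have h1 := hv (mapN (isSemi_lin a) (j + 1) y)
  rw [inc_mapN] at h1
  have h2 : (rK ι (j + 1)).toLin e y = mapN (isSemi_lin b) (j + 1) (mapN (isSemi_lin a) (j + 1) y) :=
    mapN_comp _ _ (r0_lin ι e) (fun _ => rfl) (fun x => (hab x).symm) _ y
  rw [δ_apply, HomR.lin_mk, ← extS_comp_lT]
  refine h1.trans ?_
  simp [h2]

theorem smul_mem_of_span {M : Type} [AddCommGroup M] [Module k M] [Module S M]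
    [IsScalarTower k S M] {I : Type} {e : I → S} (N : Submodule S M) (h : ∀ i m, e i • m ∈ N)
    {a : S} (ha : a ∈ Submodule.span k (Set.range fun p : S × I × S => p.1 * e p.2.1 * p.2.2))
    (m : M) : a • m ∈ N := by
  induction ha using Submodule.span_induction with
  | mem x hx =>
    obtain ⟨⟨a, i, b⟩, rfl⟩ := hx
    simp only [mul_smul]
    exact N.smul_mem _ (h _ _)
  | zero => simp
  | add x y _ _ hx hy => rw [add_smul]; exact N.add_mem hx hy
  | smul c x _ hx => rw [smul_assoc]; exact N.smul_of_tower_mem c hx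

namespace MainData

variable {B : Type} [Ring B] [Algebra k B] [FiniteDimensional k B] (M : MainData k B S)

/-- the simple module. -/
abbrev s : KMod k S := chr M.χ

theorem hs (l : k) (a : S) (x : M.s) : M.G.h l a • x = a • x := by
  rw [chr_smul, chr_smul, M.χh]

theorem extK (j : ℕ) (hj : j ≠ 3) : ExtProp M.G.ι (K0 M.G.ι) M.s j := by
  apply ExtProp.of_EZ
  rcases Nat.lt_or_ge j 3 with h | h
  · exact M.ez j h
  · obtain ⟨m, rfl⟩ : ∃ m, j = m + 4 := ⟨j - 4, by omega⟩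
    have := M.pK
    rw [show m + 4 + 1 = m + 1 + 4 by omega, EZ.syzN]
    exact EZ.of_proj _

theorem lift_s (j : ℕ) (u : M.s →ₗ[S] D M.G.ι M.G.ι M.s (j + 1)) :
    ∃ v : M.s →ₗ[S] J M.G.ι j M.s, ∀ m, δ _ _ _ j (v m) = u m :=
  homJ (ExtProp.of_EZ (M.ezs j)) u

theorem ses0 : SES (i0 M.G.ι M.s) (δ M.G.ι M.G.ι M.s 0) := i0_ses _ (M.extK 0 (by omega)) M.hom0

theorem sesj (j : ℕ) (hj : j ≠ 3) : SES (D M.G.ι M.G.ι M.s j).subtype (δ M.G.ι M.G.ι M.s j) :=
  δ_ses (M.extK j hj)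

theorem ez_D (n j : ℕ) (hj : 4 ≤ j) : EZ S M.s (D M.G.ι M.G.ι M.s j) (n + 1) := by
  induction n generalizing j with
  | zero => exact EZ.of_lift (M.sesj j (by omega)) (EZ.of_inj _) (M.lift_s j)
  | succ n ih => exact EZ.right_sub (M.sesj j (by omega)) (ih (j + 1) (by omega)) (EZ.of_inj _)

theorem low : ∀ n, 1 ≤ n → n ≤ 4 → EZ S M.s M.s n := by
  have := M.τ.selfInj
  refine theta_low M.ses0 (M.sesj 1 (by omega)) (M.sesj 2 (by omega)) (δ_ses' 3)
    (EZ.of_lift M.ses0 (EZ.of_inj _) (M.lift_s 0))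
    (EZ.of_lift (M.sesj 1 (by omega)) (EZ.of_inj _) (M.lift_s 1))
    (EZ.of_lift (M.sesj 2 (by omega)) (EZ.of_inj _) (M.lift_s 2))
    (EZ.of_lift (δ_ses' 3) (EZ.of_inj _) fun u => ?_)
  obtain ⟨v, hv⟩ := M.lift_s 3 (Submodule.subtype _ ∘ₗ u)
  exact ⟨v, fun m => Subtype.ext (hv m)⟩

theorem exists_q : ∃ q : D M.G.ι M.G.ι M.s 4 →ₗ[S] M.s,
    SES (LinearMap.range (δ M.G.ι M.G.ι M.s 3)).subtype q := by
  let N := LinearMap.range (δ M.G.ι M.G.ι M.s 3)
  obtain ⟨u0, hu0⟩ := E1.extend ((K0 M.G.ι).sesN 3) (E1.syzN (m := 0) 3 M.e4)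
  let w0 : D M.G.ι M.G.ι M.s 4 := D.mk _ (isSemi_ofRes u0)
  have h1 : ∀ w : D M.G.ι M.G.ι M.s 4, ∃ c : k, w - c • w0 ∈ N := by
    intro w
    obtain ⟨c, v, hv⟩ := hu0 (D.semi w).toRes
    refine ⟨c, HomR.mk _ _, D.ext fun y => ((isSemi_ofRes v).eq_extS _).trans ?_⟩
    have := congrArg (fun f => (M.s.toRes M.G.ι).symm (f y)) hv
    simp only [LinearMap.add_apply, LinearMap.smul_apply, map_add, map_smul] at this
    exact eq_sub_of_add_eq' this.symm
  have h2 : w0 ∉ N := by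
    intro h
    apply M.ne4
    apply ExtProp.to_EZ
    intro u hu
    obtain ⟨c, hc⟩ := h1 (D.mk u hu)
    obtain ⟨v, hv⟩ : D.mk u hu ∈ N := by
      have := N.add_mem hc (N.smul_of_tower_mem c h)
      rwa [sub_add_cancel] at this
    exact ⟨HomR.lin _ v, fun y => congrArg (fun w : D M.G.ι M.G.ι M.s 4 => w.1 y) hv⟩
  obtain ⟨l, hl, hl'⟩ := Submodule.exists_le_ker_of_notMem (p := N.restrictScalars k) h2
  have hl'' : ∀ w ∈ N, l w = 0 := fun w hw => hl' hw
  have h3 : ∀ (a : S) (w : D M.G.ι M.G.ι M.s 4), l (a • w) = M.χ a * l w := by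
    intro a w
    have := hl'' _ (smul_mem_of_span N (fun i m => by
      obtain ⟨P, a, b, hab, hP⟩ := M.kill i
      exact kill_of_factor a b hab (ExtProp.of_EZ hP) m)
      (M.span (a - algebraMap k S (M.χ a)) (by simp)) w)
    rw [sub_smul, algebraMap_smul, map_sub, sub_eq_zero, l.map_smul] at this
    exact this
  let q : D M.G.ι M.G.ι M.s 4 →ₗ[S] M.s :=
    { toFun := fun w => toChr M.χ (l w)
      map_add' := fun a b => by simp
      map_smul' := fun a w => by rw [h3, ← smul_eq_mul, map_smul]; rfl }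
  have hq : ∀ w, q w = toChr M.χ (l w) := fun _ => rfl
  refine ⟨q, SES.mk' Subtype.val_injective (fun x => ?_) (fun x => ?_) (fun w hw => ?_)⟩
  · obtain ⟨x, rfl⟩ := (toChr M.χ).surjective x
    refine ⟨(x / l w0) • w0, ?_⟩
    rw [hq, map_smul, smul_eq_mul, div_mul_cancel₀ _ hl]
  · rw [hq, Submodule.subtype_apply, hl'' _ x.2, map_zero]
  · obtain ⟨c, hc⟩ := h1 w
    have e1 : l w = 0 := (toChr M.χ).injective (by rw [← hq, hw, map_zero])
    have e2 := hl'' _ hc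
    rw [map_sub, map_smul, e1, zero_sub, neg_eq_zero, smul_eq_mul] at e2
    have e3 : c = 0 := (mul_eq_zero.1 e2).resolve_right hl
    rw [e3, zero_smul, sub_zero] at hc
    exact ⟨⟨w, hc⟩, rfl⟩

theorem ez_high (n : ℕ) (hn : 4 ≤ n) : EZ S (D M.G.ι M.G.ι M.s 4) M.s n := by
  have := M.τ.selfInj
  obtain ⟨q, hq⟩ := M.exists_q
  refine theta_main (k := k) M.ses0 (M.sesj 1 (by omega)) (M.sesj 2 (by omega)) (δ_ses' 3) hq
    (fun n => M.ez_D n 4 le_rfl) (fun u => ?_) M.low (chr_end _) n hn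
  obtain ⟨v, hv⟩ := M.lift_s 3 u
  ext m
  exact hq.apply_zero ⟨u m, v m, hv m⟩

/-- the generator of the first coinduced module. -/
def t0 : J M.G.ι 0 M.s :=
  HomR.mk _ ((toChr M.χ).toLinearMap ∘ₗ M.τ.t ∘ₗ (toK M.G.ι).symm.toLinearMap)

theorem t0_apply (a : S) : M.t0 (toK M.G.ι a) = toChr M.χ (M.τ.t a) := rfl

theorem t0_gen (u : J M.G.ι 0 M.s) : ∃ a : S, a • M.t0 = u := by
  obtain ⟨a, ha⟩ := M.τ.toDual_bij.2
    (HomR.mk _ ((toChr M.χ).symm.toLinearMap ∘ₗ HomR.lin _ u ∘ₗ (toK M.G.ι).toLinearMap))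
  refine ⟨a, HomR.ext fun y => ?_⟩
  obtain ⟨y, rfl⟩ := (toK M.G.ι).surjective y
  exact congrArg (fun w : CoInd k S k => toChr M.χ (w y)) ha

theorem e1_three : E1 k S (D M.G.ι M.G.ι M.s 4) M.s 3 := by
  have := M.τ.selfInj
  obtain ⟨q, hq⟩ := M.exists_q
  refine theta_three M.ses0 (M.sesj 1 (by omega)) (M.sesj 2 (by omega)) (δ_ses' 3) hq
    (M.low 3 (by omega) (by omega)) ?_
  rw [E1.zero_iff]
  refine span1_inj (fun u : J M.G.ι 0 M.s →ₗ[S] M.s => u M.t0) (fun _ _ => rfl) ?_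
    ⟨toChr M.χ 1, fun y => ⟨_, chr_eq _ y⟩⟩
  intro u v h
  ext w
  obtain ⟨a, rfl⟩ := M.t0_gen w
  simp only at h
  rw [map_smul, map_smul, h]

theorem ez_two : EZ S (D M.G.ι M.G.ι M.s 4) M.s 2 := by
  have := M.τ.selfInj
  obtain ⟨q, hq⟩ := M.exists_q
  let β := Module.finBasis k S
  let F := Bool × Fin (Module.finrank k S) → S
  let E : F →ₗ[S] F := LinearMap.pi fun i =>
    LinearMap.toSpanSingleton S S (M.e i.1) ∘ₗ LinearMap.proj i
  have hE : ∀ z i, E z i = z i * M.e i.1 := fun _ _ => rfl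
  have hEE : ∀ z, E (E z) = E z := fun z => funext fun i => by
    rw [hE, hE, mul_assoc, M.e_idem]
  have hP : Module.Projective S (LinearMap.range E) :=
    proj_of_retract (LinearMap.range E).subtype E.rangeRestrict (by
      rintro ⟨_, z, rfl⟩; exact Subtype.ext (hEE z))
  have : Module.Injective S (LinearMap.range E) := SelfInj.inj_of_proj (k := k) _
  have : Module.Injective S S := SelfInj.inj_of_proj (k := k) _
  let b0 : S →ₗ[S] M.s := LinearMap.toSpanSingleton S _ (toChr M.χ 1)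
  have hb0 : ∀ a, b0 a = toChr M.χ (M.χ a) := fun a => by
    simp [b0, chr_smul, ← map_smul]
  have hb0s : Function.Surjective b0 := fun x => by
    obtain ⟨x, rfl⟩ := (toChr M.χ).surjective x
    exact ⟨algebraMap k S x, by simp [hb0]⟩
  let g : F →ₗ[S] S := ∑ i, LinearMap.toSpanSingleton S S (β i.2) ∘ₗ LinearMap.proj i
  have hg : ∀ z : F, g z = ∑ i, z i * β i.2 := fun z => by
    simp only [g, LinearMap.coe_sum, Finset.sum_apply]; rfl
  let b1 : LinearMap.range E →ₗ[S] LinearMap.ker b0 :=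
    (g ∘ₗ (LinearMap.range E).subtype).codRestrict _ (by
      rintro ⟨_, z, rfl⟩
      simp [hb0, hg, hE, M.χe])
  have hb1 : Function.Surjective b1 := by
    rintro ⟨x, hx⟩
    have hx' : M.χ x = 0 := by simpa [hb0] using hx
    suffices ∃ z, g (E z) = x by
      obtain ⟨z, hz⟩ := this
      exact ⟨⟨E z, z, rfl⟩, Subtype.ext hz⟩
    have hsp := M.span x hx'
    clear hx hx'
    induction hsp using Submodule.span_induction with
    | mem x hx =>
      obtain ⟨⟨a, i, b⟩, rfl⟩ := hx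
      refine ⟨fun p => if p.1 = i then β.repr b p.2 • a else 0, ?_⟩
      rw [hg, Fintype.sum_prod_type, Finset.sum_eq_single i]
      · simp only [hE, if_true]
        conv_rhs => rw [← β.sum_repr b, Finset.mul_sum]
        simp
      · intro j _ hj
        simp [hE, hj]
      · simp
    | zero => exact ⟨0, by simp⟩
    | add x y _ _ hx hy =>
      obtain ⟨a, rfl⟩ := hx
      obtain ⟨b, rfl⟩ := hy
      exact ⟨a + b, by simp⟩
    | smul c x _ hx =>
      obtain ⟨a, rfl⟩ := hx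
      exact ⟨c • a, by simp⟩
  refine theta_two (SES.ker b0 hb0s) (SES.ker b1 hb1) ?_ M.ses0 (M.sesj 1 (by omega))
    (M.sesj 2 (by omega)) (δ_ses' 3) hq (M.low 2 (by omega) (by omega))
  rw [EZ.zero_iff]
  intro u
  ext x i
  obtain ⟨z, hz⟩ := (u x).2
  have h1 : ∀ a : S, a * (u x).1 i = M.χ a • (u x).1 i := fun a => by
    have := congrArg (fun w : LinearMap.range E => w.1 i) (u.map_smul a x)
    rw [chr_smul, LinearMap.map_smul_of_tower] at this
    exact this.symm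
  have h2 : (u x).1 i * M.e i.1 = (u x).1 i := by
    rw [← hz, hE, mul_assoc, M.e_idem]
  apply M.τ.nondeg
  intro b
  rw [h1, map_smul, ← h2, M.τ.symm, h1, M.χe]
  simp

theorem γ_ne : M.L.γ M.s ∉ PF k S _ _ := by
  have := M.τ.selfInj
  intro h
  let d (j : ℕ) : J M.G.ι j M.s →ₗ[S] J M.G.ι (j + 1) M.s := Submodule.subtype _ ∘ₗ δ _ M.G.ι _ j
  have hd : ∀ j x, d (j + 1) (d j x) = 0 := fun j x => congrArg Subtype.val (δ_D _)
  obtain ⟨t', -, ht'⟩ := PF.lift h _ (Ψ_ses (k := k) (S := S) (X := M.s) 2).surj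
  obtain ⟨t, ht⟩ := (inferInstance : Module.Injective S (J (AlgHom.id k S) 2 M.s)).out
    (D M.G.ι M.G.ι M.s 4).subtype Subtype.val_injective t'
  have r2 : ∃ t : J M.G.ι 4 M.s →ₗ[S] J (AlgHom.id k S) 2 M.s, ∀ x,
      δ _ (AlgHom.id k S) _ 2 (pull M.L.rl2 M.s x) = δ _ (AlgHom.id k S) _ 2 (t (d 3 x)) := by
    refine ⟨t, fun x => ?_⟩
    rw [show t (d 3 x) = t' (δ _ _ _ 3 x) from ht _, ht']
    exact Subtype.ext (δ_pull M.L.rl2 M.L.rl3 M.L.d3 x)
  have r1 := chase_step (Ψ_ses 1) (Ψ_ses 2) (hd 2) (δ_pull M.L.rl1 M.L.rl2 M.L.d2) r2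
  obtain ⟨t0, r0⟩ := chase_step Ψ_i0_ses (Ψ_ses 1) (hd 1) (δ_pull M.L.rl0 M.L.rl1 M.L.d1) r1
  obtain ⟨w, hw⟩ := (Ψ_i0_ses (k := k) (S := S) (X := M.s)).lift
    (pull M.L.rl0 M.s - t0 ∘ₗ d 1) (fun x => by simp [r0])
  apply M.hξ
  have e1 := congrArg (fun f : J (AlgHom.id k S) 0 M.s => f (toK _ 1)) (hw (d 0 M.t0))
  simp only [i0_apply, one_smul, LinearMap.sub_apply, LinearMap.comp_apply, hd, map_zero,
    sub_zero, pull_apply] at e1
  have e2 := ext1_dL M.G.ι 0 (HomR.lin _ M.t0) (M.L.σ0 (toK _ 1))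
  rw [M.L.d0, one_smul] at e2
  refine e2.trans (e1.symm.trans ?_)
  let w' : Module.Dual k (Module.Dual k (K M.G.ι 1)) :=
    (toChr M.χ).symm.toLinearMap ∘ₗ w.restrictScalars k ∘ₗ (HomR.lin _).symm.toLinearMap ∘ₗ
      LinearMap.llcomp k _ _ _ (toChr M.χ).toLinearMap
  obtain ⟨y, hy⟩ := (Module.evalEquiv k (K M.G.ι 1)).surjective w'
  have hwy : ∀ u : J M.G.ι 1 M.s, w u = u y := fun u => by
    have := congrArg (fun f => toChr M.χ (f ((toChr M.χ).symm.toLinearMap ∘ₗ HomR.lin _ u))) hy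
    exact this.symm
  have hy' : ∀ a, (rK M.G.ι 1).toLin a y = M.χ a • y := fun a => by
    rw [← sub_eq_zero, ← Module.forall_dual_apply_eq_zero_iff k]
    intro φ
    have h1 := hwy (a • HomR.mk _ ((toChr M.χ).toLinearMap ∘ₗ φ))
    rw [map_smul, hwy, chr_smul] at h1
    apply (toChr M.χ).injective
    rw [map_sub, map_sub, map_smul, map_smul, map_zero, sub_eq_zero]
    exact h1.symm
  rw [hwy]
  change extS M.G.ι (HomR.lin _ M.t0) ((K0 M.G.ι).inc 0 y) = 0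
  have hz : ∀ a, LinearMap.lTensor B ((rK M.G.ι 0).toLin a) ((K0 M.G.ι).inc 0 y) =
      M.χ a • (K0 M.G.ι).inc 0 y := fun a => by
    rw [← inc_rK, hy', LinearMap.map_smul_of_tower]
  have hz0 := (K0 M.G.ι).act_inc 0 y
  generalize (K0 M.G.ι).inc 0 y = z at hz hz0
  let β := Module.finBasis k B
  have hc : ∀ i a, (rK M.G.ι 0).toLin a (TensorProduct.lid k _ (LinearMap.rTensor _ (β.coord i) z))
      = M.χ a • TensorProduct.lid k _ (LinearMap.rTensor _ (β.coord i) z) := fun i a => by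
    rw [← map_smul, ← map_smul, ← hz]
    generalize z = z'
    induction z' using TensorProduct.induction_on with
    | zero => simp
    | tmul a x => simp
    | add a b ha hb => simp only [map_add, ha, hb]
  have h0 := congrArg (HomR.lin _ M.t0) hz0
  rw [map_zero] at h0
  rw [← h0, tensor_basis_sum β z, map_sum, map_sum, map_sum]
  refine Finset.sum_congr rfl fun i _ => ?_
  have := hc i (M.G.ι (β i))
  generalize TensorProduct.lid k _ (LinearMap.rTensor _ (β.coord i) z) = x at this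
  obtain ⟨x, rfl⟩ := (toK M.G.ι).surjective x
  rw [extS_tmul, act_tmul, smul_toK, t0_apply _ (_ * _), M.τ.symm, ← t0_apply, ← rK_zero, this,
    map_smul]
  rfl

end MainData

end

end Vale.Agent.P195
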