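import Vale.Agent.P195.Main

/-! Assembling the gluing data. -/

open TensorProduct

namespace Vale.Agent.P195

noncomputable section

variable {k : Type} [Field k] {S : Type} [Ring S] [Algebra k S] [FiniteDimensional k S]
variable {B : Type} [Ring B] [Algebra k B] [FiniteDimensional k B]

namespace Grading

variable (G : Grading k B S)

omit [FiniteDimensional k S] [FiniteDimensional k B] in
theorem h_inv {l l' : k} (hl : l * l' = 1) (a : S) : G.h l (G.h l' a) = a := by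
  rw [← G.h_mul, hl, G.h_one]

section
variable {R : Type} [Ring R] [Algebra k R] [FiniteDimensional k R] (ι : R →ₐ[k] S)

/-- the automorphism on the degree zero term. -/
def h0 (l : k) : K0 ι →ₗ[k] K0 ι :=
  (toK0 ι).toLinearMap ∘ₗ (G.h l).toLinearMap ∘ₗ (toK0 ι).symm.toLinearMap

omit [FiniteDimensional k B] [FiniteDimensional k R] in
theorem h0_apply (l : k) (x : S) : G.h0 ι l (toK0 ι x) = toK0 ι (G.h l x) := rfl

variable {ι} {φ φ' : R →ₐ[k] R}

omit [FiniteDimensional k B] [FiniteDimensional k R] in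
theorem h0_semi {l : k} (hφ : ∀ b, G.h l (ι b) = ι (φ b)) : IsSemi φ (G.h0 ι l) := fun b x => by
  obtain ⟨x, rfl⟩ := (toK0 ι).surjective x
  rw [smul_toK0, h0_apply, h0_apply, smul_toK0, map_mul, hφ]

omit [FiniteDimensional k B] in
theorem hN_rK {l : k} (hφ : ∀ b, G.h l (ι b) = ι (φ b)) (j : ℕ) (a : S) (y : K ι j) :
    mapN (G.h0_semi hφ) j ((rK ι j).toLin a y) =
      (rK ι j).toLin (G.h l a) (mapN (G.h0_semi hφ) j y) := by
  have hw : IsSemi φ (G.h0 ι l ∘ₗ (r0 ι).toLin a) := fun b x => by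
    rw [LinearMap.comp_apply, r0_lin ι a b x, G.h0_semi hφ]; rfl
  rw [show mapN (G.h0_semi hφ) j ((rK ι j).toLin a y) = mapN hw j y from
    (mapN_comp (r0_lin ι a) (G.h0_semi hφ) hw (fun _ => rfl) (fun _ => rfl) j y).symm]
  refine mapN_comp (G.h0_semi hφ) (r0_lin ι (G.h l a)) hw (fun _ => rfl) (fun x => ?_) j y
  obtain ⟨x, rfl⟩ := (toK0 ι).surjective x
  rw [LinearMap.comp_apply, r0_toK0, h0_apply, h0_apply, r0_toK0, map_mul]

omit [FiniteDimensional k B] in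
theorem hN_inv {l l' : k} (hl : l * l' = 1) (hφ : ∀ b, G.h l (ι b) = ι (φ b))
    (hφ' : ∀ b, G.h l' (ι b) = ι (φ' b)) (h : ∀ b, φ (φ' b) = b) (j : ℕ) (y : K ι j) :
    mapN (G.h0_semi hφ) j (mapN (G.h0_semi hφ') j y) = y := by
  have hw : IsSemi (AlgHom.id k R) (LinearMap.id : K0 ι →ₗ[k] K0 ι) := fun _ _ => rfl
  rw [← mapN_comp (G.h0_semi hφ') (G.h0_semi hφ) hw (fun b => (h b).symm) (fun x => by
    obtain ⟨x, rfl⟩ := (toK0 ι).surjective x
    rw [h0_apply, h0_apply, G.h_inv hl]; rfl) j y]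
  exact mapN_id hw (fun _ => rfl) (fun _ => rfl) j y

end

/-- the semilinear automorphism of the bimodule syzygies of the algebra. -/
def ηρ (l : k) (j : ℕ) : Kρ k S j →ₗ[k] Kρ k S j :=
  mapN (G.h0_semi (ι := AlgHom.id k S) (φ := G.h l) (l := l) fun _ => rfl) j

/-- the twisting map on the bimodule syzygies over the subalgebra. -/
def κ (l : k) (j : ℕ) : K G.ι j →ₗ[k] K G.ι j :=
  mapN (G.h0_semi (φ := AlgHom.id k B) (l := l) (G.h_ι l)) j

omit [FiniteDimensional k B] in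
theorem ηρ_smul (l : k) (j : ℕ) (a : S) (y : Kρ k S j) :
    G.ηρ l j (a • y) = G.h l a • G.ηρ l j y := isSemi_mapN _ j a y

omit [FiniteDimensional k B] in
theorem ηρ_r (l : k) (j : ℕ) (a : S) (y : Kρ k S j) :
    G.ηρ l j ((rρ k S j).toLin a y) = (rρ k S j).toLin (G.h l a) (G.ηρ l j y) :=
  G.hN_rK (ι := AlgHom.id k S) (φ := G.h l) (fun _ => rfl) j a y

omit [FiniteDimensional k B] in
theorem ηρ_inv {l l' : k} (hl : l * l' = 1) (j : ℕ) (y : Kρ k S j) :
    G.ηρ l j (G.ηρ l' j y) = y :=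
  G.hN_inv (ι := AlgHom.id k S) hl (fun _ => rfl) (fun _ => rfl) (G.h_inv hl) j y

theorem κ_smul (l : k) (j : ℕ) (b : B) (y : K G.ι j) : G.κ l j (b • y) = b • G.κ l j y :=
  isSemi_mapN _ j b y

theorem κ_r (l : k) (j : ℕ) (a : S) (y : K G.ι j) :
    G.κ l j ((rK G.ι j).toLin a y) = (rK G.ι j).toLin (G.h l a) (G.κ l j y) :=
  G.hN_rK (φ := AlgHom.id k B) (G.h_ι l) j a y

theorem κ_inv {l l' : k} (hl : l * l' = 1) (j : ℕ) (y : K G.ι j) :
    G.κ l j (G.κ l' j y) = y :=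
  G.hN_inv (φ := AlgHom.id k B) (φ' := AlgHom.id k B) hl (G.h_ι l) (G.h_ι l') (fun _ => rfl) j y

section
variable {X : Type} [AddCommGroup X] [Module k X] [Module S X] [IsScalarTower k S X]

theorem κs_semi (l : k) (j : ℕ) (u : D G.ι G.ι X j) : IsSemi G.ι (HomR.lin _ u.1 ∘ₗ G.κ l j) :=
  fun b y => by simp [κ_smul, D.semi u b]

/-- precomposition with the twisting map. -/
def κs (l : k) (j : ℕ) : D G.ι G.ι X j →+ D G.ι G.ι X j where
  toFun u := D.mk _ (G.κs_semi l j u)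
  map_zero' := rfl
  map_add' _ _ := rfl

theorem κs_apply (l : k) (j : ℕ) (u : D G.ι G.ι X j) (y : K G.ι j) :
    (G.κs l j u).1 y = u.1 (G.κ l j y) := rfl

theorem κs_smul {l l' : k} (hl : l * l' = 1) (j : ℕ) (a : S) (u : D G.ι G.ι X j) :
    G.κs l j (a • u) = G.h l' a • G.κs l j u := D.ext fun y => by
  simp [κs_apply, κ_r, G.h_inv hl]

theorem κs_inv {l l' : k} (hl : l * l' = 1) (j : ℕ) (u : D G.ι G.ι X j) :
    G.κs l' j (G.κs l j u) = u := D.ext fun y => by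
  rw [κs_apply, κs_apply, G.κ_inv hl]

omit [FiniteDimensional k B] in
theorem twD_semi {l l' : k} (hl : l' * l = 1) {e : X →ₗ[k] X} (he : IsSemi (G.h l') e) (j : ℕ)
    (w : Ψ k S X j) : IsSemi (AlgHom.id k S) (e ∘ₗ HomR.lin _ w.1 ∘ₗ G.ηρ l j) := fun a y => by
  have := D.semi w (G.h l a) (G.ηρ l j y)
  simp only [LinearMap.comp_apply, ηρ_smul, this, AlgHom.id_apply, he _ _, G.h_inv hl]

end

/-- the cosyzygy functor. -/
abbrev PF3 (k S : Type) [Field k] [Ring S] [Algebra k S] [FiniteDimensional k S] : KFun k S :=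
  DF (AlgHom.id k S) 3

/-- the comparison map from the twisted functor. -/
def ωm {l l' : k} (hl : l' * l = 1) {X : KMod k S} {e : X →ₗ[k] X} (he : IsSemi (G.h l') e) :
    ((PF3 k S).twist (G.h l)).obj X →ₗ[S] (PF3 k S).obj X where
  toFun w := D.mk _ (G.twD_semi hl he 3 w)
  map_add' _ _ := D.ext fun _ => e.map_add _ _
  map_smul' a w := D.ext fun y =>
    congrArg (fun t => e ((show Ψ k S X 3 from w).1 t)) (G.ηρ_r l 3 a y).symm

omit [FiniteDimensional k B] in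
theorem ωm_bij {l l' : k} (hl : l' * l = 1) {X : KMod k S} {e e' : X →ₗ[k] X}
    (he : IsSemi (G.h l') e) (he' : IsSemi (G.h l) e') (h1 : ∀ x, e (e' x) = x)
    (h2 : ∀ x, e' (e x) = x) : Function.Bijective (G.ωm hl he) := by
  have hl' : l * l' = 1 := by rw [mul_comm, hl]
  refine Function.bijective_iff_has_inverse.2
    ⟨fun w => D.mk _ (G.twD_semi hl' he' 3 w), fun w => D.ext fun y => ?_,
      fun w => D.ext fun y => ?_⟩
  · change e' (e ((show Ψ k S X 3 from w).1 (G.ηρ l 3 (G.ηρ l' 3 y)))) = _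
    rw [h2, G.ηρ_inv hl']
  · change e (e' ((show Ψ k S X 3 from w).1 (G.ηρ l' 3 (G.ηρ l 3 y)))) = _
    rw [h1, G.ηρ_inv hl]

omit [FiniteDimensional k B] in
theorem ωm_nat {l l' : k} (hl : l' * l = 1) {X Y : KMod k S} {e : X →ₗ[k] X} {e' : Y →ₗ[k] Y}
    (he : IsSemi (G.h l') e) (he' : IsSemi (G.h l') e') (u v : X →ₗ[S] Y)
    (h : ∀ x, u (e x) = e' (v x)) (w : ((PF3 k S).twist (G.h l)).obj X) :
    (PF3 k S).map u (G.ωm hl he w) = G.ωm hl he' (((PF3 k S).twist (G.h l)).map v w) :=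
  D.ext fun _ => h _

end Grading

namespace MainData

variable (M : MainData k B S)

theorem hl : M.H⁻¹ * M.H = 1 := inv_mul_cancel₀ M.H0

theorem hl' : M.H * M.H⁻¹ = 1 := mul_inv_cancel₀ M.H0

/-- the first natural map. -/
def γ1 : NatT (DF M.G.ι 4) (Grading.PF3 k S) where
  app X := M.L.γ X
  nat u x := M.L.γ_nat u x

/-- the second natural map. -/
def γ2 : NatT (DF M.G.ι 4) ((Grading.PF3 k S).twist (M.G.h M.H)) where
  app X :=
    { toFun := fun u => M.L.γ X (M.G.κs M.H⁻¹ 4 u)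
      map_add' := fun u v => (M.L.γ X).map_add (M.G.κs M.H⁻¹ 4 u) (M.G.κs M.H⁻¹ 4 v)
      map_smul' := fun a u => (congrArg (M.L.γ X) (M.G.κs_smul M.hl 4 a u)).trans
        ((M.L.γ X).map_smul _ _) }
  nat u x := M.L.γ_nat u (M.G.κs M.H⁻¹ 4 x)

/-- the inclusion. -/
def ν : NatT (DF M.G.ι 4) (JF M.G.ι 4) where
  app X := (D M.G.ι M.G.ι X 4).subtype
  nat _ _ := rfl

theorem exY : (DF M.G.ι 4).Exact := by
  have := M.pK
  exact DF_exact _ _

theorem ppY : (DF M.G.ι 4).PP := by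
  have := M.pK
  have := M.τ.selfInj
  exact FinInj.pp _ _ M.fin

/-- the comparison isomorphisms. -/
def ω (m : ℕ) : ((Grading.PF3 k S).twist (M.G.h M.H)).obj (M.s.syzN m) ≃ₗ[S]
    (Grading.PF3 k S).obj (M.s.syzN m) :=
  LinearEquiv.ofBijective _ (M.G.ωm_bij M.hl (M.G.η_semi M.hs M.H⁻¹ m) (M.G.η_semi M.hs M.H m)
    (fun x => by rw [← M.G.η_mul, M.hl, M.G.η_one]) (fun x => by rw [← M.G.η_mul, M.hl', M.G.η_one]))

/-- the semilinear map on free modules. -/
def ηP (m : ℕ) : (M.s.syzN m).free →ₗ[k] (M.s.syzN m).free :=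
  TensorProduct.map (M.G.h M.H⁻¹).toLinearMap (M.G.η M.hs M.H⁻¹ m)

theorem ηP_semi (m : ℕ) : IsSemi (M.G.h M.H⁻¹) (M.ηP m) := isSemi_map _ _

theorem ez_Y (m : ℕ) (hm : m ≠ 1) : EZ S ((DF M.G.ι 4).obj (M.s.syzN m)) (M.s.syzN 1) 3 := by
  have := M.τ.selfInj
  have : Module.Injective S (S ⊗[k] M.s.syzN 0) := SelfInj.inj_of_proj (k := k) _
  refine EZ.right_sub (M.s.sesN 0) (EZ.fun_syzN M.exY M.ppY m ?_) (EZ.of_inj _)
  rcases Nat.eq_zero_or_pos m with rfl | h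
  · exact M.ez_two
  · exact M.ez_high _ (by omega)

/-- the gluing data. -/
def glue : GlueData k S :=
  haveI := M.τ.selfInj
  { Y := DF M.G.ι 4
    P1 := Grading.PF3 k S
    P2 := (Grading.PF3 k S).twist (M.G.h M.H)
    L := JF M.G.ι 4
    γ1 := M.γ1
    γ2 := M.γ2
    ν := M.ν
    ν_inj := fun _ => Subtype.val_injective
    exY := M.exY
    ex1 := DF_exact _ _
    ex2 := fun _ _ _ _ _ h => (DF_exact (AlgHom.id k S) 3 h).res _
    exL := JF_exact _ _
    ppY := M.ppY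
    pp1 := fun P _ => Ψ_proj (X := P) 2
    pp2 := fun P _ =>
      haveI : Module.Projective S ((Grading.PF3 k S).obj P) := Ψ_proj (X := P) 2
      res_proj (M.G.h_inv M.hl') (M.G.h_inv M.hl) _
    ppL := fun X => inferInstanceAs (Module.Projective S (J M.G.ι 4 X))
    s := M.s
    faith := fun A u hu => Ψ_faith (X := A) (Y := M.s) 2 u hu
    full := fun A w => Ψ_full (X := A) (Y := M.s) 2 w
    ω0 := M.ω 0
    ω := M.ω
    ω_zero := rfl
    ωP := fun m => M.G.ωm M.hl (M.ηP_semi m)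
    ω_i := fun m x => M.G.ωm_nat M.hl (M.G.η_semi M.hs M.H⁻¹ (m + 1)) (M.ηP_semi m) _ _
      (fun _ => rfl) x
    ω_p := fun m x => M.G.ωm_nat M.hl (M.ηP_semi m) (M.G.η_semi M.hs M.H⁻¹ m) _ _
      (fun z => (M.G.η_semi M.hs M.H⁻¹ m).act_map z) x
    τ := M.G.tw M.hs M.H
    ω_τ := fun m u x => (M.G.ωm_nat M.hl (M.G.η_semi M.hs M.H⁻¹ m) (M.G.η_semi M.hs M.H⁻¹ 0)
      (M.G.tw M.hs M.H m u) u (fun y => congrArg u (by
        rw [← M.G.η_mul, M.hl', M.G.η_one])) x).symm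
    τ_surj := fun m => M.G.tw_surj M.hs M.hH m (M.ezs m)
    τ_inj := fun m => M.G.tw_inj M.hs M.hH m (M.ezs m)
    hend := chr_end _
    γ1_ne := M.γ_ne
    γ2_ne := fun h => M.γ_ne (PF.twist (M.G.h_inv M.hl') (M.G.h_inv M.hl) h (M.G.κs M.H 4)
      (M.G.κs_smul M.hl' 4) _ fun x => congrArg (M.L.γ M.s) (M.G.κs_inv M.hl' 4 x).symm)
    V0 := Ψ_E1 (X := M.s) M.e1_three M.γ_ne
    V1 := by
      have hP := M.ppY M.s.free inferInstance
      have : Module.Injective S (S ⊗[k] M.s.syzN 0) := SelfInj.inj_of_proj (k := k) _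
      have : Module.Projective S ((Grading.PF3 k S).obj M.s.free) := Ψ_proj (X := M.s.free) 2
      refine Ψ_E1 (X := M.s.syzN 1) (E1.right_sub (M.s.sesN 0)
        (E1.left_sub (M.exY M.s.fses) (EZ.of_proj _) M.e1_three) (EZ.of_inj _)) fun h => ?_
      have h' : M.γ1.app M.s.syz ∈ PF k S _ _ := h
      have h'' : M.γ1.app M.s ∈ PF k S _ _ :=
        ladder_up (M.exY M.s.fses) (DF_exact (AlgHom.id k S) 3 M.s.fses)
          (uP := M.γ1.app _) (fun x => (M.γ1.nat _ x).symm) (fun x => (M.γ1.nat _ x).symm) h'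
      exact M.γ_ne h''
    Vm := fun m hm => Ψ_EZ (X := M.s.syzN 1) (M.ez_Y m hm) }

include M in
theorem counter : ARCounter k :=
  haveI := M.τ.selfInj
  M.glue.counter

end MainData

end

end Vale.Agent.P195
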