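import Vale.Agent.P195.Main2

/-! Obstruction theory for the chain map. -/

open TensorProduct

namespace Vale.Agent.P195

noncomputable section

variable {k : Type} [Field k] {S : Type} [Ring S] [Algebra k S]

theorem lT_smul {V W : Type} [AddCommGroup V] [Module k V] [AddCommGroup W] [Module k W]
    (w : V →ₗ[k] W) (a : S) (z : S ⊗[k] V) :
    LinearMap.lTensor S w (a • z) = a • LinearMap.lTensor S w z := by
  induction z using TensorProduct.induction_on with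
  | zero => simp
  | tmul b x => simp [smul_tmul']
  | add a b ha hb => simp only [smul_add, map_add, ha, hb]

theorem lT_ext1 {U V W : Type} [AddCommGroup U] [Module k U] [AddCommGroup V] [Module k V]
    [AddCommGroup W] [Module k W] (w : V →ₗ[k] W) (σ : U →ₗ[k] S ⊗[k] V) (z : S ⊗[k] U) :
    LinearMap.lTensor S w (ext1 S σ z) = ext1 S (LinearMap.lTensor S w ∘ₗ σ) z := by
  induction z using TensorProduct.induction_on with
  | zero => simp
  | tmul b x => simp [lT_smul]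
  | add a b ha hb => simp only [map_add, ha, hb]

theorem tensor_eq_zero {V : Type} [AddCommGroup V] [Module k V] [FiniteDimensional k V]
    (z : S ⊗[k] V) (h : ∀ ψ : V →ₗ[k] k, ext1 S (Algebra.linearMap k S ∘ₗ ψ) z = 0) : z = 0 := by
  let β := Module.finBasis k V
  have : ∀ z : S ⊗[k] V, z = ∑ i, ext1 S (Algebra.linearMap k S ∘ₗ β.coord i) z ⊗ₜ β i := by
    intro z
    induction z using TensorProduct.induction_on with
    | zero => simp
    | tmul a x =>
      conv_lhs => rw [← β.sum_repr x, tmul_sum]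
      simp [← smul_tmul, Algebra.algebraMap_eq_smul_one, smul_tmul']
    | add a b ha hb =>
      conv_lhs => rw [ha, hb]
      simp [add_tmul, Finset.sum_add_distrib]
  rw [this z]
  simp [h]

theorem EZ.isotypic {χ : S →ₐ[k] k} {M : Type} [AddCommGroup M] [Module k M] [Module S M]
    [FiniteDimensional k M] (hM : ∀ (a : S) (m : M), a • m = χ a • m) {W : Type} [AddCommGroup W]
    [Module S W] {n : ℕ} (h : EZ S (chr χ) W n) : EZ S M W n := by
  let β := Module.finBasis k M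
  let e : M ≃ₗ[k] (Fin (Module.finrank k M) → chr χ) :=
    β.equivFun.trans (LinearEquiv.piCongrRight fun _ => toChr χ)
  let e' : M ≃ₗ[S] (Fin (Module.finrank k M) → chr χ) :=
    { e with
      map_smul' := fun a m => by
        change e (a • m) = a • e m
        rw [hM, map_smul]
        rfl }
  exact EZ.left_equiv e' (EZ.left_pi h _)

variable [FiniteDimensional k S]
variable {R : Type} [Ring R] [Algebra k R] [FiniteDimensional k R]

theorem ext1_inc_zero {M : Type} [AddCommGroup M] [Module k M] [Module S M] [IsScalarTower k S M]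
    {i : ℕ} {v : Kρ k S i →ₗ[k] M} (hv : IsSemi (AlgHom.id k S) v) (y : Kρ k S (i + 1)) :
    ext1 S v (iρ k S i y) = 0 := by
  rw [← extS_id, hv.extS_eq]
  simp

variable {ι : R →ₐ[k] S}

/-- the composite used in the obstruction theory. -/
def obs {i j : ℕ} (σ : Kρ k S i →ₗ[k] S ⊗[k] K ι j) : Kρ k S (i + 1) →ₗ[S] S ⊗[k] K ι j :=
  ext1 S σ ∘ₗ iρ k S i

theorem obs_apply {i j : ℕ} (σ : Kρ k S i →ₗ[k] S ⊗[k] K ι j) (y : Kρ k S (i + 1)) :
    obs σ y = ext1 S σ (iρ k S i y) := rfl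

theorem obs_rl {i j : ℕ} {σ : Kρ k S i →ₗ[k] S ⊗[k] K ι j}
    (hσ : IsRL (rρ k S i) ((rK ι j).lT S) σ) :
    IsRL (rρ k S (i + 1)) ((rK ι j).lT S) ((obs σ).restrictScalars k) := by
  intro a y
  simp only [LinearMap.restrictScalars_apply, obs_apply, RAct.lT_apply, lT_ext1]
  rw [inc_rK, ext1_lT]
  congr 2
  exact LinearMap.ext (hσ a)

theorem obs_cycle {i j : ℕ} {σ : Kρ k S i →ₗ[k] S ⊗[k] K ι (j + 1)}
    (h : IsSemi (AlgHom.id k S) ((dL ι j).restrictScalars k ∘ₗ σ)) (y : Kρ k S (i + 1)) :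
    dL ι j (obs σ y) = 0 := by
  rw [obs_apply, post_ext1]
  exact ext1_inc_zero h y

theorem semi_of_d {i j : ℕ} {σ : Kρ k S i →ₗ[k] S ⊗[k] K ι j}
    {σ' : Kρ k S (i + 1) →ₗ[k] S ⊗[k] K ι (j + 1)} (hd : ∀ y, dL ι j (σ' y) = obs σ y) :
    IsSemi (AlgHom.id k S) ((dL ι j).restrictScalars k ∘ₗ σ') := fun a y => by
  simp [hd]

theorem lift_step {i j : ℕ} {σ : Kρ k S i →ₗ[k] S ⊗[k] K ι j}
    (hσ : IsRL (rρ k S i) ((rK ι j).lT S) σ) (h : ∀ y, ∃ w, dL ι j w = obs σ y) :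
    ∃ σ' : Kρ k S (i + 1) →ₗ[k] S ⊗[k] K ι (j + 1),
      IsRL (rρ k S (i + 1)) ((rK ι (j + 1)).lT S) σ' ∧ ∀ y, dL ι j (σ' y) = obs σ y :=
  rK_rp _ (i + 1) _ _ _ _ _ (dL_rl ι j) _ (obs_rl hσ) h

section correct

variable (ι)

/-- the dual of the second syzygy. -/
abbrev Kst : Type := D ι (AlgHom.id k R) R 2

/-- right multiplication on the dual. -/
def Kst.rm (φ : Kst ι) (c : R) : Kst ι := Dmap ι _ 2 (LinearMap.toSpanSingleton R R c) φ

/-- the pairing. -/
def Θ : S ⊗[k] K ι 2 →ₗ[k] Kst ι →ₗ[k] S :=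
  LinearMap.flip
    { toFun := fun φ => (ext1 S (ι.toLinearMap ∘ₗ HomR.lin _ φ.1)).restrictScalars k
      map_add' := fun a b => by ext; simp [mul_add]
      map_smul' := fun c a => by
        ext x y
        change ext1 S (ι.toLinearMap ∘ₗ HomR.lin _ (c • a).1) (x ⊗ₜ[k] y) =
          c • ext1 S (ι.toLinearMap ∘ₗ HomR.lin _ a.1) (x ⊗ₜ[k] y)
        rw [ext1_tmul, ext1_tmul]
        change x • ι (c • a.1 y) = _
        simp }

variable {ι}

theorem Θ_apply (z : S ⊗[k] K ι 2) (φ : Kst ι) :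
    Θ ι z φ = ext1 S (ι.toLinearMap ∘ₗ HomR.lin _ φ.1) z := rfl

theorem Θ_tmul (a : S) (y : K ι 2) (φ : Kst ι) : Θ ι (a ⊗ₜ y) φ = a * ι (φ.1 y) := by
  simp [Θ_apply]

theorem Θ_smul (a : S) (z : S ⊗[k] K ι 2) (φ : Kst ι) : Θ ι (a • z) φ = a • Θ ι z φ := by
  simp [Θ_apply]

theorem Θ_r (a : S) (z : S ⊗[k] K ι 2) (φ : Kst ι) :
    Θ ι (((rK ι 2).lT S).toLin a z) φ = Θ ι z (a • φ) := by
  rw [Θ_apply, RAct.lT_apply, ext1_lT]; rfl

theorem Θ_dL (w : S ⊗[k] K ι 3) (φ : Kst ι) : Θ ι (dL ι 2 w) φ = 0 :=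
  ext1_dL_semi ι 2 (fun b y => by simp [D.semi φ b y]) w

theorem Θ_δ (z : S ⊗[k] K ι 2) (ψ : J ι 1 R) :
    Θ ι z (δ ι _ R 1 ψ) = ext1 S (ι.toLinearMap ∘ₗ HomR.lin _ ψ) (dL ι 1 z) := by
  rw [ext1_dL, Θ_apply]
  congr 2
  ext y
  simp only [LinearMap.comp_apply, δ_apply, LinearMap.restrictScalars_apply]
  generalize (K0 ι).inc 1 y = x
  induction x using TensorProduct.induction_on with
  | zero => simp
  | tmul b x => simp
  | add a b ha hb => simp only [map_add, ha, hb]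

theorem Θ_rm (z : S ⊗[k] K ι 2) (φ : Kst ι) (c : R) : Θ ι z (φ.rm ι c) = Θ ι z φ * ι c := by
  induction z using TensorProduct.induction_on with
  | zero => simp
  | tmul b x => simp [Θ_tmul, Kst.rm, mul_assoc]
  | add a b ha hb => simp only [map_add, LinearMap.add_apply, ha, hb, add_mul]

theorem exists_Kdual [Module.Projective R (K ι 2)] :
    ∃ (r : ℕ) (y : Fin r → K ι 2) (φ : Fin r → Kst ι), ∀ x, ∑ i, (φ i).1 x • y i = x := by
  obtain ⟨r, y, c, hc⟩ := exists_dualBasis k R (K ι 2)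
  exact ⟨r, y, fun i => D.mk _ (isSemi_lin (c i)), hc⟩

theorem Θ_inj [Module.Projective R (K ι 2)] (z : S ⊗[k] K ι 2) (hz : ∀ φ, Θ ι z φ = 0) :
    ∃ w, dL ι 2 w = z := by
  obtain ⟨r, y, φ, h⟩ := exists_Kdual (ι := ι)
  have : ∀ z : S ⊗[k] K ι 2, ∃ w, dL ι 2 w = z - ∑ i, Θ ι z (φ i) ⊗ₜ y i := by
    intro z
    induction z using TensorProduct.induction_on with
    | zero => exact ⟨0, by simp⟩
    | tmul a x =>
      refine ⟨-∑ i, a ⊗ₜ (K0 ι).rt 2 ((φ i).1 x ⊗ₜ y i), ?_⟩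
      rw [map_neg, map_sum]
      simp only [dL_rt, Finset.sum_sub_distrib, ← tmul_sum, h, Θ_tmul, neg_sub]
    | add a b ha hb =>
      obtain ⟨u, hu⟩ := ha
      obtain ⟨v, hv⟩ := hb
      refine ⟨u + v, ?_⟩
      simp only [map_add, hu, hv, LinearMap.add_apply, add_tmul, Finset.sum_add_distrib]
      abel
  simpa [hz] using this z

theorem Θ_surj [Module.Projective R (K ι 2)] (w : Kst ι →ₗ[k] S)
    (h1 : ∀ φ c, w (φ.rm ι c) = w φ * ι c) (h2 : ∀ ψ, w (δ ι _ R 1 ψ) = 0) :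
    ∃ z, dL ι 1 z = 0 ∧ Θ ι z = w := by
  obtain ⟨r, y, φ, h⟩ := exists_Kdual (ι := ι)
  have hΘ : Θ ι (∑ i, w (φ i) ⊗ₜ y i) = w := by
    ext ψ
    simp only [map_sum, LinearMap.coe_sum, Finset.sum_apply, Θ_tmul, ← h1]
    rw [← map_sum]
    congr 1
    refine D.ext fun x => ?_
    conv_rhs => rw [← h x]
    simp only [AddSubmonoidClass.coe_finsetSum, map_sum, LinearMap.coe_sum, Finset.sum_apply]
    exact Finset.sum_congr rfl fun i _ => (D.semi ψ _ _).symm
  refine ⟨_, tensor_eq_zero _ fun ψ => ?_, hΘ⟩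
  have := Θ_δ (∑ i, w (φ i) ⊗ₜ y i) (HomR.mk _ (Algebra.linearMap k R ∘ₗ ψ))
  rw [hΘ, h2] at this
  rw [this]
  congr 2
  ext x
  simp

/-- right action on maps out of a left module. -/
def RAct.pre (M V : Type) [AddCommGroup M] [Module k M] [Module S M] [IsScalarTower k S M]
    [AddCommGroup V] [Module k V] : RAct k S (M →ₗ[k] V) where
  toLin :=
    { toFun := fun a => LinearMap.lcomp k V (DistribSMul.toLinearMap k M a)
      map_add' := fun a b => by ext; simp [add_smul]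
      map_smul' := fun c a => by ext; simp }
  one w := by ext; simp
  mul a b w := by ext; simp [mul_smul]

/-- the annihilator module. -/
def Usub (ι : R →ₐ[k] S) (χ : S →ₐ[k] k) : Submodule S S where
  carrier := {a | ∀ c, a * ι c = χ (ι c) • a}
  zero_mem' := fun c => by simp
  add_mem' := fun {a b} ha hb c => by rw [add_mul, ha c, hb c, smul_add]
  smul_mem' := fun a b hb c => by rw [smul_eq_mul, mul_assoc, hb c, mul_smul_comm]

theorem Usub_semi (τ : SymForm k S) (χ : S →ₐ[k] k) (a : Usub ι χ) :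
    IsSemi ι ((toChr χ).toLinearMap ∘ₗ HomR.lin _ (τ.toDual a.1) ∘ₗ (toK ι).symm.toLinearMap) :=
  fun b y => by
    obtain ⟨y, rfl⟩ := (toK ι).surjective y
    rw [smul_toK]
    simp only [LinearMap.comp_apply, LinearEquiv.coe_coe, LinearEquiv.symm_apply_apply,
      SymForm.toDual_apply, chr_smul, ← map_smul]
    rw [mul_assoc, τ.symm, mul_assoc, a.2 b, mul_smul_comm]

theorem Usub_equiv (τ : SymForm k S) (χ : S →ₐ[k] k) :
    Nonempty (Usub ι χ ≃ₗ[S] D ι ι (chr χ) 0) := by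
  let F : Usub ι χ →ₗ[S] D ι ι (chr χ) 0 :=
    { toFun := fun a => D.mk _ (Usub_semi τ χ a)
      map_add' := fun a b => D.ext fun y => by simp
      map_smul' := fun a b => D.ext fun y => by
        obtain ⟨y, rfl⟩ := (toK ι).surjective y
        simp [rK_zero, mul_assoc] }
  have hF : ∀ a y, (F a).1 (toK ι y) = toChr χ (τ.t (y * a.1)) := fun _ _ => rfl
  refine ⟨LinearEquiv.ofBijective F ⟨?_, fun u => ?_⟩⟩
  · rw [injective_iff_map_eq_zero]
    intro a ha
    refine Subtype.ext (τ.nondeg _ fun b => (toChr χ).injective ?_)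
    rw [← hF, ha]
    simp
  · obtain ⟨a, ha⟩ := τ.toDual_bij.2
      (HomR.mk _ ((toChr χ).symm.toLinearMap ∘ₗ HomR.lin _ u.1 ∘ₗ (toK ι).toLinearMap))
    have ha' : ∀ y, toChr χ (τ.t (y * a)) = u.1 (toK ι y) := fun y =>
      congrArg (fun w : CoInd k S k => toChr χ (w y)) ha
    refine ⟨⟨a, fun c => ?_⟩, D.ext fun y => ?_⟩
    · rw [← sub_eq_zero]
      refine τ.nondeg _ fun b => (toChr χ).injective ?_
      rw [mul_sub, map_sub, ← mul_assoc, τ.symm, ← mul_assoc, mul_smul_comm, map_smul, map_sub,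
        map_smul, ha', ha', ← smul_toK, D.semi u, chr_smul, sub_self, map_zero]
    · obtain ⟨y, rfl⟩ := (toK ι).surjective y
      exact ha' y

theorem correct (τ : SymForm k S) (χ : S →ₐ[k] k) [Module.Projective R (K ι 2)] (e : R)
    (hspan : ∀ c, χ (ι c) = 0 →
      c ∈ Submodule.span k (Set.range fun p : R × Unit × R => p.1 * e * p.2.2))
    {U : Type} [AddCommGroup U] [Module R U] [hU : Module.Injective R U] (a : R →ₗ[R] U)
    (b : U →ₗ[R] R) (hab : ∀ c, b (a c) = c * e)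
    {P : KMod k R} [Module.Projective R P] (a' : K0 ι →ₗ[R] P) (b' : P →ₗ[R] K0 ι)
    (hab' : ∀ x, b' (a' x) = (r0 ι).toLin (ι e) x)
    (h1 : EZ R (K0 ι) ((chr χ).res ι) 1) (h2 : EZ R (chr (χ.comp ι)) ((chr χ).res ι) 2)
    {σ : Kρ k S 1 →ₗ[k] S ⊗[k] K ι 2} (hσ : IsRL (rρ k S 1) ((rK ι 2).lT S) σ)
    (hc : ∀ y, dL ι 1 (obs σ y) = 0) :
    ∃ σ' : Kρ k S 1 →ₗ[k] S ⊗[k] K ι 2, IsRL (rρ k S 1) ((rK ι 2).lT S) σ' ∧
      (∀ y, dL ι 1 (σ' y) = dL ι 1 (σ y)) ∧ ∀ y, ∃ w, dL ι 2 w = obs σ' y := by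
  have := τ.selfInj
  let N : Submodule S (Kst ι) := LinearMap.range (δ ι (AlgHom.id k R) R 1)
  let Rm : KMod k S := KMod.of k S (Kst ι ⧸ N)
  let mk : Kst ι →ₗ[S] Rm := N.mkQ
  have hmk : SES N.subtype mk := SES.quot N
  have r1 : ∀ (φ : Kst ι) (c : R), φ.rm ι c - χ (ι c) • φ ∈ N := by
    have key : ∀ c ∈ Submodule.span k (Set.range fun p : R × Unit × R => p.1 * e * p.2.2),
        ∀ φ : Kst ι, φ.rm ι c ∈ N := by
      intro c hc φ
      induction hc using Submodule.span_induction with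
      | mem x hx =>
        obtain ⟨⟨c1, _, c2⟩, rfl⟩ := hx
        obtain ⟨v, hv⟩ := hU.out ((K0 ι).inc 1) ((K0 ι).inc_inj 1)
          (a ∘ₗ LinearMap.toSpanSingleton R R c1 ∘ₗ (D.semi φ).toLin)
        refine ⟨HomR.mk _ _, D.ext fun y =>
          ((isSemi_lin (LinearMap.toSpanSingleton R R c2 ∘ₗ b ∘ₗ v)).eq_extS _).trans ?_⟩
        simp only [LinearMap.restrictScalars_apply, LinearMap.comp_apply, hv, hab]
        change (φ.1 y * c1 * e) * c2 = φ.1 y * (c1 * e * c2)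
        simp only [mul_assoc]
      | zero =>
        have : φ.rm ι 0 = 0 := D.ext fun y => by simp [Kst.rm]
        rw [this]; exact N.zero_mem
      | add x y _ _ hx hy =>
        have : φ.rm ι (x + y) = φ.rm ι x + φ.rm ι y := D.ext fun z => by simp [Kst.rm, mul_add]
        rw [this]; exact N.add_mem hx hy
      | smul c x _ hx =>
        have : φ.rm ι (c • x) = c • φ.rm ι x := D.ext fun z => by
          change φ.1 z * (c • x) = c • (φ.1 z * x)
          simp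
        rw [this]; exact N.smul_of_tower_mem c hx
    intro φ c
    have := key (c - algebraMap k R (χ (ι c))) (hspan _ (by simp)) φ
    convert this using 1
    refine D.ext fun z => ?_
    change φ.1 z * c - χ (ι c) • φ.1 z = φ.1 z * _
    simp [mul_sub, Algebra.algebraMap_eq_smul_one]
  have r2 : ∀ (c : R) (m : Rm.res ι), c • m = (χ.comp ι) c • m := by
    intro c m
    obtain ⟨φ, rfl⟩ := hmk.surj m
    have h3 : ι (c - algebraMap k R (χ (ι c))) ∈ Submodule.span k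
        (Set.range fun p : S × Unit × S => p.1 * (fun _ => ι e) p.2.1 * p.2.2) := by
      have := Submodule.mem_map_of_mem (f := ι.toLinearMap)
        (hspan (c - algebraMap k R (χ (ι c))) (by simp))
      rw [Submodule.map_span] at this
      refine Submodule.span_mono ?_ this
      rintro _ ⟨_, ⟨⟨x, u, y⟩, rfl⟩, rfl⟩
      exact ⟨(ι x, u, ι y), by simp⟩
    have h4 := smul_mem_of_span N (fun _ m =>
      kill_of_factor a' b' hab' (ExtProp.of_EZ_id (EZ.of_proj _)) m) h3 φ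
    have h5 : mk (ι (c - algebraMap k R (χ (ι c))) • φ) = 0 := hmk.apply_zero ⟨_, h4⟩
    rw [map_sub, AlgHom.commutes, sub_smul, algebraMap_smul, map_sub,
      sub_eq_zero, map_smul, LinearMap.map_smul_of_tower] at h5
    exact h5
  have r3 : EZ S Rm (Usub ι χ) 2 := by
    obtain ⟨E⟩ := Usub_equiv (ι := ι) τ χ
    refine EZ.right_equiv E (EZ.right_sub (δ_ses (ExtProp.of_EZ h1))
      (EZ.of_lift (δ_ses' 1) (EZ.of_inj _) fun u => ?_) (EZ.of_inj _))
    obtain ⟨v, hv⟩ := homJ (ExtProp.of_EZ (EZ.isotypic r2 h2)) (Submodule.subtype _ ∘ₗ u)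
    exact ⟨v, fun m => Subtype.ext (hv m)⟩
  have hN : ∀ y, ∀ φ ∈ N, Θ ι (obs σ y) φ = 0 := by
    rintro y _ ⟨ψ, rfl⟩
    rw [Θ_δ, hc, map_zero]
  have hmem : ∀ φ y, Θ ι (obs σ y) φ ∈ Usub ι χ := by
    intro φ y c
    have := hN y _ (r1 φ c)
    rwa [map_sub, Θ_rm, map_smul, sub_eq_zero] at this
  let F0 : Kst ι → Kρ k S 2 →ₗ[S] Usub ι χ := fun φ =>
    { toFun := fun y => ⟨Θ ι (obs σ y) φ, hmem φ y⟩
      map_add' := fun x y => Subtype.ext (by simp)
      map_smul' := fun x y => Subtype.ext (by simp [Θ_smul]) }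
  have hF0 : ∀ φ y, (F0 φ y).1 = Θ ι (obs σ y) φ := fun _ _ => rfl
  let F : Kst ι →ₗ[S] Ψ k S (Usub ι χ) 2 :=
    { toFun := fun φ => D.mk _ (isSemi_lin (F0 φ))
      map_add' := fun x y => D.ext fun z => Subtype.ext ((Θ ι (obs σ z)).map_add x y)
      map_smul' := fun x φ => D.ext fun z => Subtype.ext (by
        have := obs_rl hσ x z
        simp only [LinearMap.restrictScalars_apply] at this
        change Θ ι (obs σ z) (x • φ) = Θ ι (obs σ ((rρ k S 2).toLin x z)) φ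
        rw [this, Θ_r]) }
  obtain ⟨Fb, hFb⟩ := hmk.desc F (fun φ => D.ext fun y => Subtype.ext (hN y _ φ.2))
  obtain ⟨vb, hvb⟩ := EZ.lift (Ψ_ses 1) (EZ.right_quot Ψ_i0_ses (EZ.of_inj _) r3) Fb
  let v : Kρ k S 1 →ₗ[k] Kst ι →ₗ[k] S := LinearMap.flip
    (LinearMap.llcomp k _ _ _ ((Usub ι χ).subtype.restrictScalars k) ∘ₗ (HomR.lin _).toLinearMap ∘ₗ
      (vb ∘ₗ mk).restrictScalars k)
  have hv : ∀ y φ, v y φ = (vb (mk φ) y).1 := fun _ _ => rfl
  obtain ⟨t, ht, ht'⟩ := rK_rp (AlgHom.id k S) 1 _ _ ((rK ι 2).lT S)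
    (((rK ι 1).lT S).prod (RAct.pre (Kst ι) S)) (((dL ι 1).restrictScalars k).prod (Θ ι))
    (fun x z => Prod.ext (dL_rl ι 1 x z) (LinearMap.ext (Θ_r x z))) (LinearMap.prod 0 v)
    (fun x y => Prod.ext (by simp) (LinearMap.ext fun φ => by
      change v _ φ = v y (x • φ)
      rw [hv, hv, map_smul, map_smul]
      rfl))
    (fun y => by
      obtain ⟨z, hz, hz'⟩ := Θ_surj (v y) (fun φ c => by
        have := hmk.apply_zero ⟨_, r1 φ c⟩
        rw [Submodule.subtype_apply, map_sub, sub_eq_zero] at this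
        rw [hv, hv, this, (vb (mk φ) y).2 c, LinearMap.map_smul_of_tower,
          LinearMap.map_smul_of_tower]
        rfl) (fun ψ => by
        have := hmk.apply_zero ⟨_, ⟨ψ, rfl⟩⟩
        rw [Submodule.subtype_apply] at this
        rw [hv, this, map_zero]
        rfl)
      exact ⟨z, Prod.ext hz hz'⟩)
  have ht1 : ∀ y, dL ι 1 (t y) = 0 := fun y => congrArg Prod.fst (ht' y)
  have ht2 : ∀ y, Θ ι (t y) = v y := fun y => congrArg Prod.snd (ht' y)
  refine ⟨σ - t, fun x y => by simp [hσ x y, ht x y], fun y => by simp [ht1], fun y => ?_⟩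
  refine Θ_inj _ fun φ => ?_
  have e1 : (δ _ (AlgHom.id k S) _ 1 (vb (mk φ))).1 y = F0 φ y := by
    rw [hvb, hFb]; rfl
  rw [δ_apply, extS_id] at e1
  rw [obs_apply, ext1_sub, LinearMap.sub_apply, map_sub, LinearMap.sub_apply, ← obs_apply, ← hF0,
    ← e1, sub_eq_zero]
  generalize (K0 (AlgHom.id k S)).inc 1 y = x
  induction x using TensorProduct.induction_on with
  | zero => simp
  | tmul b x => simp [Θ_smul, ht2, hv]
  | add a b ha hb => simp only [map_add, LinearMap.add_apply, Submodule.coe_add, ha, hb]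

theorem exists_ladder (τ : SymForm k S) (χ : S →ₐ[k] k) [Module.Projective R (K ι 2)] (e : R)
    (hspan : ∀ c, χ (ι c) = 0 →
      c ∈ Submodule.span k (Set.range fun p : R × Unit × R => p.1 * e * p.2.2))
    {U : Type} [AddCommGroup U] [Module R U] [hU : Module.Injective R U] (a : R →ₗ[R] U)
    (b : U →ₗ[R] R) (hab : ∀ c, b (a c) = c * e)
    {P : KMod k R} [Module.Projective R P] (a' : K0 ι →ₗ[R] P) (b' : P →ₗ[R] K0 ι)
    (hab' : ∀ x, b' (a' x) = (r0 ι).toLin (ι e) x)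
    (h1 : EZ R (K0 ι) ((chr χ).res ι) 1) (h2 : EZ R (chr (χ.comp ι)) ((chr χ).res ι) 2)
    (h3 : EZ R (K0 ι) ((DualM k S).res ι) 1) (ξ : S ⊗[k] K ι 0)
    (hξ : ∀ x, ((rK ι 0).lT S).toLin x ξ = x • ξ) (hξ' : ∃ z, dL ι 0 z = ξ) :
    ∃ L : Ladder ι, L.ξ = ξ := by
  obtain ⟨z, hz⟩ := hξ'
  let σ0 : Kρ k S 0 →ₗ[k] S ⊗[k] K ι 1 :=
    ((rK ι 1).lT S).toLin.flip z ∘ₗ (toK _).symm.toLinearMap
  have hσ0 : ∀ x, σ0 (toK _ x) = ((rK ι 1).lT S).toLin x z := fun _ => rfl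
  have rl0 : IsRL (rρ k S 0) ((rK ι 1).lT S) σ0 := fun x y => by
    obtain ⟨y, rfl⟩ := (toK _).surjective y
    rw [rK_zero, hσ0, hσ0, RAct.mul]
  have d0 : ∀ x, dL ι 0 (σ0 (toK _ x)) = x • ξ := fun x => by
    rw [hσ0, ← hξ, ← hz]
    exact dL_rl ι 0 x z
  have hE : ∀ j, 2 ≤ j → ExtProp ι (K0 ι) (CoInd k S k) j := fun j hj => by
    obtain ⟨m, rfl⟩ : ∃ m, j = m + 2 := ⟨j - 2, by omega⟩
    refine ExtProp.of_EZ (X := DualM k S) ?_
    rw [show m + 2 + 1 = m + 1 + 2 by omega, EZ.syzN]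
    exact EZ.of_proj _
  obtain ⟨σ1, rl1, d1⟩ := lift_step rl0 fun y =>
    dL_exact ι 0 (ExtProp.of_EZ (X := DualM k S) h3) _ (obs_cycle (fun x y => by
      obtain ⟨y, rfl⟩ := (toK _).surjective y
      simp [smul_toK, d0, mul_smul]) y)
  obtain ⟨σ1', rl1', d1', h⟩ := correct τ χ e hspan a b hab a' b' hab' h1 h2 rl1
    (obs_cycle (semi_of_d d1))
  obtain ⟨σ2, rl2, d2⟩ := lift_step rl1' h
  obtain ⟨σ3, rl3, d3⟩ := lift_step rl2 fun y =>
    dL_exact ι 2 (hE 2 le_rfl) _ (obs_cycle (semi_of_d d2) y)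
  exact ⟨⟨ξ, σ0, σ1', σ2, σ3, rl0, rl1', rl2, rl3, d0, fun y => (d1' y).trans (d1 y), d2, d3,
    fun y => dL_exact ι 3 (hE 3 (by omega)) _ (obs_cycle (semi_of_d d3) y)⟩, rfl⟩

end correct

section push

variable {B : Type} [Ring B] [Algebra k B] [FiniteDimensional k B] (ιB : B →ₐ[k] S)
  (ι1 : R →ₐ[k] B)

omit [FiniteDimensional k R] [FiniteDimensional k B] in
theorem push_semi : IsSemi ι1 ((toK0 ιB).toLinearMap ∘ₗ (toK0 (ιB.comp ι1)).symm.toLinearMap) :=
  fun _ _ => rfl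

/-- the comparison of syzygies. -/
def pushK (j : ℕ) : K (ιB.comp ι1) j →ₗ[k] K ιB j := mapN (push_semi ιB ι1) j

theorem pushK_r (j : ℕ) (a : S) (y : K (ιB.comp ι1) j) :
    pushK ιB ι1 j ((rK _ j).toLin a y) = (rK ιB j).toLin a (pushK ιB ι1 j y) := by
  have hw : IsSemi ι1 ((r0 ιB).toLin a ∘ₗ (toK0 ιB).toLinearMap ∘ₗ
      (toK0 (ιB.comp ι1)).symm.toLinearMap) := fun b x => r0_lin ιB a (ι1 b) _
  exact (mapN_comp (r0_lin _ a) (push_semi ιB ι1) hw (fun _ => rfl) (fun _ => rfl) j y).symm.trans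
    (mapN_comp (push_semi ιB ι1) (r0_lin _ a) hw (fun _ => rfl) (fun _ => rfl) j y)

theorem pushL_rl (j : ℕ) :
    IsRL ((rK _ j).lT S) ((rK ιB j).lT S) (LinearMap.lTensor S (pushK ιB ι1 j)) := fun a z => by
  induction z using TensorProduct.induction_on with
  | zero => simp
  | tmul b x => simp [pushK_r]
  | add a b ha hb => simp only [map_add, ha, hb]

theorem dL_push (j : ℕ) (z : S ⊗[k] K (ιB.comp ι1) (j + 1)) :
    dL ιB j (LinearMap.lTensor S (pushK ιB ι1 (j + 1)) z) =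
      LinearMap.lTensor S (pushK ιB ι1 j) (dL _ j z) := by
  induction z using TensorProduct.induction_on with
  | zero => simp
  | tmul b x =>
    rw [LinearMap.lTensor_tmul, dL_tmul, dL_tmul, lT_smul, pushK, inc_mapN]
    congr 1
    generalize (K0 (ιB.comp ι1)).inc j x = w
    induction w using TensorProduct.induction_on with
    | zero => simp
    | tmul b x => simp [pushK]
    | add a b ha hb => simp only [map_add, ha, hb]
  | add a b ha hb => simp only [map_add, ha, hb]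

/-- pushing a ladder forward. -/
def Ladder.push (L : Ladder (ιB.comp ι1)) : Ladder ιB where
  ξ := LinearMap.lTensor S (pushK ιB ι1 0) L.ξ
  σ0 := LinearMap.lTensor S (pushK ιB ι1 1) ∘ₗ L.σ0
  σ1 := LinearMap.lTensor S (pushK ιB ι1 2) ∘ₗ L.σ1
  σ2 := LinearMap.lTensor S (pushK ιB ι1 3) ∘ₗ L.σ2
  σ3 := LinearMap.lTensor S (pushK ιB ι1 4) ∘ₗ L.σ3
  rl0 a y := by rw [LinearMap.comp_apply, L.rl0, pushL_rl]; rfl
  rl1 a y := by rw [LinearMap.comp_apply, L.rl1, pushL_rl]; rfl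
  rl2 a y := by rw [LinearMap.comp_apply, L.rl2, pushL_rl]; rfl
  rl3 a y := by rw [LinearMap.comp_apply, L.rl3, pushL_rl]; rfl
  d0 a := by rw [LinearMap.comp_apply, dL_push, L.d0, lT_smul]
  d1 y := by rw [LinearMap.comp_apply, dL_push, L.d1, lT_ext1]
  d2 y := by rw [LinearMap.comp_apply, dL_push, L.d2, lT_ext1]
  d3 y := by rw [LinearMap.comp_apply, dL_push, L.d3, lT_ext1]
  d4 y := by
    obtain ⟨w, hw⟩ := L.d4 y
    exact ⟨LinearMap.lTensor S (pushK ιB ι1 5) w, by rw [dL_push, hw, lT_ext1]⟩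

end push

end

end Vale.Agent.P195
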