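import Vale.Agent.P195.Syz

/-! Right actions, coinduced modules. -/

open TensorProduct

namespace Vale.Agent.P195

noncomputable section

variable {k : Type} [Field k]

/-- A right action of an algebra on a vector space. -/
structure RAct (k S M : Type) [Field k] [Ring S] [Algebra k S] [AddCommGroup M] [Module k M] where
  toLin : S →ₗ[k] M →ₗ[k] M
  one : ∀ x, toLin 1 x = x
  mul : ∀ a b x, toLin (a * b) x = toLin b (toLin a x)

variable {S : Type} [Ring S] [Algebra k S]

/-- right multiplication. -/
def RAct.rmul (k S : Type) [Field k] [Ring S] [Algebra k S] : RAct k S S where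
  toLin := (LinearMap.mul k S).flip
  one x := by simp
  mul a b x := by simp [mul_assoc]

@[simp] theorem RAct.rmul_apply (a x : S) : (RAct.rmul k S).toLin a x = x * a := rfl

section
variable {M N V : Type} [AddCommGroup M] [Module k M] [AddCommGroup N] [Module k N]
  [AddCommGroup V] [Module k V]

/-- right action on a tensor product through the second factor. -/
def RAct.lT (V : Type) [AddCommGroup V] [Module k V] (r : RAct k S M) : RAct k S (V ⊗[k] M) where
  toLin := LinearMap.lTensorHom V ∘ₗ r.toLin
  one x := by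
    induction x using TensorProduct.induction_on with
    | zero => simp
    | tmul a x => simp [r.one]
    | add a b ha hb => rw [map_add, ha, hb]
  mul a b x := by
    induction x using TensorProduct.induction_on with
    | zero => simp
    | tmul v x => simp [r.mul]
    | add a b ha hb => rw [map_add, ha, hb, map_add, map_add]

theorem RAct.lT_apply (r : RAct k S M) (a : S) (z : V ⊗[k] M) :
    (r.lT V).toLin a z = LinearMap.lTensor V (r.toLin a) z := rfl

@[simp] theorem RAct.lT_tmul (r : RAct k S M) (a : S) (v : V) (x : M) :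
    (r.lT V).toLin a (v ⊗ₜ x) = v ⊗ₜ r.toLin a x := rfl

/-- product of right actions. -/
def RAct.prod (r : RAct k S M) (r' : RAct k S N) : RAct k S (M × N) where
  toLin :=
    { toFun := fun a => (r.toLin a).prodMap (r'.toLin a)
      map_add' := fun a b => by ext <;> simp
      map_smul' := fun c a => by ext <;> simp }
  one x := by ext <;> simp [r.one, r'.one]
  mul a b x := by ext <;> simp [r.mul, r'.mul]

@[simp] theorem RAct.prod_apply (r : RAct k S M) (r' : RAct k S N) (a : S) (x : M × N) :
    (r.prod r').toLin a x = (r.toLin a x.1, r'.toLin a x.2) := rfl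

/-- right linearity. -/
abbrev IsRL (r : RAct k S M) (r' : RAct k S N) (u : M →ₗ[k] N) : Prop :=
  ∀ a x, u (r.toLin a x) = r'.toLin a (u x)

/-- linear maps out of a space with a right action form a left module. -/
def HomR (_r : RAct k S M) (V : Type) [AddCommGroup V] [Module k V] : Type := M →ₗ[k] V

namespace HomR

variable (r : RAct k S M)

instance : AddCommGroup (HomR r V) := inferInstanceAs (AddCommGroup (M →ₗ[k] V))
instance : Module k (HomR r V) := inferInstanceAs (Module k (M →ₗ[k] V))
instance [FiniteDimensional k M] [FiniteDimensional k V] : FiniteDimensional k (HomR r V) :=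
  inferInstanceAs (FiniteDimensional k (M →ₗ[k] V))

/-- the underlying linear map. -/
def lin : HomR r V ≃ₗ[k] (M →ₗ[k] V) := LinearEquiv.refl k _

/-- constructor. -/
def mk (u : M →ₗ[k] V) : HomR r V := u

variable {r}

instance : CoeFun (HomR r V) (fun _ => M → V) := ⟨fun u => lin r u⟩

@[simp] theorem lin_mk (u : M →ₗ[k] V) : lin r (mk r u) = u := rfl

@[ext] theorem ext {u v : HomR r V} (h : ∀ x, u x = v x) : u = v := LinearMap.ext h

theorem ext_lin {u v : HomR r V} (h : lin r u = lin r v) : u = v := h

instance : SMul S (HomR r V) := ⟨fun a u => mk r (lin r u ∘ₗ r.toLin a)⟩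

@[simp] theorem smul_apply (a : S) (u : HomR r V) (x : M) : (a • u) x = u (r.toLin a x) := rfl

instance : Module S (HomR r V) where
  one_smul u := by ext x; simp [r.one]
  mul_smul a b u := by ext x; simp [r.mul]
  smul_zero a := by ext x; simp
  smul_add a u v := by ext x; simp
  add_smul a b u := by ext x; simp
  zero_smul u := by ext x; simp

instance : IsScalarTower k S (HomR r V) := ⟨fun c a u => by ext x; simp⟩

/-- postcomposition. -/
def post {V' : Type} [AddCommGroup V'] [Module k V'] (r : RAct k S M) (w : V →ₗ[k] V') :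
    HomR r V →ₗ[S] HomR r V' where
  toFun u := mk r (w ∘ₗ lin r u)
  map_add' a b := by ext x; simp
  map_smul' a u := by ext x; simp

@[simp] theorem post_apply {V' : Type} [AddCommGroup V'] [Module k V'] (w : V →ₗ[k] V')
    (u : HomR r V) (x : M) : post r w u x = w (u x) := rfl

/-- precomposition with a right linear map. -/
def pre {r' : RAct k S N} (w : N →ₗ[k] M) (hw : IsRL r' r w) : HomR r V →ₗ[S] HomR r' V where
  toFun u := mk r' (lin r u ∘ₗ w)
  map_add' a b := by ext x; simp
  map_smul' a u := by ext x; simp [hw a x]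

@[simp] theorem pre_apply {r' : RAct k S N} (w : N →ₗ[k] M) (hw : IsRL r' r w)
    (u : HomR r V) (x : N) : pre w hw u x = u (w x) := rfl

end HomR

end

theorem inj_of_retract {R : Type} [Ring R] {Q Q' : Type} [AddCommGroup Q] [Module R Q]
    [AddCommGroup Q'] [Module R Q'] [h : Module.Injective R Q'] (a : Q →ₗ[R] Q') (b : Q' →ₗ[R] Q)
    (hab : ∀ x, b (a x) = x) : Module.Injective R Q where
  out X Y _ _ _ _ f hf g := by
    obtain ⟨v, hv⟩ := h.out f hf (a ∘ₗ g)
    exact ⟨b ∘ₗ v, fun x => by simp [hv, hab]⟩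

theorem proj_of_retract {R : Type} [Ring R] {Q Q' : Type} [AddCommGroup Q] [Module R Q]
    [AddCommGroup Q'] [Module R Q'] [Module.Projective R Q'] (a : Q →ₗ[R] Q') (b : Q' →ₗ[R] Q)
    (hab : ∀ x, b (a x) = x) : Module.Projective R Q :=
  Module.Projective.of_split a b (LinearMap.ext hab)

instance inj_prod {R : Type} [Ring R] {Q Q' : Type} [AddCommGroup Q] [Module R Q]
    [AddCommGroup Q'] [Module R Q'] [h : Module.Injective R Q] [h' : Module.Injective R Q'] :
    Module.Injective R (Q × Q') where
  out X Y _ _ _ _ f hf g := by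
    obtain ⟨v, hv⟩ := h.out f hf (LinearMap.fst R _ _ ∘ₗ g)
    obtain ⟨w, hw⟩ := h'.out f hf (LinearMap.snd R _ _ ∘ₗ g)
    exact ⟨v.prod w, fun x => by ext <;> simp [hv, hw]⟩

/-- the coinduced module. -/
abbrev CoInd (k S : Type) [Field k] [Ring S] [Algebra k S] (V : Type) [AddCommGroup V]
    [Module k V] : Type := HomR (RAct.rmul k S) V

instance coInd_inj (V : Type) [AddCommGroup V] [Module k V] : Module.Injective S (CoInd k S V) := by
  apply Module.Baer.injective
  intro I g
  let g0 : I.restrictScalars k →ₗ[k] V :=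
    { toFun := fun x => g ⟨x.1, x.2⟩ 1
      map_add' := fun a b => by
        have : (⟨(a + b).1, (a + b).2⟩ : I) = ⟨a.1, a.2⟩ + ⟨b.1, b.2⟩ := rfl
        rw [this, map_add]; simp
      map_smul' := fun c a => by
        have : (⟨(c • a).1, (c • a).2⟩ : I) = c • ⟨a.1, a.2⟩ := rfl
        rw [this, LinearMap.map_smul_of_tower]; simp }
  obtain ⟨G, hG⟩ := g0.exists_extend
  refine ⟨LinearMap.toSpanSingleton S _ (HomR.mk _ G), fun x hx => ?_⟩
  ext y
  have h1 : G (y * x) = g0 ⟨y * x, I.mul_mem_left y hx⟩ :=
    congrArg (fun f => f ⟨y * x, I.mul_mem_left y hx⟩) hG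
  have h2 : (⟨y * x, I.mul_mem_left y hx⟩ : I) = y • ⟨x, hx⟩ := rfl
  simp only [LinearMap.toSpanSingleton_apply, HomR.smul_apply, RAct.rmul_apply, HomR.lin_mk, h1]
  change g ⟨y * x, I.mul_mem_left y hx⟩ 1 = _
  rw [h2, map_smul]
  simp

/-- the canonical embedding into the coinduced module. -/
def toCoInd (k S : Type) [Field k] [Ring S] [Algebra k S] (X : Type) [AddCommGroup X] [Module k X]
    [Module S X] [IsScalarTower k S X] : X →ₗ[S] CoInd k S X where
  toFun x := HomR.mk _ ((LinearMap.toSpanSingleton S X x).restrictScalars k)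
  map_add' a b := by ext y; simp
  map_smul' a x := by ext y; simp [mul_smul]

@[simp] theorem toCoInd_apply {X : Type} [AddCommGroup X] [Module k X]
    [Module S X] [IsScalarTower k S X] (x : X) (a : S) : toCoInd k S X x a = a • x := rfl

theorem toCoInd_inj {X : Type} [AddCommGroup X] [Module k X]
    [Module S X] [IsScalarTower k S X] : Function.Injective (toCoInd k S X) := by
  intro a b h
  have := congrArg (fun u : CoInd k S X => u 1) h
  simpa using this

section syz

variable {R : Type} [Ring R] [Algebra k R] [FiniteDimensional k R]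

/-- the right action commutes with the left action. -/
def RAct.Lin {X : KMod k R} (r : RAct k S X) : Prop := ∀ a, IsSemi (AlgHom.id k R) (r.toLin a)

/-- the right action induced on iterated syzygies. -/
def RAct.syzN {X : KMod k R} (r : RAct k S X) (hr : r.Lin) (n : ℕ) : RAct k S (X.syzN n) where
  toLin :=
    { toFun := fun a => mapN (hr a) n
      map_add' := fun a b => LinearMap.ext fun y =>
        mapN_add (hr a) (hr b) (hr (a + b)) (fun x => by simp) n y
      map_smul' := fun c a => LinearMap.ext fun y =>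
        mapN_smul (hr a) (hr (c • a)) c (fun x => by simp) n y }
  one x := mapN_id (hr 1) (fun _ => rfl) r.one n x
  mul a b x := mapN_comp (hr a) (hr b) (hr (a * b)) (fun _ => rfl) (r.mul a b) n x

variable {X : KMod k R} (r : RAct k S X) (hr : r.Lin)

theorem RAct.syzN_apply (n : ℕ) (a : S) : (r.syzN hr n).toLin a = mapN (hr a) n := rfl

theorem RAct.syzN_lin (n : ℕ) : (r.syzN hr n).Lin := fun a => isSemi_mapN (hr a) n

theorem RAct.syzN_smul (n : ℕ) (a : S) (b : R) (y : X.syzN n) :
    (r.syzN hr n).toLin a (b • y) = b • (r.syzN hr n).toLin a y := r.syzN_lin hr n a b y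

theorem RAct.inc_rl (n : ℕ) :
    IsRL (r.syzN hr (n + 1)) ((r.syzN hr n).lT R) ((X.inc n).restrictScalars k) := fun _ _ => rfl

theorem RAct.inc_syzN (n : ℕ) (a : S) (y : X.syzN (n + 1)) :
    X.inc n ((r.syzN hr (n + 1)).toLin a y) = ((r.syzN hr n).lT R).toLin a (X.inc n y) := rfl

theorem RAct.rt_rl (n : ℕ) : IsRL ((r.syzN hr n).lT R) (r.syzN hr (n + 1)) (X.rt n) :=
  fun a z => (mapN_rt (hr a) n z).symm

theorem RAct.act_rl (n : ℕ) :
    IsRL ((r.syzN hr n).lT R) (r.syzN hr n) ((act k R (X.syzN n)).restrictScalars k) :=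
  fun a z => (r.syzN_lin hr n a).act_map z

end syz

/-- all modules of linear maps are injective. -/
def RAct.CoInj {M : Type} [AddCommGroup M] [Module k M] (r : RAct k S M) : Prop :=
  ∀ (V : Type) [AddCommGroup V] [Module k V], Module.Injective S (HomR r V)

/-- the lifting property of right projective modules. -/
def RAct.RP {K : Type} [AddCommGroup K] [Module k K] (r : RAct k S K) : Prop :=
  ∀ (M N : Type) [AddCommGroup M] [Module k M] [AddCommGroup N] [Module k N] (rM : RAct k S M)
    (rN : RAct k S N) (p : M →ₗ[k] N) (_ : IsRL rM rN p) (u : K →ₗ[k] N) (_ : IsRL r rN u)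
    (_ : ∀ y, ∃ m, p m = u y), ∃ v : K →ₗ[k] M, IsRL r rM v ∧ ∀ y, p (v y) = u y

section
variable {K K' : Type} [AddCommGroup K] [Module k K] [AddCommGroup K'] [Module k K']
  {r : RAct k S K} {r' : RAct k S K'}

theorem RAct.CoInj.retract (h : r.CoInj) (a : K' →ₗ[k] K) (b : K →ₗ[k] K') (ha : IsRL r' r a)
    (hb : IsRL r r' b) (hab : ∀ x, b (a x) = x) : r'.CoInj := by
  intro V _ _
  have := h V
  exact inj_of_retract (HomR.pre b hb) (HomR.pre a ha) (fun u => by ext x; simp [hab])

theorem RAct.CoInj.lT (h : r.CoInj) (W : Type) [AddCommGroup W] [Module k W] :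
    (r.lT W).CoInj := by
  intro V _ _
  have := h (W →ₗ[k] V)
  let a : HomR (r.lT W) V →ₗ[S] HomR r (W →ₗ[k] V) :=
    { toFun := fun u => HomR.mk r (TensorProduct.curry (HomR.lin _ u)).flip
      map_add' := fun u v => by ext x w; simp
      map_smul' := fun c u => by ext x w; simp }
  let b : HomR r (W →ₗ[k] V) →ₗ[S] HomR (r.lT W) V :=
    { toFun := fun u => HomR.mk _ (TensorProduct.lift (HomR.lin _ u).flip)
      map_add' := fun u v => by apply HomR.ext_lin; ext w x; simp
      map_smul' := fun c u => by apply HomR.ext_lin; ext w x; simp }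
  refine inj_of_retract a b fun u => ?_
  apply HomR.ext_lin; ext w x; simp [a, b]

theorem RAct.RP.retract (h : r.RP) (a : K' →ₗ[k] K) (b : K →ₗ[k] K') (ha : IsRL r' r a)
    (hb : IsRL r r' b) (hab : ∀ x, b (a x) = x) : r'.RP := by
  intro M N _ _ _ _ rM rN p hp u hu hm
  obtain ⟨v, hv, hpv⟩ := h M N rM rN p hp (u ∘ₗ b) (fun c x => by simp [hb c x, hu c])
    (fun y => hm _)
  exact ⟨v ∘ₗ a, fun c x => by simp [ha c x, hv c], fun y => by simp [hpv, hab]⟩

theorem RAct.RP.lT (h : r.RP) (W : Type) [AddCommGroup W] [Module k W] : (r.lT W).RP := by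
  intro M N _ _ _ _ rM rN p hp u hu hm
  let β := Module.Basis.ofVectorSpace k W
  have : ∀ i, ∃ v : K →ₗ[k] M, IsRL r rM v ∧ ∀ y, p (v y) = u (β i ⊗ₜ y) := fun i =>
    h M N rM rN p hp (u ∘ₗ TensorProduct.mk k W K (β i))
      (fun c x => by simpa using hu c (β i ⊗ₜ x)) (fun y => hm _)
  choose v hv hpv using this
  refine ⟨TensorProduct.lift (β.constr k v), fun c z => ?_, fun z => ?_⟩
  · have : TensorProduct.lift (β.constr k v) ∘ₗ (r.lT W).toLin c =
        rM.toLin c ∘ₗ TensorProduct.lift (β.constr k v) := by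
      apply TensorProduct.ext
      apply β.ext
      intro i
      ext y
      simp [hv i c y]
    exact congrArg (fun f => f z) this
  · have : p ∘ₗ TensorProduct.lift (β.constr k v) = u := by
      apply TensorProduct.ext
      apply β.ext
      intro i
      ext y
      simp [hpv]
    exact congrArg (fun f => f z) this

end

theorem RAct.rp_rmul : (RAct.rmul k S).RP := by
  intro M N _ _ _ _ rM rN p hp u hu hm
  obtain ⟨m, hm⟩ := hm 1
  refine ⟨rM.toLin.flip m, fun c x => by simp [rM.mul], fun y => ?_⟩
  have := hu y 1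
  simp only [RAct.rmul_apply, one_mul] at this
  simp [hp y m, hm, this]

theorem RAct.coInj_rmul : (RAct.rmul k S).CoInj := fun V _ _ => coInd_inj V

section
variable {R : Type} [Ring R] [Algebra k R] [FiniteDimensional k R]
variable {X : KMod k R} {r : RAct k S X} (hr : r.Lin)

theorem RAct.CoInj.syzN (h : r.CoInj) (n : ℕ) : (r.syzN hr n).CoInj := by
  induction n with
  | zero => exact h
  | succ n ih => exact (ih.lT R).retract _ _ (r.inc_rl hr n) (r.rt_rl hr n) (X.rt_inc n)

theorem RAct.RP.syzN (h : r.RP) (n : ℕ) : (r.syzN hr n).RP := by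
  induction n with
  | zero => exact h
  | succ n ih => exact (ih.lT R).retract _ _ (r.inc_rl hr n) (r.rt_rl hr n) (X.rt_inc n)

end

end

end Vale.Agent.P195
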