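import Vale.Agent.P195.RAct

/-! Symmetric algebras and maps factoring through projectives. -/

open TensorProduct

namespace Vale.Agent.P195

noncomputable section

variable {k : Type} [Field k] {S : Type} [Ring S] [Algebra k S]

/-- A symmetrizing form. -/
structure SymForm (k S : Type) [Field k] [Ring S] [Algebra k S] where
  t : S →ₗ[k] k
  symm : ∀ a b, t (a * b) = t (b * a)
  nondeg : ∀ a, (∀ b, t (b * a) = 0) → a = 0

/-- finite dimensional projectives and injectives coincide. -/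
class SelfInj (k S : Type) [Field k] [Ring S] [Algebra k S] : Prop where
  inj_of_proj : ∀ (X : Type) [AddCommGroup X] [Module k X] [Module S X] [IsScalarTower k S X]
    [FiniteDimensional k X] [Module.Projective S X], Module.Injective S X
  proj_of_inj : ∀ (X : Type) [AddCommGroup X] [Module k X] [Module S X] [IsScalarTower k S X]
    [FiniteDimensional k X] [Module.Injective S X], Module.Projective S X

namespace SymForm

variable (τ : SymForm k S)

/-- the map to the dual. -/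
def toDual : S →ₗ[S] CoInd k S k :=
  LinearMap.toSpanSingleton S _ (HomR.mk _ τ.t)

@[simp] theorem toDual_apply (a y : S) : τ.toDual a y = τ.t (y * a) := rfl

theorem toDual_inj : Function.Injective τ.toDual := by
  rw [injective_iff_map_eq_zero]
  intro a ha
  exact τ.nondeg a fun b => congrArg (fun u : CoInd k S k => u b) ha

variable [FiniteDimensional k S]

theorem toDual_bij : Function.Bijective τ.toDual := by
  refine ⟨τ.toDual_inj, ?_⟩
  have h : Module.finrank k S = Module.finrank k (CoInd k S k) :=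
    (Subspace.dual_finrank_eq (K := k) (V := S)).symm
  exact (LinearMap.injective_iff_surjective_of_finrank_eq_finrank h
    (f := τ.toDual.restrictScalars k)).1 τ.toDual_inj

/-- the isomorphism with the dual. -/
def dualEquiv : S ≃ₗ[S] CoInd k S k := LinearEquiv.ofBijective _ τ.toDual_bij

@[simp] theorem dualEquiv_apply (a y : S) : τ.dualEquiv a y = τ.t (y * a) := rfl

/-- free modules are coinduced. -/
def tensEquiv (V : Type) [AddCommGroup V] [Module k V] : S ⊗[k] V ≃ₗ[S] CoInd k S V :=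
  let e : S ⊗[k] V ≃ₗ[k] CoInd k S V :=
    (TensorProduct.congr ((τ.dualEquiv.restrictScalars k).trans (HomR.lin _))
      (LinearEquiv.refl k V)).trans ((dualTensorHomEquiv k S V).trans (HomR.lin _).symm)
  have he : ∀ (a : S) (v : V) (y : S), e (a ⊗ₜ v) y = τ.t (y * a) • v := by
    intro a v y
    simp [e]
  { e with
    map_smul' := fun c z => by
      induction z using TensorProduct.induction_on with
      | zero => simp
      | tmul a v =>
        ext y
        simp [smul_tmul', he, mul_assoc]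
      | add a b ha hb =>
        simp only [smul_add, AddHom.toFun_eq_coe, LinearMap.coe_toAddHom, map_add,
          RingHom.id_apply] at ha hb ⊢
        rw [ha, hb] }

include τ in
theorem selfInj : SelfInj k S where
  inj_of_proj X _ _ _ _ _ _ := by
    obtain ⟨s, hs⟩ := Module.projective_lifting_property (act k S X) LinearMap.id act_surj
    exact inj_of_retract ((τ.tensEquiv X).toLinearMap ∘ₗ s)
      (act k S X ∘ₗ (τ.tensEquiv X).symm.toLinearMap)
      (fun x => by simpa using congrArg (fun f => f x) hs)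
  proj_of_inj X _ _ _ _ _ h := by
    obtain ⟨v, hv⟩ := h.out (toCoInd k S X) toCoInd_inj LinearMap.id
    exact proj_of_retract ((τ.tensEquiv X).symm.toLinearMap ∘ₗ toCoInd k S X)
      (v ∘ₗ (τ.tensEquiv X).toLinearMap) (fun x => by simp [hv])

end SymForm

section pf

variable (k S)
variable (X Y : Type) [AddCommGroup X] [Module S X]
  [AddCommGroup Y] [Module k Y] [Module S Y] [IsScalarTower k S Y]

/-- maps factoring through a finite dimensional projective module. -/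
def PF : Submodule k (X →ₗ[S] Y) where
  carrier := {u | ∃ P : KMod k S, Module.Projective S P ∧
    ∃ (a : X →ₗ[S] P) (b : P →ₗ[S] Y), u = b ∘ₗ a}
  zero_mem' := ⟨KMod.of k S PUnit, inferInstance, 0, 0, by simp⟩
  add_mem' := by
    rintro u v ⟨P, hP, a, b, rfl⟩ ⟨Q, hQ, c, d, rfl⟩
    exact ⟨KMod.of k S (P × Q), inferInstance, a.prod c, b.coprod d, by ext; simp⟩
  smul_mem' := by
    rintro c u ⟨P, hP, a, b, rfl⟩
    exact ⟨P, hP, a, c • b, by ext; simp⟩

variable {k S X Y}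
variable {X' Y' : Type} [AddCommGroup X'] [Module S X']
  [AddCommGroup Y'] [Module k Y'] [Module S Y'] [IsScalarTower k S Y']

theorem PF.comp_right {u : X →ₗ[S] Y} (hu : u ∈ PF k S X Y) (w : X' →ₗ[S] X) :
    u ∘ₗ w ∈ PF k S X' Y := by
  obtain ⟨P, hP, a, b, rfl⟩ := hu
  exact ⟨P, hP, a ∘ₗ w, b, rfl⟩

theorem PF.comp_left {u : X →ₗ[S] Y} (hu : u ∈ PF k S X Y) (w : Y →ₗ[S] Y') :
    w ∘ₗ u ∈ PF k S X Y' := by
  obtain ⟨P, hP, a, b, rfl⟩ := hu
  exact ⟨P, hP, a, w ∘ₗ b, rfl⟩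

theorem PF.of_factor {P : Type} [AddCommGroup P] [Module k P] [Module S P] [IsScalarTower k S P]
    [FiniteDimensional k P] [h : Module.Projective S P] (a : X →ₗ[S] P) (b : P →ₗ[S] Y) :
    b ∘ₗ a ∈ PF k S X Y := ⟨KMod.of k S P, h, a, b, rfl⟩

theorem PF.of_factor' {P : Type} [AddCommGroup P] [Module k P] [Module S P] [IsScalarTower k S P]
    [FiniteDimensional k P] [h : Module.Projective S P] (a : X →ₗ[S] P) (b : P →ₗ[S] Y)
    {u : X →ₗ[S] Y} (hu : ∀ x, u x = b (a x)) : u ∈ PF k S X Y :=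
  ⟨KMod.of k S P, h, a, b, LinearMap.ext hu⟩

theorem PF.of_proj_tgt [FiniteDimensional k Y] [Module.Projective S Y] (u : X →ₗ[S] Y) :
    u ∈ PF k S X Y := PF.of_factor u LinearMap.id

theorem PF.of_proj_src [Module k X] [IsScalarTower k S X] [FiniteDimensional k X]
    [Module.Projective S X] (u : X →ₗ[S] Y) : u ∈ PF k S X Y := PF.of_factor LinearMap.id u

theorem PF.extend [SelfInj k S] {u : X →ₗ[S] Y} (hu : u ∈ PF k S X Y) (i : X →ₗ[S] X')
    (hi : Function.Injective i) : ∃ v ∈ PF k S X' Y, ∀ x, v (i x) = u x := by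
  obtain ⟨P, hP, a, b, rfl⟩ := hu
  obtain ⟨a', ha'⟩ := (SelfInj.inj_of_proj (k := k) (S := S) P).out i hi a
  exact ⟨b ∘ₗ a', ⟨P, hP, a', b, rfl⟩, fun x => by simp [ha']⟩

theorem PF.lift {u : X →ₗ[S] Y} (hu : u ∈ PF k S X Y) (p : Y' →ₗ[S] Y)
    (hp : Function.Surjective p) : ∃ v ∈ PF k S X Y', ∀ x, p (v x) = u x := by
  obtain ⟨P, hP, a, b, rfl⟩ := hu
  obtain ⟨b', hb'⟩ := Module.projective_lifting_property p b hp
  exact ⟨b' ∘ₗ a, ⟨P, hP, a, b', rfl⟩, fun x => by rw [← hb']; rfl⟩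

theorem PF.coprod {u : X →ₗ[S] Y} {v : X' →ₗ[S] Y} (hu : u ∈ PF k S X Y) (hv : v ∈ PF k S X' Y) :
    u.coprod v ∈ PF k S (X × X') Y := by
  have : u.coprod v = u ∘ₗ LinearMap.fst S X X' + v ∘ₗ LinearMap.snd S X X' := by ext <;> simp
  rw [this]
  exact add_mem (PF.comp_right hu _) (PF.comp_right hv _)

theorem PF.prod {u : X →ₗ[S] Y} {v : X →ₗ[S] Y'} (hu : u ∈ PF k S X Y) (hv : v ∈ PF k S X Y') :
    u.prod v ∈ PF k S X (Y × Y') := by
  have : u.prod v = LinearMap.inl S Y Y' ∘ₗ u + LinearMap.inr S Y Y' ∘ₗ v := by ext <;> simp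
  rw [this]
  exact add_mem (PF.comp_left hu _) (PF.comp_left hv _)

theorem PF.of_comp_equiv {u : X →ₗ[S] Y} (e : X' ≃ₗ[S] X)
    (hu : u ∘ₗ e.toLinearMap ∈ PF k S X' Y) : u ∈ PF k S X Y := by
  have := PF.comp_right hu e.symm.toLinearMap
  convert this using 1
  ext; simp

theorem PF.of_equiv_comp {u : X →ₗ[S] Y} (e : Y ≃ₗ[S] Y')
    (hu : e.toLinearMap ∘ₗ u ∈ PF k S X Y') : u ∈ PF k S X Y := by
  have := PF.comp_left hu e.symm.toLinearMap
  convert this using 1
  ext; simp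

end pf

section ladder

variable {A0 A1 P B0 B1 Q : Type}
  [AddCommGroup A0] [Module S A0] [AddCommGroup A1] [Module S A1]
  [AddCommGroup P] [Module k P] [Module S P] [IsScalarTower k S P] [FiniteDimensional k P]
  [AddCommGroup B0] [Module k B0] [Module S B0] [IsScalarTower k S B0]
  [AddCommGroup B1] [Module k B1] [Module S B1] [IsScalarTower k S B1]
  [AddCommGroup Q] [Module k Q] [Module S Q] [IsScalarTower k S Q] [FiniteDimensional k Q]
  {iA : A1 →ₗ[S] P} {pA : P →ₗ[S] A0} {iB : B1 →ₗ[S] Q} {pB : Q →ₗ[S] B0}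

theorem ladder_down [Module.Projective S P] (hA : SES iA pA) (hB : SES iB pB) {u1 : A1 →ₗ[S] B1}
    {uP : P →ₗ[S] Q} {u0 : A0 →ₗ[S] B0} (h1 : ∀ x, iB (u1 x) = uP (iA x))
    (h0 : ∀ y, pB (uP y) = u0 (pA y)) (hu : u0 ∈ PF k S A0 B0) : u1 ∈ PF k S A1 B1 := by
  obtain ⟨v, -, hv⟩ := PF.lift hu pB hB.surj
  obtain ⟨w, hw⟩ := hB.lift (uP - v ∘ₗ pA) (fun y => by simp [h0, hv])
  refine PF.of_factor' iA w fun x => hB.inj ?_
  simp [hw, h1, hA.apply_zero]

theorem ladder_up [SelfInj k S] [Module.Projective S Q] (hA : SES iA pA) (hB : SES iB pB)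
    {u1 : A1 →ₗ[S] B1} {uP : P →ₗ[S] Q} {u0 : A0 →ₗ[S] B0} (h1 : ∀ x, iB (u1 x) = uP (iA x))
    (h0 : ∀ y, pB (uP y) = u0 (pA y)) (hu : u1 ∈ PF k S A1 B1) : u0 ∈ PF k S A0 B0 := by
  obtain ⟨w, -, hw⟩ := PF.extend hu iA hA.inj
  obtain ⟨v, hv⟩ := hA.desc (uP - iB ∘ₗ w) (fun y => by simp [h1, hw])
  refine PF.of_factor' v pB fun x => ?_
  obtain ⟨y, rfl⟩ := hA.surj x
  simp [hv, h0, hB.apply_zero]

omit [Module k P] [IsScalarTower k S P] [FiniteDimensional k P] [Module k B0]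
  [IsScalarTower k S B0] [Module k B1] [IsScalarTower k S B1] [Module k Q] [IsScalarTower k S Q]
  [FiniteDimensional k Q] in
theorem exists_down [Module.Projective S P] (hA : SES iA pA) (hB : SES iB pB)
    (u0 : A0 →ₗ[S] B0) : ∃ (u1 : A1 →ₗ[S] B1) (uP : P →ₗ[S] Q),
      (∀ x, iB (u1 x) = uP (iA x)) ∧ ∀ y, pB (uP y) = u0 (pA y) := by
  obtain ⟨uP, hP⟩ := Module.projective_lifting_property pB (u0 ∘ₗ pA) hB.surj
  have h0 : ∀ y, pB (uP y) = u0 (pA y) := fun y => congrArg (fun f => f y) hP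
  obtain ⟨u1, h1⟩ := hB.lift (uP ∘ₗ iA) (fun x => by simp [h0, hA.apply_zero])
  exact ⟨u1, uP, h1, h0⟩

omit [Module k P] [IsScalarTower k S P] [FiniteDimensional k P] [Module k B0]
  [IsScalarTower k S B0] [Module k B1] [IsScalarTower k S B1] [Module k Q] [IsScalarTower k S Q]
  [FiniteDimensional k Q] in
theorem exists_up [hQ : Module.Injective S Q] (hA : SES iA pA) (hB : SES iB pB)
    (u1 : A1 →ₗ[S] B1) : ∃ (u0 : A0 →ₗ[S] B0) (uP : P →ₗ[S] Q),
      (∀ x, iB (u1 x) = uP (iA x)) ∧ ∀ y, pB (uP y) = u0 (pA y) := by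
  obtain ⟨uP, hP⟩ := hQ.out iA hA.inj (iB ∘ₗ u1)
  obtain ⟨u0, h0⟩ := hA.desc (pB ∘ₗ uP) (fun x => by simp [hP, hB.apply_zero])
  exact ⟨u0, uP, fun x => (hP x).symm, fun y => (h0 y).symm⟩

end ladder

section les

variable {A B C X X1 Q : Type}
  [AddCommGroup A] [Module S A] [AddCommGroup B] [Module S B] [AddCommGroup C] [Module S C]
  [AddCommGroup X] [Module k X] [Module S X] [IsScalarTower k S X]
  [AddCommGroup X1] [Module k X1] [Module S X1] [IsScalarTower k S X1]
  [AddCommGroup Q] [Module k Q] [Module S Q] [IsScalarTower k S Q] [FiniteDimensional k Q]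
  {i : A →ₗ[S] B} {p : B →ₗ[S] C} {j : X1 →ₗ[S] Q} {q : Q →ₗ[S] X}

theorem les2 [SelfInj k S] [Module.Projective S Q] (h : SES i p) (hX : SES j q)
    (hs : ∀ u : A →ₗ[S] X1, ∃ v : B →ₗ[S] X1, u - v ∘ₗ i ∈ PF k S A X1) (c : C →ₗ[S] X)
    (hc : c ∘ₗ p ∈ PF k S B X) : c ∈ PF k S C X := by
  obtain ⟨b, -, hb⟩ := PF.lift hc q hX.surj
  obtain ⟨u, hu⟩ := hX.lift (b ∘ₗ i) (fun x => by simp [hb, h.apply_zero])
  obtain ⟨v, hv⟩ := hs u
  obtain ⟨w, -, hw⟩ := PF.extend hv i h.inj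
  obtain ⟨d, hd⟩ := h.desc (b - j ∘ₗ (v + w)) (fun x => by simp [hw, hu])
  refine PF.of_factor' d q fun x => ?_
  obtain ⟨y, rfl⟩ := h.surj x
  simp [hd, hb, hX.apply_zero]

omit [Module k X1] [IsScalarTower k S X1] in
theorem PF.of_EZ [Module.Projective S Q] (hX : SES j q) (h : EZ S A X1 1) (u : A →ₗ[S] X) :
    u ∈ PF k S A X := by
  obtain ⟨v, hv⟩ := EZ.lift hX h u
  exact PF.of_factor' v q fun x => (hv x).symm

omit [Module k X1] [IsScalarTower k S X1] in
theorem PF.of_E1 [Module.Projective S Q] (hX : SES j q) (h : E1 k S A X1 1) {γ : A →ₗ[S] X}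
    (hγ : γ ∉ PF k S A X) (u : A →ₗ[S] X) : ∃ c : k, u - c • γ ∈ PF k S A X := by
  obtain ⟨u0, hu0⟩ := E1.lift hX h
  obtain ⟨c, v, hc⟩ := hu0 γ
  obtain ⟨d, w, hd⟩ := hu0 u
  have hc0 : c ≠ 0 := by
    rintro rfl
    apply hγ
    rw [hc, zero_smul, zero_add]
    exact PF.of_factor v q
  refine ⟨d / c, ?_⟩
  have : u - (d / c) • γ = q ∘ₗ w - (d / c) • (q ∘ₗ v) := by
    rw [hc, hd, smul_add, smul_smul, div_mul_cancel₀ _ hc0]
    abel
  rw [this]
  exact sub_mem (PF.of_factor w q) (Submodule.smul_mem _ _ (PF.of_factor v q))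

end les

theorem proj_of_ses {A B C : Type} [AddCommGroup A] [Module S A] [AddCommGroup B] [Module S B]
    [AddCommGroup C] [Module S C] {i : A →ₗ[S] B} {p : B →ₗ[S] C} (h : SES i p)
    [hA : Module.Injective S A] [Module.Projective S B] : Module.Projective S C := by
  obtain ⟨r, hr⟩ := hA.out i h.inj LinearMap.id
  obtain ⟨s, hs⟩ := h.desc (LinearMap.id - i ∘ₗ r) (fun x => by simp [hr])
  refine proj_of_retract s p fun x => ?_
  obtain ⟨y, rfl⟩ := h.surj x
  simp [hs, h.apply_zero]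

theorem inj_of_ses {A B C : Type} [AddCommGroup A] [Module S A] [AddCommGroup B] [Module S B]
    [AddCommGroup C] [Module S C] {i : A →ₗ[S] B} {p : B →ₗ[S] C} (h : SES i p)
    [Module.Injective S B] [Module.Projective S C] : Module.Injective S A := by
  obtain ⟨s, hs⟩ := Module.projective_lifting_property p LinearMap.id h.surj
  have hs' : ∀ x, p (s x) = x := fun x => congrArg (fun f => f x) hs
  obtain ⟨r, hr⟩ := h.lift (LinearMap.id - s ∘ₗ p) (fun x => by simp [hs'])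
  refine inj_of_retract i r fun x => h.inj ?_
  simp [hr, h.apply_zero]

end

end Vale.Agent.P195
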