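import Vale.Agent.P195.ExtZ

/-! Canonical syzygies, their functoriality, right actions and coinduced modules. -/

open TensorProduct

namespace Vale.Agent.P195

noncomputable section

/-- A bundled finite dimensional module over an algebra. -/
structure KMod (k R : Type) [Field k] [Ring R] [Algebra k R] : Type 1 where
  carrier : Type
  [acg : AddCommGroup carrier]
  [modk : Module k carrier]
  [modR : Module R carrier]
  [tower : IsScalarTower k R carrier]
  [fin : FiniteDimensional k carrier]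

attribute [instance] KMod.acg KMod.modk KMod.modR KMod.tower KMod.fin

instance (k R : Type) [Field k] [Ring R] [Algebra k R] : CoeSort (KMod k R) Type :=
  ⟨KMod.carrier⟩

variable {k : Type} [Field k]

/-- bundling. -/
abbrev KMod.of (k R : Type) [Field k] [Ring R] [Algebra k R] (X : Type) [AddCommGroup X]
    [Module k X] [Module R X] [IsScalarTower k R X] [FiniteDimensional k X] : KMod k R := ⟨X⟩

instance finSub {R : Type} [Ring R] [Algebra k R] {M : Type} [AddCommGroup M] [Module k M]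
    [Module R M] [IsScalarTower k R M] [FiniteDimensional k M] (N : Submodule R M) :
    FiniteDimensional k N :=
  FiniteDimensional.of_injective (N.subtype.restrictScalars k) Subtype.val_injective

instance finQuot {R : Type} [Ring R] [Algebra k R] {M : Type} [AddCommGroup M] [Module k M]
    [Module R M] [IsScalarTower k R M] [FiniteDimensional k M] (N : Submodule R M) :
    FiniteDimensional k (M ⧸ N) :=
  Module.Finite.of_surjective (N.mkQ.restrictScalars k) N.mkQ_surjective

section res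

variable {R S : Type} [Ring R] [Algebra k R] [Ring S] [Algebra k S]

/-- restriction of scalars along an algebra map. -/
def KMod.res (ι : R →ₐ[k] S) (X : KMod k S) : KMod k R :=
  letI : Module R X := Module.compHom X ι.toRingHom
  haveI : IsScalarTower k R X := ⟨fun c r x => by
    change ι (c • r) • x = c • (ι r • x)
    rw [map_smul, smul_assoc]⟩
  ⟨X⟩

/-- the identity map to the restricted module. -/
def KMod.toRes (ι : R →ₐ[k] S) (X : KMod k S) : X ≃ₗ[k] X.res ι := LinearEquiv.refl k X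

theorem KMod.smul_toRes (ι : R →ₐ[k] S) (X : KMod k S) (r : R) (x : X) :
    r • X.toRes ι x = X.toRes ι (ι r • x) := rfl

theorem KMod.toRes_symm_smul (ι : R →ₐ[k] S) (X : KMod k S) (r : R) (x : X.res ι) :
    (X.toRes ι).symm (r • x) = ι r • (X.toRes ι).symm x := rfl

/-- restriction of a linear map. -/
def KMod.resMap (ι : R →ₐ[k] S) {X Y : KMod k S} (u : X →ₗ[S] Y) : X.res ι →ₗ[R] Y.res ι where
  toFun x := Y.toRes ι (u ((X.toRes ι).symm x))
  map_add' a b := by simp
  map_smul' r x := by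
    rw [KMod.toRes_symm_smul, map_smul]; rfl

theorem KMod.resMap_apply (ι : R →ₐ[k] S) {X Y : KMod k S} (u : X →ₗ[S] Y) (x : X) :
    KMod.resMap ι u (X.toRes ι x) = Y.toRes ι (u x) := rfl

theorem SES.res (ι : R →ₐ[k] S) {X Y Z : KMod k S} {i : X →ₗ[S] Y} {p : Y →ₗ[S] Z}
    (h : SES i p) : SES (KMod.resMap ι i) (KMod.resMap ι p) := ⟨h.inj, h.surj, h.exact⟩

end res

section syz

variable (R : Type) [Ring R] [Algebra k R]
variable {X Y : Type} [AddCommGroup X] [Module k X] [AddCommGroup Y] [Module k Y]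

/-- extension of a linear map over the ground field to the free module. -/
def ext1 [Module R Y] [IsScalarTower k R Y] (u : X →ₗ[k] Y) : R ⊗[k] X →ₗ[R] Y :=
  AlgebraTensorModule.lift (LinearMap.toSpanSingleton R (X →ₗ[k] Y) u)

@[simp] theorem ext1_tmul [Module R Y] [IsScalarTower k R Y] (u : X →ₗ[k] Y) (a : R) (x : X) :
    ext1 R u (a ⊗ₜ x) = a • u x := by
  simp [ext1]

variable {R}

theorem ext1_add [Module R Y] [IsScalarTower k R Y] (u v : X →ₗ[k] Y) :
    ext1 R (u + v) = ext1 R u + ext1 R v := by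
  ext x; simp

theorem ext1_sub [Module R Y] [IsScalarTower k R Y] (u v : X →ₗ[k] Y) :
    ext1 R (u - v) = ext1 R u - ext1 R v := by
  ext x; simp

theorem ext1_smul [Module R Y] [IsScalarTower k R Y] (c : k) (u : X →ₗ[k] Y) :
    ext1 R (c • u) = c • ext1 R u := by
  ext x; simp

theorem eq_ext1 [Module R Y] [IsScalarTower k R Y] (v : R ⊗[k] X →ₗ[R] Y) :
    v = ext1 R (v.restrictScalars k ∘ₗ TensorProduct.mk k R X 1) := by
  ext x; simp

theorem smul_tmul_one (a : R) (x : X) : a • ((1 : R) ⊗ₜ[k] x) = a ⊗ₜ[k] x := by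
  rw [smul_tmul', smul_eq_mul, mul_one]

variable (k R X)
variable [Module R X] [IsScalarTower k R X]

/-- the action map. -/
def act : R ⊗[k] X →ₗ[R] X := ext1 R LinearMap.id

variable {k R X}

@[simp] theorem act_tmul (a : R) (x : X) : act k R X (a ⊗ₜ x) = a • x := by simp [act]

theorem act_surj : Function.Surjective (act k R X) := fun x => ⟨1 ⊗ₜ x, by simp⟩

end syz

variable {R : Type} [Ring R] [Algebra k R] [FiniteDimensional k R]

/-- the canonical syzygy. -/
def KMod.syz (X : KMod k R) : KMod k R := KMod.of k R (LinearMap.ker (act k R X))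

/-- inclusion of the syzygy. -/
def KMod.incl (X : KMod k R) : X.syz →ₗ[R] R ⊗[k] X := (LinearMap.ker (act k R X)).subtype

theorem KMod.ses (X : KMod k R) : SES X.incl (act k R X) := SES.ker _ act_surj

theorem KMod.incl_inj (X : KMod k R) : Function.Injective X.incl := X.ses.inj

@[simp] theorem KMod.act_incl (X : KMod k R) (y : X.syz) : act k R X (X.incl y) = 0 :=
  X.ses.apply_zero y

/-- corestriction into the syzygy. -/
def KMod.cores (X : KMod k R) {W : Type} [AddCommGroup W] [Module k W] (u : W →ₗ[k] R ⊗[k] X)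
    (hu : ∀ w, act k R X (u w) = 0) : W →ₗ[k] X.syz where
  toFun w := ⟨u w, hu w⟩
  map_add' a b := Subtype.ext (map_add u a b)
  map_smul' c a := Subtype.ext (map_smul u c a)

@[simp] theorem KMod.incl_cores (X : KMod k R) {W : Type} [AddCommGroup W] [Module k W]
    (u : W →ₗ[k] R ⊗[k] X) (hu : ∀ w, act k R X (u w) = 0) (w : W) :
    X.incl (X.cores u hu w) = u w := rfl

/-- the retraction onto the syzygy, linear over the ground field. -/
def KMod.ret (X : KMod k R) : R ⊗[k] X →ₗ[k] X.syz :=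
  X.cores (LinearMap.id - TensorProduct.mk k R X 1 ∘ₗ (act k R X).restrictScalars k)
    (fun w => by simp)

theorem KMod.incl_ret (X : KMod k R) (z : R ⊗[k] X) :
    X.incl (X.ret z) = z - 1 ⊗ₜ act k R X z := rfl

@[simp] theorem KMod.ret_incl (X : KMod k R) (y : X.syz) : X.ret (X.incl y) = y := by
  apply X.incl_inj
  rw [KMod.incl_ret, KMod.act_incl, tmul_zero, sub_zero]

/-- iterated syzygies. -/
def KMod.syzN (X : KMod k R) : ℕ → KMod k R
  | 0 => X
  | n + 1 => (X.syzN n).syz

/-- inclusion of iterated syzygies. -/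
def KMod.inc (X : KMod k R) (n : ℕ) : X.syzN (n + 1) →ₗ[R] R ⊗[k] X.syzN n := (X.syzN n).incl

/-- retraction for iterated syzygies. -/
def KMod.rt (X : KMod k R) (n : ℕ) : R ⊗[k] X.syzN n →ₗ[k] X.syzN (n + 1) := (X.syzN n).ret

/-- corestriction for iterated syzygies. -/
def KMod.crs (X : KMod k R) (n : ℕ) {W : Type} [AddCommGroup W] [Module k W]
    (u : W →ₗ[k] R ⊗[k] X.syzN n) (hu : ∀ w, act k R (X.syzN n) (u w) = 0) :
    W →ₗ[k] X.syzN (n + 1) := (X.syzN n).cores u hu

@[simp] theorem KMod.inc_crs (X : KMod k R) (n : ℕ) {W : Type} [AddCommGroup W] [Module k W]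
    (u : W →ₗ[k] R ⊗[k] X.syzN n) (hu : ∀ w, act k R (X.syzN n) (u w) = 0) (w : W) :
    X.inc n (X.crs n u hu w) = u w := rfl

theorem KMod.sesN (X : KMod k R) (n : ℕ) : SES (X.inc n) (act k R (X.syzN n)) := (X.syzN n).ses

theorem KMod.inc_inj (X : KMod k R) (n : ℕ) : Function.Injective (X.inc n) := (X.sesN n).inj

@[simp] theorem KMod.act_inc (X : KMod k R) (n : ℕ) (y : X.syzN (n + 1)) :
    act k R (X.syzN n) (X.inc n y) = 0 := (X.sesN n).apply_zero y

theorem KMod.inc_rt (X : KMod k R) (n : ℕ) (z : R ⊗[k] X.syzN n) :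
    X.inc n (X.rt n z) = z - 1 ⊗ₜ act k R (X.syzN n) z := rfl

@[simp] theorem KMod.rt_inc (X : KMod k R) (n : ℕ) (y : X.syzN (n + 1)) :
    X.rt n (X.inc n y) = y := (X.syzN n).ret_incl y

theorem EZ.syzN {X : KMod k R} {W : Type} [AddCommGroup W] [Module R W] {m : ℕ} (n : ℕ) :
    EZ R X W (m + 1 + n) ↔ EZ R (X.syzN n) W (m + 1) := by
  induction n generalizing m with
  | zero => rfl
  | succ n ih =>
    rw [show m + 1 + (n + 1) = m + 1 + 1 + n by omega, ih]
    exact ⟨EZ.left_sub (X.sesN n) (EZ.of_proj _),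
      fun h => EZ.left_quot (X.sesN n) h (EZ.of_proj _)⟩

theorem E1.syzN {X : KMod k R} {W : Type} [AddCommGroup W] [Module R W] {m : ℕ} (n : ℕ)
    (h : E1 k R X W (m + 1 + n)) : E1 k R (X.syzN n) W (m + 1) := by
  induction n generalizing m with
  | zero => exact h
  | succ n ih =>
    rw [show m + 1 + (n + 1) = m + 1 + 1 + n by omega] at h
    exact E1.left_sub (X.sesN n) (EZ.of_proj _) (ih h)

/-- extension property from vanishing of Ext. -/
theorem EZ.extend_syzN {X : KMod k R} {W : Type} [AddCommGroup W] [Module R W] {n : ℕ}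
    (h : EZ R X W (n + 1)) (u : X.syzN (n + 1) →ₗ[R] W) :
    ∃ v : R ⊗[k] X.syzN n →ₗ[R] W, ∀ y, v (X.inc n y) = u y :=
  EZ.extend (X.sesN n) ((EZ.syzN (m := 0) n).1 (by rwa [show 0 + 1 + n = n + 1 by omega])) u

theorem EZ.of_extend_syzN {X : KMod k R} {W : Type} [AddCommGroup W] [Module R W] {n : ℕ}
    (h : ∀ u : X.syzN (n + 1) →ₗ[R] W,
      ∃ v : R ⊗[k] X.syzN n →ₗ[R] W, ∀ y, v (X.inc n y) = u y) : EZ R X W (n + 1) := by
  rw [show n + 1 = 0 + 1 + n by omega, EZ.syzN]
  exact EZ.of_extend (X.sesN n) (EZ.of_proj _) h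

section semi

variable {R' R'' : Type} [Ring R'] [Algebra k R'] [FiniteDimensional k R']
  [Ring R''] [Algebra k R''] [FiniteDimensional k R'']

/-- semilinearity along an algebra map. -/
abbrev IsSemi (φ : R →ₐ[k] R') {X X' : Type} [AddCommGroup X] [Module k X] [Module R X]
    [AddCommGroup X'] [Module k X'] [Module R' X'] (u : X →ₗ[k] X') : Prop :=
  ∀ r x, u (r • x) = φ r • u x

omit [FiniteDimensional k R] [FiniteDimensional k R'] in
theorem IsSemi.act_map {φ : R →ₐ[k] R'} {X : KMod k R} {X' : KMod k R'} {u : X →ₗ[k] X'}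
    (hu : IsSemi φ u) (z : R ⊗[k] X) :
    act k R' X' (TensorProduct.map φ.toLinearMap u z) = u (act k R X z) := by
  induction z using TensorProduct.induction_on with
  | zero => simp
  | tmul a x => simp [hu a x]
  | add a b ha hb => simp [ha, hb]

omit [FiniteDimensional k R] [FiniteDimensional k R'] in
theorem isSemi_map (φ : R →ₐ[k] R') {X X' : Type} [AddCommGroup X] [Module k X]
    [AddCommGroup X'] [Module k X'] (u : X →ₗ[k] X') :
    IsSemi φ (TensorProduct.map φ.toLinearMap u) := by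
  intro r z
  induction z using TensorProduct.induction_on with
  | zero => simp
  | tmul a x => simp [smul_tmul']
  | add a b ha hb => simp [ha, hb]

/-- the map induced on syzygies. -/
def syzMap {φ : R →ₐ[k] R'} {X : KMod k R} {X' : KMod k R'} {u : X →ₗ[k] X'} (hu : IsSemi φ u) :
    X.syz →ₗ[k] X'.syz :=
  X'.cores (TensorProduct.map φ.toLinearMap u ∘ₗ X.incl.restrictScalars k)
    (fun y => by simp [hu.act_map])

theorem incl_syzMap {φ : R →ₐ[k] R'} {X : KMod k R} {X' : KMod k R'} {u : X →ₗ[k] X'}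
    (hu : IsSemi φ u) (y : X.syz) :
    X'.incl (syzMap hu y) = TensorProduct.map φ.toLinearMap u (X.incl y) := rfl

theorem isSemi_syzMap {φ : R →ₐ[k] R'} {X : KMod k R} {X' : KMod k R'} {u : X →ₗ[k] X'}
    (hu : IsSemi φ u) : IsSemi φ (syzMap hu) := by
  intro r y
  apply X'.incl_inj
  rw [incl_syzMap, X.incl.map_smul, X'.incl.map_smul, incl_syzMap, isSemi_map φ u]

theorem syzMap_ret {φ : R →ₐ[k] R'} {X : KMod k R} {X' : KMod k R'} {u : X →ₗ[k] X'}
    (hu : IsSemi φ u) (z : R ⊗[k] X) :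
    syzMap hu (X.ret z) = X'.ret (TensorProduct.map φ.toLinearMap u z) := by
  apply X'.incl_inj
  rw [incl_syzMap, KMod.incl_ret, KMod.incl_ret, map_sub, hu.act_map]
  simp

/-- the iterated induced maps, with their semilinearity. -/
def mapNAux {φ : R →ₐ[k] R'} {X : KMod k R} {X' : KMod k R'} {u : X →ₗ[k] X'} (hu : IsSemi φ u) :
    (n : ℕ) → {v : X.syzN n →ₗ[k] X'.syzN n // IsSemi φ v}
  | 0 => ⟨u, hu⟩
  | n + 1 => ⟨syzMap (mapNAux hu n).2, isSemi_syzMap _⟩

/-- the iterated induced maps. -/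
def mapN {φ : R →ₐ[k] R'} {X : KMod k R} {X' : KMod k R'} {u : X →ₗ[k] X'} (hu : IsSemi φ u)
    (n : ℕ) : X.syzN n →ₗ[k] X'.syzN n := (mapNAux hu n).1

section
variable {φ : R →ₐ[k] R'} {X : KMod k R} {X' : KMod k R'} {u : X →ₗ[k] X'} (hu : IsSemi φ u)

theorem isSemi_mapN (n : ℕ) : IsSemi φ (mapN hu n) := (mapNAux hu n).2

theorem mapN_zero : mapN hu 0 = u := rfl

theorem inc_mapN (n : ℕ) (y : X.syzN (n + 1)) :
    X'.inc n (mapN hu (n + 1) y) =
      TensorProduct.map φ.toLinearMap (mapN hu n) (X.inc n y) := rfl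

theorem mapN_rt (n : ℕ) (z : R ⊗[k] X.syzN n) :
    mapN hu (n + 1) (X.rt n z) =
      X'.rt n (TensorProduct.map φ.toLinearMap (mapN hu n) z) :=
  syzMap_ret (isSemi_mapN hu n) z

end

theorem mapN_comp {φ : R →ₐ[k] R'} {ψ : R' →ₐ[k] R''} {χ : R →ₐ[k] R''}
    {X : KMod k R} {X' : KMod k R'} {X'' : KMod k R''} {u : X →ₗ[k] X'} {v : X' →ₗ[k] X''}
    {w : X →ₗ[k] X''} (hu : IsSemi φ u) (hv : IsSemi ψ v) (hw : IsSemi χ w)
    (h1 : ∀ r, χ r = ψ (φ r)) (h2 : ∀ x, w x = v (u x)) (n : ℕ) (y : X.syzN n) :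
    mapN hw n y = mapN hv n (mapN hu n y) := by
  induction n with
  | zero => exact h2 y
  | succ n ih =>
    apply X''.inc_inj n
    rw [inc_mapN, inc_mapN, inc_mapN, ← LinearMap.comp_apply, ← TensorProduct.map_comp]
    congr 2
    · exact LinearMap.ext h1
    · exact LinearMap.ext ih

theorem mapN_id {φ : R →ₐ[k] R} {X : KMod k R} {u : X →ₗ[k] X} (hu : IsSemi φ u)
    (h1 : ∀ r, φ r = r) (h2 : ∀ x, u x = x) (n : ℕ) (y : X.syzN n) : mapN hu n y = y := by
  induction n with
  | zero => exact h2 y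
  | succ n ih =>
    apply X.inc_inj n
    rw [inc_mapN]
    have e1 : φ.toLinearMap = LinearMap.id := LinearMap.ext h1
    have e2 : mapN hu n = LinearMap.id := LinearMap.ext ih
    rw [e1, e2, TensorProduct.map_id]
    rfl

theorem mapN_add {φ : R →ₐ[k] R'} {X : KMod k R} {X' : KMod k R'} {u v w : X →ₗ[k] X'}
    (hu : IsSemi φ u) (hv : IsSemi φ v) (hw : IsSemi φ w) (h : ∀ x, w x = u x + v x) (n : ℕ)
    (y : X.syzN n) : mapN hw n y = mapN hu n y + mapN hv n y := by
  induction n with
  | zero => exact h y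
  | succ n ih =>
    apply X'.inc_inj n
    have e2 : mapN hw n = mapN hu n + mapN hv n := LinearMap.ext ih
    rw [map_add, inc_mapN, inc_mapN, inc_mapN, e2, TensorProduct.map_add_right]
    rfl

theorem mapN_smul {φ : R →ₐ[k] R'} {X : KMod k R} {X' : KMod k R'} {u w : X →ₗ[k] X'}
    (hu : IsSemi φ u) (hw : IsSemi φ w) (c : k) (h : ∀ x, w x = c • u x) (n : ℕ)
    (y : X.syzN n) : mapN hw n y = c • mapN hu n y := by
  induction n with
  | zero => exact h y
  | succ n ih =>
    apply X'.inc_inj n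
    have e2 : mapN hw n = c • mapN hu n := LinearMap.ext ih
    rw [LinearMap.map_smul_of_tower, inc_mapN, inc_mapN, e2, TensorProduct.map_smul_right]
    rfl

omit [FiniteDimensional k R] in
theorem isSemi_lin {X Y : Type} [AddCommGroup X] [Module k X] [Module R X] [IsScalarTower k R X]
    [AddCommGroup Y] [Module k Y] [Module R Y] [IsScalarTower k R Y] (u : X →ₗ[R] Y) :
    IsSemi (AlgHom.id k R) (u.restrictScalars k) := fun r x => u.map_smul r x

/-- a map semilinear along the identity is linear. -/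
def IsSemi.toLin {X Y : Type} [AddCommGroup X] [Module k X] [Module R X]
    [AddCommGroup Y] [Module k Y] [Module R Y] {u : X →ₗ[k] Y} (hu : IsSemi (AlgHom.id k R) u) :
    X →ₗ[R] Y where
  toFun := u
  map_add' := u.map_add
  map_smul' := hu

/-- the linear map induced on iterated syzygies. -/
def linN {X Y : KMod k R} (u : X →ₗ[R] Y) (n : ℕ) : X.syzN n →ₗ[R] Y.syzN n :=
  (isSemi_mapN (isSemi_lin u) n).toLin

theorem linN_apply {X Y : KMod k R} (u : X →ₗ[R] Y) (n : ℕ) (y : X.syzN n) :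
    linN u n y = mapN (isSemi_lin (k := k) u) n y := rfl

end semi

end

end Vale.Agent.P195
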