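import Vale.Agent.P195.ET

/-! The trivial extension algebra. -/

open TensorProduct

namespace Vale.Agent.P195

noncomputable section

variable {k : Type} [Field k] {B : Type} [Ring B] [Algebra k B]

/-- right multiplication on the dual. -/
def rD (k : Type) [Field k] [Algebra k B] (b : B) : CoInd k B k →ₗ[B] CoInd k B k :=
  HomR.pre (LinearMap.mulLeft k b) (fun a x => by simp [mul_assoc])

@[simp] theorem rD_apply (b : B) (φ : CoInd k B k) (x : B) : rD k b φ x = φ (b * x) := rfl

instance : SMul Bᵐᵒᵖ (CoInd k B k) := ⟨fun b φ => rD k b.unop φ⟩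

@[simp] theorem op_smul_apply (b : Bᵐᵒᵖ) (φ : CoInd k B k) (x : B) :
    (b • φ) x = φ (b.unop * x) := rfl

instance : Module Bᵐᵒᵖ (CoInd k B k) where
  one_smul u := by ext x; simp
  mul_smul a b u := by ext x; simp [mul_assoc]
  smul_zero a := by ext x; simp
  smul_add a u v := by ext x; simp
  add_smul a b u := by ext x; simp [add_mul]
  zero_smul u := by ext x; simp

instance : SMulCommClass B Bᵐᵒᵖ (CoInd k B k) := ⟨fun a b u => by ext x; simp [mul_assoc]⟩

instance : IsScalarTower k Bᵐᵒᵖ (CoInd k B k) := ⟨fun c a u => by ext x; simp⟩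

/-- the trivial extension. -/
abbrev TE (k B : Type) [Field k] [Ring B] [Algebra k B] : Type := TrivSqZeroExt B (CoInd k B k)

instance [FiniteDimensional k B] : FiniteDimensional k (TE k B) :=
  inferInstanceAs (FiniteDimensional k (B × CoInd k B k))

/-- the symmetrizing form of the trivial extension. -/
def TE.form (k B : Type) [Field k] [Ring B] [Algebra k B] : SymForm k (TE k B) where
  t :=
    { toFun := fun x => x.snd 1
      map_add' := fun a b => by simp
      map_smul' := fun c a => by simp }
  symm a b := by simp [add_comm]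
  nondeg a h := by
    refine TrivSqZeroExt.ext ?_ ?_
    · rw [TrivSqZeroExt.fst_zero, ← Module.forall_dual_apply_eq_zero_iff k]
      intro φ
      simpa using h (TrivSqZeroExt.inr (HomR.mk _ φ))
    · ext x
      simpa using h (TrivSqZeroExt.inl x)

/-- scaling the dual part. -/
def TE.h (l : k) : TE k B →ₐ[k] TE k B where
  toFun x := TrivSqZeroExt.inl x.fst + TrivSqZeroExt.inr (l • x.snd)
  map_one' := by ext <;> simp
  map_mul' a b := by ext <;> simp [mul_add, add_comm]
  map_zero' := by ext <;> simp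
  map_add' a b := by ext <;> simp
  commutes' c := by ext <;> simp [TrivSqZeroExt.algebraMap_eq_inl']

@[simp] theorem TE.h_fst (l : k) (x : TE k B) : (TE.h l x).fst = x.fst := by
  change (TrivSqZeroExt.inl x.fst + TrivSqZeroExt.inr (l • x.snd) : TE k B).fst = _
  simp

@[simp] theorem TE.h_snd (l : k) (x : TE k B) : (TE.h l x).snd = l • x.snd := by
  change (TrivSqZeroExt.inl x.fst + TrivSqZeroExt.inr (l • x.snd) : TE k B).snd = _
  simp

/-- the inclusion. -/
abbrev TE.ι (k B : Type) [Field k] [Ring B] [Algebra k B] : B →ₐ[k] TE k B :=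
  TrivSqZeroExt.inlAlgHom k B _

/-- the projection. -/
abbrev TE.π (k B : Type) [Field k] [Ring B] [Algebra k B] : TE k B →ₐ[k] B :=
  TrivSqZeroExt.fstHom k B _

/-- the grading. -/
def TE.grading (k B : Type) [Field k] [Ring B] [Algebra k B] : Grading k B (TE k B) where
  ι := TE.ι k B
  π := TE.π k B
  h := TE.h
  h_one a := by ext <;> simp
  h_mul l m a := by ext <;> simp [mul_assoc]
  h_zero a := by ext <;> simp
  h_ι l b := by ext <;> simp
  poly a := by
    have := (IsPoly.const (k := k) (TrivSqZeroExt.inl a.fst : TE k B)).add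
      (IsPoly.mono 1 (TrivSqZeroExt.inr a.snd : TE k B))
    have e : (fun l : k => TE.h l a) = fun l : k => (TrivSqZeroExt.inl a.fst : TE k B) +
        l ^ 1 • TrivSqZeroExt.inr a.snd := funext fun l => by ext <;> simp
    rw [e]
    exact this

variable [FiniteDimensional k B]

/-- the restriction of the trivial extension to the subalgebra. -/
def TE.equiv (k B : Type) [Field k] [Ring B] [Algebra k B] [FiniteDimensional k B] :
    K0 (TE.ι k B) ≃ₗ[B] B × CoInd k B k where
  toFun x := (((toK0 _).symm x).fst, ((toK0 _).symm x).snd)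
  invFun y := toK0 _ (TrivSqZeroExt.inl y.1 + TrivSqZeroExt.inr y.2)
  map_add' a b := by simp
  map_smul' b x := by
    rw [toK0_symm_smul]
    ext <;> simp
  left_inv x := by simp [TrivSqZeroExt.inl_fst_add_inr_snd_eq]
  right_inv y := by simp

theorem TE.equiv_apply (x : TE k B) : TE.equiv k B (toK0 _ x) = (x.fst, x.snd) := rfl

theorem TE.equiv_r (b : B) (x : K0 (TE.ι k B)) :
    TE.equiv k B ((r0 _).toLin (TE.ι k B b) x) =
      ((TE.equiv k B x).1 * b, rD k b (TE.equiv k B x).2) := by
  obtain ⟨x, rfl⟩ := (toK0 _).surjective x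
  rw [r0_toK0, TE.equiv_apply, TE.equiv_apply]
  ext <;> simp

theorem TE.hom0 (χ : B →ₐ[k] k) (h : EZ B (CoInd k B k) (chr χ) 0)
    (u : TE k B →ₗ[k] k) (hu : ∀ b x, u (TE.ι k B b * x) = χ b * u x) (a : TE k B) :
    u a = χ a.fst * u 1 := by
  let v : CoInd k B k →ₗ[B] chr χ :=
    { toFun := fun m => toChr χ (u (TrivSqZeroExt.inr m))
      map_add' := fun a b => by simp
      map_smul' := fun b m => by
        rw [RingHom.id_apply, chr_smul, ← map_smul, smul_eq_mul, ← hu]
        simp [TrivSqZeroExt.inl_mul_inr] }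
  have h1 : u (TrivSqZeroExt.inr a.snd) = 0 :=
    congrArg (fun w : CoInd k B k →ₗ[B] chr χ => w a.snd) (EZ.zero_iff.1 h v)
  rw [← hu, mul_one]
  conv_lhs => rw [← TrivSqZeroExt.inl_fst_add_inr_snd_eq a, map_add, h1, add_zero]
  rfl

end

end Vale.Agent.P195
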