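import Vale.Agent.P195.Glue

/-! The tower of bimodule syzygies attached to an algebra map. -/

open TensorProduct

namespace Vale.Agent.P195

noncomputable section

variable {k : Type} [Field k] {S : Type} [Ring S] [Algebra k S] [FiniteDimensional k S]
variable {R : Type} [Ring R] [Algebra k R] [FiniteDimensional k R]
variable {R' : Type} [Ring R'] [Algebra k R']

section extS

variable {K X : Type} [AddCommGroup K] [Module k K] [AddCommGroup X] [Module k X] [Module R' X]
  [IsScalarTower k R' X]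

/-- semilinear extension to the free module. -/
def extS (φ : R →ₐ[k] R') (u : K →ₗ[k] X) : R ⊗[k] K →ₗ[k] X :=
  (ext1 R' u).restrictScalars k ∘ₗ TensorProduct.map φ.toLinearMap LinearMap.id

omit [FiniteDimensional k R] in
@[simp] theorem extS_tmul (φ : R →ₐ[k] R') (u : K →ₗ[k] X) (b : R) (y : K) :
    extS φ u (b ⊗ₜ y) = φ b • u y := by simp [extS]

omit [FiniteDimensional k R] in
theorem isSemi_extS (φ : R →ₐ[k] R') (u : K →ₗ[k] X) : IsSemi φ (extS φ u) := by
  intro r z
  induction z using TensorProduct.induction_on with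
  | zero => simp
  | tmul a x => simp [smul_tmul', mul_smul]
  | add a b ha hb => simp [ha, hb]

omit [FiniteDimensional k R] in
theorem extS_add (φ : R →ₐ[k] R') (u v : K →ₗ[k] X) : extS φ (u + v) = extS φ u + extS φ v := by
  ext; simp

omit [FiniteDimensional k R] in
theorem extS_sub (φ : R →ₐ[k] R') (u v : K →ₗ[k] X) : extS φ (u - v) = extS φ u - extS φ v := by
  ext; simp [smul_sub]

omit [FiniteDimensional k R] in
theorem extS_smul (φ : R →ₐ[k] R') (c : k) (u : K →ₗ[k] X) : extS φ (c • u) = c • extS φ u := by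
  ext; simp [smul_comm c]

omit [FiniteDimensional k R] in
theorem extS_comp_lT (φ : R →ₐ[k] R') {K' : Type} [AddCommGroup K'] [Module k K'] (u : K →ₗ[k] X)
    (w : K' →ₗ[k] K) (z : R ⊗[k] K') :
    extS φ u (LinearMap.lTensor R w z) = extS φ (u ∘ₗ w) z := by
  have : extS φ u ∘ₗ LinearMap.lTensor R w = extS φ (u ∘ₗ w) := by ext; simp
  exact congrArg (fun f => f z) this

omit [FiniteDimensional k R] in
theorem IsSemi.extS_eq {φ : R →ₐ[k] R'} [Module R K] [IsScalarTower k R K] {u : K →ₗ[k] X}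
    (hu : IsSemi φ u) (z : R ⊗[k] K) : extS φ u z = u (act k R K z) := by
  induction z using TensorProduct.induction_on with
  | zero => simp
  | tmul a x => simp [hu a x]
  | add a b ha hb => simp [ha, hb]

omit [FiniteDimensional k R] in
theorem IsSemi.eq_extS {φ : R →ₐ[k] R'} {v : R ⊗[k] K →ₗ[k] X} (hv : IsSemi φ v) (z : R ⊗[k] K) :
    extS φ (v ∘ₗ TensorProduct.mk k R K 1) z = v z := by
  induction z using TensorProduct.induction_on with
  | zero => simp
  | tmul a x => simp [← hv a, smul_tmul']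
  | add a b ha hb => simp only [map_add, ha, hb]

omit [FiniteDimensional k R] in
theorem post_extS (φ : R →ₐ[k] R') {X' : Type} [AddCommGroup X'] [Module k X'] [Module R' X']
    [IsScalarTower k R' X'] (u : K →ₗ[k] X) (w : X →ₗ[R'] X') (z : R ⊗[k] K) :
    w (extS φ u z) = extS φ (w.restrictScalars k ∘ₗ u) z := by
  induction z using TensorProduct.induction_on with
  | zero => simp
  | tmul a x => simp
  | add a b ha hb => simp only [map_add, ha, hb]

end extS

/-- The semilinear extension property in a given degree. -/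
def ExtProp (φ : R →ₐ[k] R') (M : KMod k R) (X : Type) [AddCommGroup X] [Module k X] [Module R' X]
    [IsScalarTower k R' X] (j : ℕ) : Prop :=
  ∀ u : M.syzN (j + 1) →ₗ[k] X, IsSemi φ u →
    ∃ v : M.syzN j →ₗ[k] X, ∀ y, extS φ v (M.inc j y) = u y

theorem ExtProp.of_EZ_id {M : KMod k R} {X : Type} [AddCommGroup X] [Module k X] [Module R X]
    [IsScalarTower k R X] {j : ℕ} (h : EZ R M X (j + 1)) : ExtProp (AlgHom.id k R) M X j := by
  intro u hu
  obtain ⟨v, hv⟩ := h.extend_syzN hu.toLin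
  exact ⟨_, fun y => ((isSemi_lin v).eq_extS _).trans (hv y)⟩

/-- a semilinear map as a linear map to the restricted module. -/
def IsSemi.toRes {φ : R →ₐ[k] R'} {M : Type} [AddCommGroup M] [Module k M] [Module R M]
    {X : KMod k R'} {u : M →ₗ[k] X} (hu : IsSemi φ u) : M →ₗ[R] X.res φ where
  toFun y := X.toRes φ (u y)
  map_add' a b := by simp
  map_smul' r y := by rw [hu r y]; rfl

omit [FiniteDimensional k R] in
theorem isSemi_ofRes {φ : R →ₐ[k] R'} {M : Type} [AddCommGroup M] [Module k M] [Module R M]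
    [IsScalarTower k R M] {X : KMod k R'} (v : M →ₗ[R] X.res φ) :
    IsSemi φ ((X.toRes φ).symm.toLinearMap ∘ₗ v.restrictScalars k) := fun r z => by
  simp [KMod.toRes_symm_smul]

theorem ExtProp.of_EZ {φ : R →ₐ[k] R'} {M : KMod k R} {X : KMod k R'} {j : ℕ}
    (h : EZ R M (X.res φ) (j + 1)) : ExtProp φ M X j := by
  intro u hu
  obtain ⟨v, hv⟩ := h.extend_syzN hu.toRes
  exact ⟨_, fun y => ((isSemi_ofRes v).eq_extS _).trans
    (congrArg (X.toRes φ).symm (hv y))⟩

theorem ExtProp.to_EZ {φ : R →ₐ[k] R'} {M : KMod k R} {X : KMod k R'} {j : ℕ}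
    (h : ExtProp φ M X j) : EZ R M (X.res φ) (j + 1) := by
  apply EZ.of_extend_syzN
  intro u
  obtain ⟨v, hv⟩ := h _ (isSemi_ofRes u)
  exact ⟨(isSemi_extS φ v).toRes, fun y => congrArg (X.toRes φ) (hv y)⟩

section tower

variable (ι : R →ₐ[k] S)

/-- the algebra as a left module over the subalgebra. -/
def K0 : KMod k R := (KMod.reg k S).res ι

/-- identification. -/
def toK0 : S ≃ₗ[k] K0 ι := LinearEquiv.refl k S

omit [FiniteDimensional k R] in
theorem smul_toK0 (b : R) (x : S) : b • toK0 ι x = toK0 ι (ι b * x) := rfl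

omit [FiniteDimensional k R] in
theorem toK0_symm_smul (b : R) (x : K0 ι) : (toK0 ι).symm (b • x) = ι b * (toK0 ι).symm x := rfl

/-- right multiplication. -/
def r0 : RAct k S (K0 ι) := RAct.rmul k S

omit [FiniteDimensional k R] in
theorem r0_toK0 (a x : S) : (r0 ι).toLin a (toK0 ι x) = toK0 ι (x * a) := rfl

omit [FiniteDimensional k R] in
theorem r0_lin : (r0 ι).Lin := fun a b x => by
  obtain ⟨x, rfl⟩ := (toK0 ι).surjective x
  rw [smul_toK0, r0_toK0, r0_toK0, AlgHom.id_apply, smul_toK0, mul_assoc]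

/-- the bimodule syzygies. -/
abbrev K (j : ℕ) : KMod k R := (K0 ι).syzN j

/-- their right actions. -/
def rK (j : ℕ) : RAct k S (K ι j) := (r0 ι).syzN (r0_lin ι) j

/-- identification in degree zero. -/
def toK : S ≃ₗ[k] K ι 0 := toK0 ι

theorem rK_zero (a x : S) : (rK ι 0).toLin a (toK ι x) = toK ι (x * a) := rfl

theorem smul_toK (b : R) (x : S) : b • toK ι x = toK ι (ι b * x) := rfl

theorem rK_smul (j : ℕ) (a : S) (b : R) (y : K ι j) :
    (rK ι j).toLin a (b • y) = b • (rK ι j).toLin a y := RAct.syzN_smul _ _ j a b y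

theorem inc_rK (j : ℕ) (a : S) (y : K ι (j + 1)) :
    (K0 ι).inc j ((rK ι (j + 1)).toLin a y) =
      LinearMap.lTensor R ((rK ι j).toLin a) ((K0 ι).inc j y) := rfl

theorem rt_rK (j : ℕ) (a : S) (b : R) (y : K ι j) :
    (K0 ι).rt j (b ⊗ₜ (rK ι j).toLin a y) = (rK ι (j + 1)).toLin a ((K0 ι).rt j (b ⊗ₜ y)) :=
  RAct.rt_rl (r0 ι) (r0_lin ι) j a (b ⊗ₜ y)

theorem rK_coInj (j : ℕ) : (rK ι j).CoInj := RAct.CoInj.syzN _ RAct.coInj_rmul j

theorem rK_rp (j : ℕ) : (rK ι j).RP := RAct.RP.syzN _ RAct.rp_rmul j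

/-- the coinduced terms. -/
abbrev J (j : ℕ) (X : Type) [AddCommGroup X] [Module k X] : Type := HomR (rK ι j) X

instance (j : ℕ) (X : Type) [AddCommGroup X] [Module k X] : Module.Injective S (J ι j X) :=
  rK_coInj ι j X

instance [SelfInj k S] (j : ℕ) (X : Type) [AddCommGroup X] [Module k X] [FiniteDimensional k X] :
    Module.Projective S (J ι j X) := SelfInj.proj_of_inj (k := k) _

variable (φ : R →ₐ[k] R')
variable (X X' X'' : Type) [AddCommGroup X] [Module k X] [Module R' X] [IsScalarTower k R' X]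
  [AddCommGroup X'] [Module k X'] [Module R' X'] [IsScalarTower k R' X']
  [AddCommGroup X''] [Module k X''] [Module R' X''] [IsScalarTower k R' X'']

/-- the cocycles. -/
def D (j : ℕ) : Submodule S (J ι j X) where
  carrier := {u | IsSemi φ (HomR.lin _ u)}
  zero_mem' := fun b y => by simp
  add_mem' := fun {u v} hu hv b y => by simp [hu b y, hv b y]
  smul_mem' := fun a u hu b y => by
    simp only [HomR.smul_apply, rK_smul]
    exact hu b _

variable {ι φ X}

theorem D.semi {j : ℕ} (u : D ι φ X j) : IsSemi φ (HomR.lin _ u.1) := u.2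

/-- constructor for cocycles. -/
def D.mk {j : ℕ} (u : K ι j →ₗ[k] X) (hu : IsSemi φ u) : D ι φ X j := ⟨HomR.mk _ u, hu⟩

@[simp] theorem D.mk_apply {j : ℕ} (u : K ι j →ₗ[k] X) (hu : IsSemi φ u) (y : K ι j) :
    (D.mk u hu).1 y = u y := rfl

theorem D.ext {j : ℕ} {u v : D ι φ X j} (h : ∀ y, u.1 y = v.1 y) : u = v :=
  Subtype.ext (HomR.ext h)

theorem δ_semi {j : ℕ} (u : K ι j →ₗ[k] X) :
    IsSemi φ (extS φ u ∘ₗ ((K0 ι).inc j).restrictScalars k) :=
  fun b y => by simp [isSemi_extS φ _ b]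

variable (ι φ X)

/-- the differential. -/
def δ (j : ℕ) : J ι j X →ₗ[S] D ι φ X (j + 1) where
  toFun u := D.mk (extS φ (HomR.lin _ u) ∘ₗ ((K0 ι).inc j).restrictScalars k) (δ_semi _)
  map_add' u v := D.ext fun y => by simp [extS_add]
  map_smul' a u := D.ext fun y => by
    simp only [D.mk_apply, LinearMap.comp_apply, LinearMap.restrictScalars_apply,
      RingHom.id_apply, SetLike.val_smul, HomR.smul_apply, inc_rK, extS_comp_lT]
    rfl

variable {ι φ X}

theorem δ_apply {j : ℕ} (u : J ι j X) (y : K ι (j + 1)) :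
    (δ ι φ X j u).1 y = extS φ (HomR.lin _ u) ((K0 ι).inc j y) := rfl

theorem δ_exact (j : ℕ) : Function.Exact (D ι φ X j).subtype (δ ι φ X j) := by
  intro u
  constructor
  · intro h
    refine ⟨⟨u, fun b y => ?_⟩, rfl⟩
    have := congrArg (fun w : D ι φ X (j + 1) => w.1 ((K0 ι).rt j (b ⊗ₜ y))) h
    simp only [δ_apply, KMod.inc_rt, map_sub, extS_tmul, act_tmul, map_one, one_smul] at this
    exact (sub_eq_zero.1 this).symm
  · rintro ⟨u, rfl⟩
    refine D.ext fun y => ?_
    rw [δ_apply]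
    exact ((D.semi u).extS_eq _).trans (by simp)

theorem δ_D {j : ℕ} (u : D ι φ X j) : δ ι φ X j u.1 = 0 := (δ_exact j).apply_apply_eq_zero u

theorem δ_surj {j : ℕ} (h : ExtProp φ (K0 ι) X j) : Function.Surjective (δ ι φ X j) := by
  intro u
  obtain ⟨v, hv⟩ := h _ (D.semi u)
  exact ⟨HomR.mk _ v, D.ext hv⟩

theorem δ_ses {j : ℕ} (h : ExtProp φ (K0 ι) X j) : SES (D ι φ X j).subtype (δ ι φ X j) :=
  ⟨Subtype.val_injective, δ_surj h, δ_exact j⟩

theorem δ_ses' (j : ℕ) : SES (D ι φ X j).subtype (δ ι φ X j).rangeRestrict :=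
  SES.mk' Subtype.val_injective (LinearMap.surjective_rangeRestrict _)
    (fun x => Subtype.ext (δ_D x)) (fun y hy => (δ_exact j y).1 (congrArg Subtype.val hy))

variable {X' X''}

theorem Dmap_semi {j : ℕ} (w : X →ₗ[R'] X') (u : D ι φ X j) :
    IsSemi φ (w.restrictScalars k ∘ₗ HomR.lin _ u.1) := fun b y => by simp [D.semi u b y]

variable (ι φ)

/-- functoriality of cocycles. -/
def Dmap (j : ℕ) : (X →ₗ[R'] X') →ₗ[k] (D ι φ X j →ₗ[S] D ι φ X' j) where
  toFun w :=
    { toFun := fun u => D.mk (w.restrictScalars k ∘ₗ HomR.lin _ u.1) (Dmap_semi w u)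
      map_add' := fun u v => D.ext fun y => by simp
      map_smul' := fun a u => D.ext fun y => by simp }
  map_add' w w' := LinearMap.ext fun u => D.ext fun y => by simp
  map_smul' c w := LinearMap.ext fun u => D.ext fun y => by
    change c • w (u.1 y) = _
    simp

variable {ι φ}

@[simp] theorem Dmap_apply (j : ℕ) (w : X →ₗ[R'] X') (u : D ι φ X j) (y : K ι j) :
    (Dmap ι φ j w u).1 y = w (u.1 y) := rfl

theorem δ_post (j : ℕ) (w : X →ₗ[R'] X') (u : J ι j X) :
    δ ι φ X' j (HomR.post _ (w.restrictScalars k) u) = Dmap ι φ (j + 1) w (δ ι φ X j u) :=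
  D.ext fun y => by
    rw [Dmap_apply, δ_apply, δ_apply, post_extS]; rfl

theorem post_ses {M : Type} [AddCommGroup M] [Module k M] (r : RAct k S M)
    {i : X →ₗ[R'] X'} {p : X' →ₗ[R'] X''} (h : SES i p) :
    SES (HomR.post r (i.restrictScalars k)) (HomR.post r (p.restrictScalars k)) := by
  have h' : SES (i.restrictScalars k) (p.restrictScalars k) := ⟨h.inj, h.surj, h.exact⟩
  refine SES.mk' ?_ ?_ ?_ ?_
  · intro u v huv
    ext y
    exact h.inj (congrArg (fun w : HomR r X' => w y) huv)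
  · intro u
    obtain ⟨v, hv⟩ := Module.projective_lifting_property (p.restrictScalars k) (HomR.lin _ u) h.surj
    exact ⟨HomR.mk _ v, hv⟩
  · intro u
    ext y
    simp [h.apply_zero]
  · intro u hu
    obtain ⟨v, hv⟩ := h'.lift (HomR.lin _ u) (fun y => congrArg (fun w : HomR r X'' => w y) hu)
    exact ⟨HomR.mk _ v, HomR.ext hv⟩

theorem Dmap_ses {j : ℕ} {i : X →ₗ[R'] X'} {p : X' →ₗ[R'] X''} (h : SES i p)
    (hs : Function.Surjective (Dmap ι φ j p)) : SES (Dmap ι φ j i) (Dmap ι φ j p) := by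
  refine SES.mk' ?_ hs ?_ ?_
  · intro u v huv
    exact D.ext fun y => h.inj (congrArg (fun w : D ι φ X' j => w.1 y) huv)
  · intro u
    exact D.ext fun y => by simp [h.apply_zero]
  · intro u hu
    obtain ⟨v, hv⟩ := (post_ses (rK ι j) h).mem_range (y := u.1) (congrArg Subtype.val hu)
    have hv' : ∀ y, i (v y) = u.1 y := fun y => congrArg (fun w : J ι j X' => w y) hv
    refine ⟨⟨v, fun b y => h.inj ?_⟩, D.ext hv'⟩
    rw [i.map_smul, hv', hv', D.semi u b y]

theorem Dmap_surj {j : ℕ} [Module.Projective R (K ι j)] {Y Y' : KMod k R'} (p : Y →ₗ[R'] Y')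
    (hp : Function.Surjective p) : Function.Surjective (Dmap ι φ j p) := by
  intro u
  obtain ⟨v, hv⟩ := Module.projective_lifting_property (KMod.resMap φ p) (D.semi u).toRes hp
  exact ⟨D.mk _ (isSemi_ofRes v), D.ext fun y => congrArg (fun f => (Y'.toRes φ).symm (f y)) hv⟩

end tower

section homJ

variable (ι : R →ₐ[k] S) (M : KMod k S)

omit [FiniteDimensional k R] in
theorem mu_semi (m : M) : IsSemi (AlgHom.id k R)
    ((M.toRes ι).toLinearMap ∘ₗ (LinearMap.toSpanSingleton S M m).restrictScalars k ∘ₗ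
      (toK0 ι).symm.toLinearMap) := fun b x => by
  simp [toK0_symm_smul, KMod.smul_toRes, mul_smul]

/-- the balanced map to the syzygies of a module. -/
def mu (j : ℕ) : M →ₗ[k] K ι j →ₗ[k] (M.res ι).syzN j where
  toFun m := mapN (mu_semi ι M m) j
  map_add' a b := LinearMap.ext fun y => mapN_add _ _ _ (fun x => by simp) j y
  map_smul' c a := LinearMap.ext fun y => mapN_smul _ _ c (fun x => by simp [← smul_comm c]) j y

theorem mu_zero (m : M) (x : S) : mu ι M 0 m (toK ι x) = M.toRes ι (x • m) := rfl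

theorem mu_smul (j : ℕ) (m : M) (b : R) (y : K ι j) : mu ι M j m (b • y) = b • mu ι M j m y :=
  isSemi_mapN (mu_semi ι M m) j b y

theorem mu_bal (j : ℕ) (m : M) (a : S) (y : K ι j) :
    mu ι M j m ((rK ι j).toLin a y) = mu ι M j (a • m) y :=
  (mapN_comp (r0_lin ι a) (mu_semi ι M m) (mu_semi ι M (a • m)) (fun _ => rfl) (fun x => by
    obtain ⟨x, rfl⟩ := (toK0 ι).surjective x
    simp [r0_toK0, mul_smul]) j y).symm

theorem inc_mu (j : ℕ) (m : M) (y : K ι (j + 1)) :
    (M.res ι).inc j (mu ι M (j + 1) m y) = LinearMap.lTensor R (mu ι M j m) ((K0 ι).inc j y) := rfl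

theorem mu_rt (j : ℕ) (m : M) (b : R) (y : K ι j) :
    mu ι M (j + 1) m ((K0 ι).rt j (b ⊗ₜ y)) = (M.res ι).rt j (b ⊗ₜ mu ι M j m y) :=
  mapN_rt (mu_semi ι M m) j (b ⊗ₜ y)

theorem mu_span (j : ℕ) (W : Submodule k ((M.res ι).syzN j)) (h : ∀ m y, mu ι M j m y ∈ W)
    (x : (M.res ι).syzN j) : x ∈ W := by
  induction j with
  | zero =>
    obtain ⟨m, rfl⟩ := (M.toRes ι).surjective x
    have := h m (toK ι 1)
    rwa [mu_zero, one_smul] at this
  | succ j ih =>
    rw [← (M.res ι).rt_inc j x]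
    generalize (M.res ι).inc j x = z
    induction z using TensorProduct.induction_on with
    | zero => simp
    | tmul b x =>
      refine ih (W.comap ((M.res ι).rt j ∘ₗ TensorProduct.mk k R _ b)) (fun m y => ?_) x
      simp only [Submodule.mem_comap, LinearMap.comp_apply, mk_apply]
      rw [← mu_rt]
      exact h _ _
    | add a b ha hb => rw [map_add]; exact W.add_mem ha hb

theorem mu_factor (j : ℕ) (V : Type) [AddCommGroup V] [Module k V]
    (β : M →ₗ[k] K ι j →ₗ[k] V) (hβ : ∀ m a y, β m ((rK ι j).toLin a y) = β (a • m) y) :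
    ∃ γ : (M.res ι).syzN j →ₗ[k] V, ∀ m y, γ (mu ι M j m y) = β m y := by
  induction j generalizing V with
  | zero =>
    refine ⟨β.flip (toK ι 1) ∘ₗ (M.toRes ι).symm.toLinearMap, fun m y => ?_⟩
    obtain ⟨x, rfl⟩ := (toK ι).surjective y
    rw [mu_zero]
    change β (x • m) (toK ι 1) = _
    rw [← hβ, rK_zero, one_mul]
  | succ j ih =>
    let β' : M →ₗ[k] K ι j →ₗ[k] (R →ₗ[k] V) :=
      { toFun := fun m => (TensorProduct.curry (β m ∘ₗ (K0 ι).rt j)).flip
        map_add' := fun a b => by ext; simp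
        map_smul' := fun c a => by ext; simp }
    obtain ⟨γ, hγ⟩ := ih (R →ₗ[k] V) β' (fun m a y => by ext b; simp [β', rt_rK, hβ])
    refine ⟨TensorProduct.lift γ.flip ∘ₗ ((M.res ι).inc j).restrictScalars k, fun m y => ?_⟩
    have : ∀ z, TensorProduct.lift γ.flip (LinearMap.lTensor R (mu ι M j m) z) =
        β m ((K0 ι).rt j z) := by
      intro z
      induction z using TensorProduct.induction_on with
      | zero => simp
      | tmul b y => simp [hγ, β']
      | add a b ha hb => simp only [map_add, ha, hb]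
    simp [inc_mu, this]

variable {ι M}

theorem homJ {φ : R →ₐ[k] R'} {X : Type} [AddCommGroup X] [Module k X] [Module R' X]
    [IsScalarTower k R' X] {j : ℕ} (h : ExtProp φ (M.res ι) X j)
    (u : M →ₗ[S] D ι φ X (j + 1)) : ∃ v : M →ₗ[S] J ι j X, ∀ m, δ ι φ X j (v m) = u m := by
  let β : M →ₗ[k] K ι (j + 1) →ₗ[k] X :=
    (HomR.lin _).toLinearMap ∘ₗ ((D ι φ X (j + 1)).subtype ∘ₗ u).restrictScalars k
  have hβ : ∀ m y, β m y = (u m).1 y := fun _ _ => rfl
  obtain ⟨γ, hγ⟩ := mu_factor ι M (j + 1) X β (fun m a y => by simp [hβ])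
  have hs : IsSemi φ γ := by
    intro b x
    let W : Submodule k ((M.res ι).syzN (j + 1)) :=
      { carrier := {x | γ (b • x) = φ b • γ x}
        zero_mem' := by simp
        add_mem' := fun {x y} hx hy => by
          simp only [Set.mem_ofPred_eq, smul_add, map_add] at hx hy ⊢
          rw [hx, hy]
        smul_mem' := fun c x hx => by
          simp only [Set.mem_ofPred_eq] at hx ⊢
          rw [smul_comm b c, map_smul, hx, map_smul, smul_comm] }
    refine mu_span ι M (j + 1) W (fun m y => ?_) x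
    change γ (b • _) = φ b • γ _
    rw [← mu_smul, hγ, hγ, hβ, hβ, D.semi (u m) b y]
  obtain ⟨w, hw⟩ := h γ hs
  let v : M →ₗ[S] J ι j X :=
    { toFun := fun m => HomR.mk _ (w ∘ₗ mu ι M j m)
      map_add' := fun a b => by ext; simp
      map_smul' := fun a m => by ext y; simp [mu_bal] }
  refine ⟨v, fun m => D.ext fun y => ?_⟩
  rw [δ_apply, ← hβ, ← hγ, ← hw, inc_mu, extS_comp_lT]
  rfl

end homJ

section L

variable (ι : R →ₐ[k] S)

/-- the differential of the induced complex. -/
def dL (j : ℕ) : S ⊗[k] K ι (j + 1) →ₗ[S] S ⊗[k] K ι j :=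
  ext1 S (TensorProduct.map ι.toLinearMap LinearMap.id ∘ₗ ((K0 ι).inc j).restrictScalars k)

theorem dL_tmul (j : ℕ) (a : S) (y : K ι (j + 1)) :
    dL ι j (a ⊗ₜ y) = a • TensorProduct.map ι.toLinearMap LinearMap.id ((K0 ι).inc j y) := by
  simp [dL]

theorem dL_rt (j : ℕ) (a : S) (b : R) (y : K ι j) :
    dL ι j (a ⊗ₜ (K0 ι).rt j (b ⊗ₜ y)) = (a * ι b) ⊗ₜ y - a ⊗ₜ (b • y) := by
  simp [dL_tmul, KMod.inc_rt, smul_sub, smul_tmul']

theorem ext1_dL {X : Type} [AddCommGroup X] [Module k X] [Module S X] [IsScalarTower k S X]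
    (j : ℕ) (u : K ι j →ₗ[k] X) (z : S ⊗[k] K ι (j + 1)) :
    ext1 S u (dL ι j z) = ext1 S (extS ι u ∘ₗ ((K0 ι).inc j).restrictScalars k) z := by
  induction z using TensorProduct.induction_on with
  | zero => simp
  | tmul a x => simp [dL_tmul, extS]
  | add a b ha hb => simp only [map_add, ha, hb]

theorem ext1_dL_semi {X : Type} [AddCommGroup X] [Module k X] [Module S X] [IsScalarTower k S X]
    (j : ℕ) {u : K ι j →ₗ[k] X} (hu : IsSemi ι u) (z : S ⊗[k] K ι (j + 1)) :
    ext1 S u (dL ι j z) = 0 := by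
  have : extS ι u ∘ₗ ((K0 ι).inc j).restrictScalars k = 0 := by
    ext y; simp [hu.extS_eq]
  rw [ext1_dL, this]
  induction z using TensorProduct.induction_on with
  | zero => simp
  | tmul a x => simp
  | add a b ha hb => simp only [map_add, ha, hb, add_zero]

theorem dL_dL (j : ℕ) (z : S ⊗[k] K ι (j + 2)) : dL ι j (dL ι (j + 1) z) = 0 :=
  ext1_dL_semi ι (j + 1) (fun b y => by simp [isSemi_map ι _ b]) z

theorem dL_rl (j : ℕ) :
    IsRL ((rK ι (j + 1)).lT S) ((rK ι j).lT S) ((dL ι j).restrictScalars k) := by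
  intro a z
  induction z using TensorProduct.induction_on with
  | zero => simp
  | tmul b y =>
    simp only [RAct.lT_tmul, LinearMap.restrictScalars_apply, dL_tmul, inc_rK]
    generalize (K0 ι).inc j y = w
    induction w using TensorProduct.induction_on with
    | zero => simp
    | tmul c x => simp [smul_tmul']
    | add a b ha hb => simp only [map_add, smul_add, ha, hb]
  | add a b ha hb => simp only [map_add, ha, hb]

/-- the dual of the algebra. -/
abbrev DualM (k S : Type) [Field k] [Ring S] [Algebra k S] [FiniteDimensional k S] : KMod k S :=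
  KMod.of k S (CoInd k S k)

theorem dL_exact (j : ℕ) (h : ExtProp ι (K0 ι) (CoInd k S k) j) (z : S ⊗[k] K ι (j + 1))
    (hz : dL ι j z = 0) : ∃ w, dL ι (j + 1) w = z := by
  by_contra hn
  have hn' : z ∉ LinearMap.range ((dL ι (j + 1)).restrictScalars k) := hn
  obtain ⟨l, hl, hl'⟩ := Submodule.exists_le_ker_of_notMem hn'
  let u : K ι (j + 1) →ₗ[k] CoInd k S k :=
    (HomR.lin _).symm.toLinearMap ∘ₗ (TensorProduct.curry l).flip
  have hu0 : ∀ y a, u y a = l (a ⊗ₜ y) := fun _ _ => rfl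
  have hu : IsSemi ι u := by
    intro b y
    ext a
    have := hl' ⟨a ⊗ₜ (K0 ι).rt (j + 1) (b ⊗ₜ y), rfl⟩
    simp only [LinearMap.restrictScalars_apply, dL_rt, LinearMap.mem_ker, map_sub] at this
    simp only [hu0, HomR.smul_apply, RAct.rmul_apply]
    exact (sub_eq_zero.1 this).symm
  obtain ⟨v, hv⟩ := h u hu
  have e1 : extS ι v ∘ₗ ((K0 ι).inc j).restrictScalars k = u := LinearMap.ext hv
  have e2 : ∀ w, ext1 S u w 1 = l w := by
    intro w
    induction w using TensorProduct.induction_on with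
    | zero => simp
    | tmul a x => simp [hu0]
    | add a b ha hb => simp [ha, hb]
  apply hl
  rw [← e2, ← e1, ← ext1_dL, hz]
  simp

end L

end

end Vale.Agent.P195
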