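import Vale.Agent.P195.Tower

/-! The action of a grading automorphism on stable homomorphisms. -/

open TensorProduct

namespace Vale.Agent.P195

noncomputable section

variable {k : Type} [Field k]

/-- polynomial vector valued functions. -/
def IsPoly {V : Type} [AddCommGroup V] [Module k V] (F : k → V) : Prop :=
  F ∈ Submodule.span k (Set.range fun p : ℕ × V => fun l : k => l ^ p.1 • p.2)

namespace IsPoly

variable {V W : Type} [AddCommGroup V] [Module k V] [AddCommGroup W] [Module k W]

theorem mono (n : ℕ) (v : V) : IsPoly fun l : k => l ^ n • v :=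
  Submodule.subset_span ⟨(n, v), rfl⟩

theorem const (v : V) : IsPoly fun _ : k => v := by simpa using mono (k := k) 0 v

theorem add {F G : k → V} (hF : IsPoly F) (hG : IsPoly G) : IsPoly fun l => F l + G l :=
  Submodule.add_mem _ hF hG

theorem smul {F : k → V} (hF : IsPoly F) (c : k) : IsPoly fun l => c • F l :=
  Submodule.smul_mem _ c hF

theorem map {F : k → V} (hF : IsPoly F) (u : V →ₗ[k] W) : IsPoly fun l => u (F l) := by
  induction hF using Submodule.span_induction with
  | mem x hx =>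
    obtain ⟨⟨n, v⟩, rfl⟩ := hx
    simpa using mono (k := k) n (u v)
  | zero => simpa using const (k := k) (0 : W)
  | add x y _ _ hx hy => simpa using hx.add hy
  | smul c x _ hx => simpa using hx.smul c

theorem tmul {F : k → V} {G : k → W} (hF : IsPoly F) (hG : IsPoly G) :
    IsPoly fun l => F l ⊗ₜ[k] G l := by
  induction hF using Submodule.span_induction with
  | mem x hx =>
    obtain ⟨⟨n, v⟩, rfl⟩ := hx
    induction hG using Submodule.span_induction with
    | mem y hy =>
      obtain ⟨⟨m, w⟩, rfl⟩ := hy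
      convert mono (k := k) (n + m) (v ⊗ₜ[k] w) using 1
      funext l
      simp [smul_tmul', pow_add, smul_smul, mul_comm]
    | zero => simpa using const (k := k) (0 : V ⊗[k] W)
    | add x y _ _ hx hy => simpa [tmul_add] using hx.add hy
    | smul c x _ hx => simpa using hx.smul c
  | zero => simpa using const (k := k) (0 : V ⊗[k] W)
  | add x y _ _ hx hy => simpa [add_tmul] using hx.add hy
  | smul c x _ hx => simpa [smul_tmul'] using hx.smul c

theorem exists_poly {F : k → k} (hF : IsPoly F) : ∃ p : Polynomial k, ∀ l, F l = p.eval l := by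
  induction hF using Submodule.span_induction with
  | mem x hx =>
    obtain ⟨⟨n, v⟩, rfl⟩ := hx
    exact ⟨Polynomial.monomial n v, fun l => by simp [mul_comm]⟩
  | zero => exact ⟨0, fun l => by simp⟩
  | add x y _ _ hx hy =>
    obtain ⟨p, hp⟩ := hx
    obtain ⟨q, hq⟩ := hy
    exact ⟨p + q, fun l => by simp [hp, hq]⟩
  | smul c x _ hx =>
    obtain ⟨p, hp⟩ := hx
    exact ⟨c • p, fun l => by simp [hp]⟩

theorem eq_of_pow {F : k → V} (hF : IsPoly F) {H : k} (hH : Function.Injective fun n : ℕ => H ^ n)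
    (h : ∀ n : ℕ, F (H ^ n) = F 1) : F 0 = F 1 := by
  rw [← sub_eq_zero, ← Module.forall_dual_apply_eq_zero_iff k]
  intro φ
  obtain ⟨p, hp⟩ := (hF.map φ).exists_poly
  have : p - Polynomial.C (p.eval 1) = 0 := by
    apply Polynomial.eq_zero_of_infinite_isRoot
    refine (Set.infinite_range_of_injective hH).mono ?_
    rintro _ ⟨n, rfl⟩
    simp [← hp, h n]
  have h0 := congrArg (Polynomial.eval 0) this
  simp only [Polynomial.eval_sub, Polynomial.eval_C, Polynomial.eval_zero] at h0
  rw [map_sub, hp, hp, h0]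

end IsPoly

variable {S : Type} [Ring S] [Algebra k S] [FiniteDimensional k S]

omit [FiniteDimensional k S] in
instance finHom (M N : Type) [AddCommGroup M] [Module k M] [Module S M] [IsScalarTower k S M]
    [FiniteDimensional k M] [AddCommGroup N] [Module k N] [Module S N] [IsScalarTower k S N]
    [FiniteDimensional k N] : FiniteDimensional k (M →ₗ[S] N) :=
  FiniteDimensional.of_injective (LinearMap.restrictScalarsₗ k S M N k)
    (LinearMap.restrictScalars_injective k)

variable {B : Type} [Ring B] [Algebra k B]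

/-- A polynomial action of the multiplicative monoid contracting onto a subalgebra. -/
structure Grading (k B S : Type) [Field k] [Ring S] [Algebra k S] [Ring B] [Algebra k B] where
  ι : B →ₐ[k] S
  π : S →ₐ[k] B
  h : k → S →ₐ[k] S
  h_one : ∀ a, h 1 a = a
  h_mul : ∀ l m a, h (l * m) a = h l (h m a)
  h_zero : ∀ a, h 0 a = ι (π a)
  h_ι : ∀ l b, h l (ι b) = ι b
  poly : ∀ a, IsPoly fun l => h l a

namespace Grading

variable (G : Grading k B S) {s : KMod k S} (hs : ∀ l a (x : s), G.h l a • x = a • x)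

include hs in
omit [FiniteDimensional k S] in
theorem semi_id (l : k) : IsSemi (G.h l) (LinearMap.id : s →ₗ[k] s) := fun a x => (hs l a x).symm

/-- the induced semilinear maps on syzygies. -/
def η (l : k) (m : ℕ) : s.syzN m →ₗ[k] s.syzN m := mapN (G.semi_id hs l) m

theorem η_semi (l : k) (m : ℕ) : IsSemi (G.h l) (G.η hs l m) := isSemi_mapN _ m

theorem η_mul (l l' : k) (m : ℕ) (y : s.syzN m) :
    G.η hs (l * l') m y = G.η hs l m (G.η hs l' m y) :=
  mapN_comp _ _ _ (G.h_mul l l') (fun _ => rfl) m y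

theorem η_one (m : ℕ) (y : s.syzN m) : G.η hs 1 m y = y :=
  mapN_id _ G.h_one (fun _ => rfl) m y

theorem η_zero' (l : k) (y : s.syzN 0) : G.η hs l 0 y = y := rfl

theorem inc_η (l : k) (m : ℕ) (y : s.syzN (m + 1)) :
    s.inc m (G.η hs l (m + 1) y) = TensorProduct.map (G.h l).toLinearMap (G.η hs l m) (s.inc m y) :=
  rfl

theorem η_poly (m : ℕ) (y : s.syzN m) : IsPoly fun l => G.η hs l m y := by
  induction m with
  | zero => exact IsPoly.const y
  | succ m ih =>
    have h1 : ∀ z : S ⊗[k] s.syzN m,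
        IsPoly fun l => TensorProduct.map (G.h l).toLinearMap (G.η hs l m) z := by
      intro z
      induction z using TensorProduct.induction_on with
      | zero => simpa using IsPoly.const (k := k) (0 : S ⊗[k] s.syzN m)
      | tmul a x => simpa using (G.poly a).tmul (ih x)
      | add a b ha hb => simpa using ha.add hb
    have := (h1 (s.inc m y)).map (s.rt m)
    simpa only [← inc_η, KMod.rt_inc] using this

include hs in
omit [FiniteDimensional k S] in
theorem tw_semi {M : Type} [AddCommGroup M] [Module k M] [Module S M] [IsScalarTower k S M] {l : k}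
    {e : M →ₗ[k] M} (he : IsSemi (G.h l) e) (u : M →ₗ[S] s) :
    IsSemi (AlgHom.id k S) (u.restrictScalars k ∘ₗ e) := fun a y => by
  simp [he a y, hs]

/-- twisting of homomorphisms. -/
def tw (l : k) (m : ℕ) : (s.syzN m →ₗ[S] s) →ₗ[k] (s.syzN m →ₗ[S] s) where
  toFun u := (G.tw_semi hs (G.η_semi hs l m) u).toLin
  map_add' _ _ := rfl
  map_smul' _ _ := rfl

theorem tw_apply (l : k) (m : ℕ) (u : s.syzN m →ₗ[S] s) (y : s.syzN m) :
    G.tw hs l m u y = u (G.η hs l m y) := rfl

theorem tw_PF [SelfInj k S] (l : k) (m : ℕ) {u : s.syzN (m + 1) →ₗ[S] s} (hu : u ∈ PF k S _ _) :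
    G.tw hs l (m + 1) u ∈ PF k S _ _ := by
  obtain ⟨v, -, hv⟩ := PF.extend hu (s.inc m) (s.inc_inj m)
  refine PF.of_factor' (s.inc m)
    (G.tw_semi hs (isSemi_map (G.h l) (G.η hs l m)) v).toLin fun y => ?_
  rw [tw_apply, ← hv, inc_η]
  rfl

variable [FiniteDimensional k B]

theorem tw_zero_PF (m : ℕ) (hB : EZ B (s.res G.ι) (s.res G.ι) (m + 1))
    (u : s.syzN (m + 1) →ₗ[S] s) : G.tw hs 0 (m + 1) u ∈ PF k S _ _ := by
  have hi : IsSemi G.ι (s.toRes G.ι).symm.toLinearMap := fun b x => rfl
  have hp : IsSemi G.π (s.toRes G.ι).toLinearMap := fun a x => by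
    change s.toRes G.ι (a • x) = s.toRes G.ι (G.ι (G.π a) • x)
    rw [← G.h_zero, hs]
  have hip : ∀ n y, G.η hs 0 n y = mapN hi n (mapN hp n y) :=
    mapN_comp hp hi _ G.h_zero (fun _ => rfl)
  obtain ⟨v, hv⟩ := ExtProp.of_EZ hB (u.restrictScalars k ∘ₗ mapN hi (m + 1))
    (fun b y => by simp [isSemi_mapN hi (m + 1) b y])
  refine PF.of_factor' (s.inc m) (ext1 S (v ∘ₗ mapN hp m)) fun y => ?_
  have := hv (mapN hp (m + 1) y)
  rw [inc_mapN] at this
  rw [tw_apply, hip]
  refine this.symm.trans ?_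
  generalize s.inc m y = z
  induction z using TensorProduct.induction_on with
  | zero => simp
  | tmul a x => simp [← G.h_zero, hs]
  | add a b ha hb => simp only [map_add, ha, hb]

variable {H : k} (hH : Function.Injective fun n : ℕ => H ^ n)

include hH in
theorem tw_surj (m : ℕ) (hB : EZ B (s.res G.ι) (s.res G.ι) (m + 1))
    (u : s.syzN (m + 1) →ₗ[S] s) :
    ∃ v, u - (G.tw hs H (m + 1) v - v) ∈ PF k S _ _ := by
  let U := LinearMap.ker (G.tw hs 0 (m + 1))
  let F : (s.syzN (m + 1) →ₗ[S] s) →ₗ[k] (s.syzN (m + 1) →ₗ[S] s) :=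
    G.tw hs H (m + 1) - LinearMap.id
  have h0 : ∀ l (w : s.syzN (m + 1) →ₗ[S] s),
      G.tw hs 0 (m + 1) (G.tw hs l (m + 1) w) = G.tw hs 0 (m + 1) w := by
    intro l w
    ext y
    rw [tw_apply, tw_apply, ← η_mul, mul_zero, tw_apply]
  have hF : ∀ w ∈ U, F w ∈ U := by
    intro w _
    simp [U, F, h0]
  have hinj : Function.Injective (F.restrict hF) := by
    rw [injective_iff_map_eq_zero]
    rintro ⟨w, hw⟩ hw'
    have h1 : G.tw hs H (m + 1) w = w := sub_eq_zero.1 (congrArg Subtype.val hw')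
    refine Subtype.ext (LinearMap.ext fun y => ?_)
    have h2 := ((G.η_poly hs (m + 1) y).map (w.restrictScalars k)).eq_of_pow hH (fun n => by
      induction n with
      | zero => simp
      | succ n ih =>
        simp only [LinearMap.restrictScalars_apply] at ih ⊢
        rw [pow_succ', η_mul, ← tw_apply, h1, ih])
    simp only [LinearMap.restrictScalars_apply, η_one] at h2
    have h3 : G.tw hs 0 (m + 1) w y = 0 := by rw [LinearMap.mem_ker.1 hw]; rfl
    rw [tw_apply, h2] at h3
    exact h3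
  have hsurj := LinearMap.injective_iff_surjective.1 hinj
  obtain ⟨⟨v, hv⟩, hv'⟩ := hsurj ⟨u - G.tw hs 0 (m + 1) u, by simp [U, h0]⟩
  have h4 : G.tw hs H (m + 1) v - v = u - G.tw hs 0 (m + 1) u := congrArg Subtype.val hv'
  refine ⟨v, ?_⟩
  rw [h4, sub_sub_cancel]
  exact G.tw_zero_PF hs m hB u

include hH in
theorem tw_inj [SelfInj k S] (m : ℕ) (hB : EZ B (s.res G.ι) (s.res G.ι) (m + 1))
    (u : s.syzN (m + 1) →ₗ[S] s) (hu : G.tw hs H (m + 1) u - u ∈ PF k S _ _) :
    u ∈ PF k S _ _ := by
  let W := PF k S (s.syzN (m + 1)) s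
  let F : (s.syzN (m + 1) →ₗ[S] s) →ₗ[k] (s.syzN (m + 1) →ₗ[S] s) :=
    G.tw hs H (m + 1) - LinearMap.id
  have hF : W ≤ W.comap F := fun w hw => sub_mem (G.tw_PF hs H m hw) hw
  have hsurj : Function.Surjective (W.mapQ W F hF) := by
    intro x
    obtain ⟨x, rfl⟩ := W.mkQ_surjective x
    obtain ⟨v, hv⟩ := G.tw_surj hs hH m hB x
    refine ⟨W.mkQ v, ?_⟩
    rw [Submodule.mkQ_apply, Submodule.mapQ_apply, Submodule.mkQ_apply, eq_comm,
      Submodule.Quotient.eq]
    exact hv
  have hinj := LinearMap.injective_iff_surjective.2 hsurj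
  rw [← Submodule.Quotient.mk_eq_zero]
  apply hinj
  rw [map_zero, Submodule.mapQ_apply, Submodule.Quotient.mk_eq_zero]
  exact hu

end Grading

end

end Vale.Agent.P195
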